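import Vale.Agent.Lib.P243.ExactGood

open MeasureTheory Set Module Filter Topology TopologicalSpace
open scoped ENNReal Pointwise RealInnerProductSpace

namespace Vale.Agent.Lib.P243

variable {E : Type*} [NormedAddCommGroup E] [InnerProductSpace ℝ E] [FiniteDimensional ℝ E]
  [MeasurableSpace E] [BorelSpace E]

/-- A third functional completing two non-parallel unit normals to a coordinate system. -/
lemma exists_third (hE : finrank ℝ E = 3) {n1 n2 : E} (h1 : ‖n1‖ = 1) (h2 : ‖n2‖ = 1)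
    (h12 : |⟪n1, n2⟫| < 1) :
    ∃ n3 : E, ∀ x : E, ⟪n1, x⟫ = 0 → ⟪n2, x⟫ = 0 → ⟪n3, x⟫ = 0 → x = 0 := by
  have hind : LinearIndependent ℝ ![n1, n2] := by
    rw [LinearIndependent.pair_iff]
    intro a b hab
    have e1 : a + b * ⟪n1, n2⟫ = 0 := by
      have := congrArg (fun y => ⟪n1, y⟫) hab
      simp only [inner_add_right, inner_smul_right, real_inner_self_eq_norm_sq, h1, inner_zero_right] at this
      linarith
    have e2 : a * ⟪n1, n2⟫ + b = 0 := by
      have := congrArg (fun y => ⟪n2, y⟫) hab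
      simp only [inner_add_right, inner_smul_right, real_inner_self_eq_norm_sq, h2, inner_zero_right,
        real_inner_comm n1 n2] at this
      linarith
    have h3 : ⟪n1, n2⟫ ^ 2 < 1 := by
      have := abs_lt.1 h12
      nlinarith [this.1, this.2]
    have ha : a * (1 - ⟪n1, n2⟫ ^ 2) = 0 := by
      have : a * (1 - ⟪n1, n2⟫ ^ 2) = (a + b * ⟪n1, n2⟫) - ⟪n1, n2⟫ * (a * ⟪n1, n2⟫ + b) := by ring
      rw [this, e1, e2]
      ring
    have ha0 : a = 0 := (mul_eq_zero.1 ha).resolve_right (by linarith)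
    refine ⟨ha0, ?_⟩
    rw [ha0] at e1 e2
    linarith
  set S := Submodule.span ℝ (Set.range ![n1, n2]) with hS
  have hfr : finrank ℝ S = 2 := by
    rw [hS, finrank_span_eq_card hind]
    simp
  have hfr2 : finrank ℝ Sᗮ = 1 := by
    have := S.finrank_add_finrank_orthogonal
    omega
  obtain ⟨v, hv0, hv⟩ := finrank_eq_one_iff'.1 hfr2
  refine ⟨(v : E), fun x hx1 hx2 hx3 => ?_⟩
  have hxS : x ∈ Sᗮ := by
    rw [Submodule.mem_orthogonal]
    intro w hw
    induction hw using Submodule.span_induction with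
    | mem w hw =>
      obtain ⟨i, rfl⟩ := hw
      fin_cases i
      · exact hx1
      · exact hx2
    | zero => simp
    | add a b _ _ ha hb => rw [inner_add_left, ha, hb, add_zero]
    | smul c a _ ha => rw [real_inner_smul_left, ha, mul_zero]
  obtain ⟨c, hc⟩ := hv ⟨x, hxS⟩
  have hx : x = c • (v : E) := by
    have := congrArg Subtype.val hc
    simpa using this.symm
  rw [hx, inner_smul_right, real_inner_self_eq_norm_sq] at hx3
  have hvpos : 0 < ‖(v : E)‖ := by
    have : (v : E) ≠ 0 := by simpa using hv0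
    exact norm_pos_iff.2 this
  have hc0 : c = 0 := by
    rcases mul_eq_zero.1 hx3 with h | h
    · exact h
    · exfalso
      have : 0 < ‖(v : E)‖ ^ 2 := by positivity
      linarith
  rw [hx, hc0, zero_smul]

/-- The set of points of `K` within depth `s` of both planes of a pair. -/
def capSet (K : Set E) (i j : ℕ) (s : ℝ) : Set E := {x | x ∈ K ∧ dd K i x ≤ s ∧ dd K j x ≤ s}

/-- The cap of depth `s` of an admissible pair has volume of order `s ^ 2`. -/
lemma cap_volume (hE : finrank ℝ E = 3) {K : Set E} (hB : Body K) {i j : ℕ} (h : Adm K i j) :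
    ∃ C : ℝ≥0∞, C ≠ ⊤ ∧ ∀ s : ℝ, 0 < s → volume (capSet K i j s) ≤ C * (ENNReal.ofReal s * ENNReal.ofReal s) := by
  set n1 := nhat K (denseSeq E i) with hn1
  set n2 := nhat K (denseSeq E j) with hn2
  obtain ⟨n3, hn3⟩ := exists_third hE (nhat_norm hB h.hi) (nhat_norm hB h.hj) h.hpar
  let L : E →ₗ[ℝ] (Fin 3 → ℝ) :=
    LinearMap.pi ![innerₗ E n1, innerₗ E n2, innerₗ E n3]
  have hL0 : L.ker = ⊥ := by
    rw [LinearMap.ker_eq_bot']
    intro x hx
    apply hn3 x
    · have := congrFun hx 0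
      simpa [L] using this
    · have := congrFun hx 1
      simpa [L] using this
    · have := congrFun hx 2
      simpa [L] using this
  have hdim : finrank ℝ E = finrank ℝ (Fin 3 → ℝ) := by
    rw [hE]
    simp
  let Ψ : E ≃L[ℝ] (Fin 3 → ℝ) := (L.linearEquivOfInjective (LinearMap.ker_eq_bot.1 hL0) hdim).toContinuousLinearEquiv
  have hΨ : ∀ x, Ψ x = ![⟪n1, x⟫, ⟪n2, x⟫, ⟪n3, x⟫] := by
    intro x
    ext k
    fin_cases k <;> simp [Ψ, L]
  haveI : (Measure.map Ψ (volume : Measure E)).IsAddHaarMeasure := Ψ.isAddHaarMeasure_map volume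
  set c := Measure.addHaarScalarFactor (Measure.map Ψ (volume : Measure E)) (volume : Measure (Fin 3 → ℝ)) with hc
  have hmap : Measure.map Ψ (volume : Measure E) = c • (volume : Measure (Fin 3 → ℝ)) :=
    Measure.isAddLeftInvariant_eq_smul _ _
  obtain ⟨M, hM⟩ := hB.hK.isBounded.exists_norm_le
  set a1 := ⟪n1, nearest K (denseSeq E i)⟫ with ha1
  set a2 := ⟪n2, nearest K (denseSeq E j)⟫ with ha2
  set R := ‖n3‖ * M + 1 with hR
  refine ⟨c * ENNReal.ofReal (2 * R), ENNReal.mul_ne_top ENNReal.coe_ne_top ENNReal.ofReal_ne_top,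
    fun s hs => ?_⟩
  let lo : Fin 3 → ℝ := ![a1 - s, a2 - s, -R]
  let hi : Fin 3 → ℝ := ![a1, a2, R]
  have hsub : capSet K i j s ⊆ Ψ ⁻¹' Icc lo hi := by
    rintro x ⟨hx, h1, h2⟩
    have h3 : ⟪n1, x⟫ ≤ a1 := nhat_inner_le hB hx
    have h4 : ⟪n2, x⟫ ≤ a2 := nhat_inner_le hB hx
    have h5 : a1 - ⟪n1, x⟫ ≤ s := by
      have : dd K i x = a1 - ⟪n1, x⟫ := by
        rw [dd, inner_sub_right]
      linarith
    have h6 : a2 - ⟪n2, x⟫ ≤ s := by
      have : dd K j x = a2 - ⟪n2, x⟫ := by
        rw [dd, inner_sub_right]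
      linarith
    have h7 : |⟪n3, x⟫| ≤ R := by
      have h8 := abs_real_inner_le_norm n3 x
      have h9 : ‖n3‖ * ‖x‖ ≤ ‖n3‖ * M := mul_le_mul_of_nonneg_left (hM x hx) (norm_nonneg _)
      rw [hR]
      linarith
    have h10 := abs_le.1 h7
    rw [mem_preimage, hΨ, mem_Icc, Pi.le_def, Pi.le_def]
    constructor
    · intro k
      fin_cases k
      · show a1 - s ≤ ⟪n1, x⟫
        linarith
      · show a2 - s ≤ ⟪n2, x⟫
        linarith
      · show -R ≤ ⟪n3, x⟫
        linarith
    · intro k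
      fin_cases k
      · exact h3
      · exact h4
      · exact h10.2
  calc volume (capSet K i j s) ≤ volume (Ψ ⁻¹' Icc lo hi) := measure_mono hsub
    _ = Measure.map Ψ volume (Icc lo hi) := by
        rw [Measure.map_apply Ψ.continuous.measurable measurableSet_Icc]
    _ = c * volume (Icc lo hi) := by
        rw [hmap]
        rfl
    _ = c * ENNReal.ofReal (2 * R) * (ENNReal.ofReal s * ENNReal.ofReal s) := by
        rw [Real.volume_Icc_pi, Fin.prod_univ_three]
        have e1 : hi 0 - lo 0 = s := by simp [hi, lo]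
        have e2 : hi 1 - lo 1 = s := by simp [hi, lo]
        have e3 : hi 2 - lo 2 = 2 * R := by simp [hi, lo]; ring
        rw [e1, e2, e3]
        ring

/-- A scale at which the cap of an admissible pair is much smaller than its depth. -/
lemma exists_scale (hE : finrank ℝ E = 3) {K : Set E} (hB : Body K) {i j : ℕ} (h : Adm K i j)
    {τ smax : ℝ} (hτ : 0 < τ) (hs : 0 < smax) :
    ∃ s : ℝ, 0 < s ∧ s ≤ smax ∧ volume (capSet K i j s) ≤ ENNReal.ofReal (τ * s) := by
  obtain ⟨C, hC, hcap⟩ := cap_volume hE hB h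
  set C' := C.toReal with hC'
  have hC'0 : 0 ≤ C' := ENNReal.toReal_nonneg
  have e : C = ENNReal.ofReal C' := (ENNReal.ofReal_toReal hC).symm
  set s := min smax (τ / (C' + 1)) with hsdef
  have hspos : 0 < s := lt_min hs (by positivity)
  refine ⟨s, hspos, min_le_left _ _, (hcap s hspos).trans ?_⟩
  rw [e, ← ENNReal.ofReal_mul hspos.le, ← ENNReal.ofReal_mul hC'0]
  apply ENNReal.ofReal_le_ofReal
  have h1 : s ≤ τ / (C' + 1) := min_le_right _ _
  have h2 : s * (C' + 1) ≤ τ := (le_div_iff₀ (by positivity)).1 h1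
  have h3 : C' * s ≤ τ := by nlinarith
  calc C' * (s * s) = (C' * s) * s := by ring
    _ ≤ τ * s := mul_le_mul_of_nonneg_right h3 hspos.le

end Vale.Agent.Lib.P243
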