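import Mathlib

/-!
Bang's plank lemma and the plank theorem in a layer, for arbitrary subsets of the line as bases.
-/

open MeasureTheory Set
open scoped ENNReal RealInnerProductSpace

namespace Vale.Agent.Lib.P243.Cop

variable {X : Type*} [NormedAddCommGroup X] [InnerProductSpace ℝ X]

/-- The sign of a Boolean. -/
noncomputable def sg (b : Bool) : ℝ := if b then 1 else -1

lemma sg_not (b : Bool) : sg (!b) = - sg b := by cases b <;> simp [sg]

lemma sg_sq (b : Bool) : sg b * sg b = 1 := by cases b <;> simp [sg]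

lemma abs_sg (b : Bool) : |sg b| = 1 := by cases b <;> simp [sg]

/-- Bang's lemma: for unit vectors `n j`, weights `δ j` and reals `m j` some choice of signs makes
`s = ∑ σ i δ i n i` satisfy `δ j ≤ |⟪n j, s⟫ - m j|` for all `j`. -/
theorem bang_lemma {J : Type*} [Fintype J] [DecidableEq J] (n : J → X) (hn : ∀ j, ‖n j‖ = 1)
    (δ : J → ℝ) (hδ : ∀ j, 0 ≤ δ j) (m : J → ℝ) :
    ∃ σ : J → Bool, ∀ j, δ j ≤ |⟪n j, ∑ i, (sg (σ i) * δ i) • n i⟫ - m j| := by
  classical
  let v : (J → Bool) → X := fun σ => ∑ i, (sg (σ i) * δ i) • n i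
  let Φ : (J → Bool) → ℝ := fun σ => ‖v σ‖ ^ 2 - 2 * ∑ i, sg (σ i) * δ i * m i
  obtain ⟨σ, hσ⟩ := Finite.exists_max Φ
  refine ⟨σ, fun j => ?_⟩
  have hflip := hσ (Function.update σ j (!σ j))
  -- the flipped vector
  have hv : v (Function.update σ j (!σ j)) = v σ - (2 * (sg (σ j) * δ j)) • n j := by
    have h1 : v (Function.update σ j (!σ j)) - v σ = - (2 * (sg (σ j) * δ j)) • n j := by
      simp only [v]
      rw [← Finset.sum_sub_distrib, Finset.sum_eq_single j]
      · simp only [Function.update_self, sg_not, ← sub_smul]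
        congr 1
        ring
      · intro i _ hij
        simp [Function.update_of_ne hij]
      · simp
    rw [sub_eq_iff_eq_add] at h1
    rw [h1, neg_smul]
    abel
  have hsum : ∑ i, sg (Function.update σ j (!σ j) i) * δ i * m i
      = ∑ i, sg (σ i) * δ i * m i - 2 * (sg (σ j) * δ j * m j) := by
    have h1 : ∑ i, sg (Function.update σ j (!σ j) i) * δ i * m i - ∑ i, sg (σ i) * δ i * m i
        = - (2 * (sg (σ j) * δ j * m j)) := by
      rw [← Finset.sum_sub_distrib, Finset.sum_eq_single j]
      · simp only [Function.update_self, sg_not]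
        ring
      · intro i _ hij
        simp [Function.update_of_ne hij]
      · simp
    linarith
  have hnorm : ‖v (Function.update σ j (!σ j))‖ ^ 2
      = ‖v σ‖ ^ 2 - 2 * (2 * (sg (σ j) * δ j)) * ⟪n j, v σ⟫ + (2 * (sg (σ j) * δ j)) ^ 2 := by
    rw [hv, norm_sub_sq_real, norm_smul, mul_pow, Real.norm_eq_abs, sq_abs, hn j, real_inner_smul_right,
      real_inner_comm]
    ring
  have h2 : sg (σ j) * δ j * (⟪n j, v σ⟫ - m j) ≥ δ j ^ 2 := by
    have h3 : Φ (Function.update σ j (!σ j)) ≤ Φ σ := hflip
    simp only [Φ] at h3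
    rw [hnorm, hsum] at h3
    have h4 : (2 * (sg (σ j) * δ j)) ^ 2 = 4 * δ j ^ 2 := by
      have := sg_sq (σ j)
      calc (2 * (sg (σ j) * δ j)) ^ 2 = 4 * (sg (σ j) * sg (σ j)) * δ j ^ 2 := by ring
        _ = _ := by rw [this]; ring
    rw [h4] at h3
    nlinarith
  rcases (hδ j).eq_or_lt with h0 | hpos
  · rw [← h0]
    exact abs_nonneg _
  · have h5 : δ j * δ j ≤ δ j * |⟪n j, v σ⟫ - m j| := by
      have h6 : sg (σ j) * δ j * (⟪n j, v σ⟫ - m j) ≤ δ j * |⟪n j, v σ⟫ - m j| := by
        have : sg (σ j) * (⟪n j, v σ⟫ - m j) ≤ |⟪n j, v σ⟫ - m j| := by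
          calc _ ≤ |sg (σ j) * (⟪n j, v σ⟫ - m j)| := le_abs_self _
            _ = _ := by rw [abs_mul, abs_sg, one_mul]
        nlinarith
      nlinarith
    exact le_of_mul_le_mul_left h5 hpos

/-- A convex set with long chords in all plank directions contains a point outside all planks
(finite form). -/
theorem bang_finite {J : Type*} [Fintype J] [DecidableEq J] {S : Set X} (hS : Convex ℝ S) {μ : ℝ} (hμ : 0 < μ)
    {p : X} (hp : p ∈ S) (n : J → X) (hn : ∀ j, ‖n j‖ = 1) (a : J → X) (ha : ∀ j, a j ∈ S)
    (hab : ∀ j, a j + μ • n j ∈ S) (δ : J → ℝ) (hδ : ∀ j, 0 ≤ δ j) (hsum : ∑ j, δ j ≤ μ) (m : J → ℝ) :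
    ∃ x ∈ S, ∀ j, δ j / 2 ≤ |⟪n j, x⟫ - m j| := by
  classical
  -- the weights
  let lam : J → ℝ := fun j => δ j / μ
  have hlam0 : ∀ j, 0 ≤ lam j := fun j => div_nonneg (hδ j) hμ.le
  have hlam1 : ∑ j, lam j ≤ 1 := by
    simp only [lam]
    rw [← Finset.sum_div, div_le_one hμ]
    exact hsum
  -- the base point of the zonotope
  let x0 : X := (1 - ∑ j, lam j) • p + ∑ j, lam j • a j
  let w : X := (1 / 2 : ℝ) • ∑ j, δ j • n j
  -- apply Bang's lemma
  obtain ⟨σ, hσ⟩ := bang_lemma n hn δ hδ (fun j => 2 * (m j - ⟪n j, x0 + w⟫))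
  let v : X := ∑ i, (sg (σ i) * δ i) • n i
  refine ⟨x0 + w + (1 / 2 : ℝ) • v, ?_, fun j => ?_⟩
  · -- membership through an explicit convex combination
    let y : J → X := fun j => if σ j then a j + μ • n j else a j
    have hy : ∀ j, y j ∈ S := by
      intro j
      simp only [y]
      split_ifs
      · exact hab j
      · exact ha j
    have heq : x0 + w + (1 / 2 : ℝ) • v = (1 - ∑ j, lam j) • p + ∑ j, lam j • y j := by
      have h1 : ∑ j, lam j • y j = ∑ j, lam j • a j + ∑ j, (if σ j then δ j else 0) • n j := by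
        rw [← Finset.sum_add_distrib]
        refine Finset.sum_congr rfl fun j _ => ?_
        simp only [y, lam]
        split_ifs
        · rw [smul_add, smul_smul, div_mul_cancel₀ _ hμ.ne']
        · simp
      have h2 : w + (1 / 2 : ℝ) • v = ∑ j, (if σ j then δ j else 0) • n j := by
        simp only [w, v]
        rw [← smul_add, ← Finset.sum_add_distrib, Finset.smul_sum]
        refine Finset.sum_congr rfl fun j _ => ?_
        rw [← add_smul, smul_smul]
        congr 1
        cases σ j <;> simp [sg] <;> ring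
      rw [h1, add_assoc, h2]
      simp only [x0]
      abel
    rw [heq]
    -- convex combination with weight on `p`
    have hS' : ((1 - ∑ j, lam j) • p + ∑ j, lam j • y j) ∈ S := by
      classical
      let t : Option J → ℝ := fun o => o.elim (1 - ∑ j, lam j) lam
      let z : Option J → X := fun o => o.elim p y
      have h := hS.sum_mem (t := Finset.univ) (w := t) (z := z)
        (by
          intro o _
          cases o with
          | none => simpa [t] using sub_nonneg.2 hlam1
          | some j => simpa [t] using hlam0 j)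
        (by
          rw [Fintype.sum_option]
          simp [t])
        (by
          intro o _
          cases o with
          | none => simpa [z] using hp
          | some j => simpa [z] using hy j)
      rw [Fintype.sum_option] at h
      simpa [t, z] using h
    exact hS'
  · have h := hσ j
    have e : ⟪n j, x0 + w + (1 / 2 : ℝ) • v⟫ - m j = (1 / 2) * (⟪n j, v⟫ - 2 * (m j - ⟪n j, x0 + w⟫)) := by
      rw [inner_add_right _ (x0 + w), real_inner_smul_right]
      ring
    rw [e, abs_mul, abs_of_pos (by norm_num : (0 : ℝ) < 1 / 2)]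
    linarith

end Vale.Agent.Lib.P243.Cop
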