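import Vale.Agent.Lib.P243.Cop1

open MeasureTheory Set
open scoped ENNReal RealInnerProductSpace

namespace Vale.Agent.Lib.P243.Cop

variable {X : Type*} [NormedAddCommGroup X] [InnerProductSpace ℝ X]

/-- A cell of the grid of mesh `η`. -/
def cell (η : ℝ) (k : ℤ) : Set ℝ := Ico ((k : ℝ) * η) (((k : ℝ) + 1) * η)

lemma cell_disjoint {η : ℝ} (hη : 0 < η) {k l : ℤ} (h : k ≠ l) : Disjoint (cell η k) (cell η l) := by
  rw [Set.disjoint_left]
  rintro r ⟨h1, h2⟩ ⟨h3, h4⟩
  apply h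
  have h5 : (k : ℝ) < (l : ℝ) + 1 := by
    have := lt_of_le_of_lt h1 h4
    exact lt_of_mul_lt_mul_right this hη.le
  have h6 : (l : ℝ) < (k : ℝ) + 1 := by
    have := lt_of_le_of_lt h3 h2
    exact lt_of_mul_lt_mul_right this hη.le
  have h7 : k < l + 1 := by exact_mod_cast h5
  have h8 : l < k + 1 := by exact_mod_cast h6
  omega

lemma volume_cell {η : ℝ} (k : ℤ) : volume (cell η k) = ENNReal.ofReal η := by
  simp only [cell, Real.volume_Ico]
  congr 1
  ring

lemma mem_cell_floor {η : ℝ} (hη : 0 < η) (r : ℝ) : r ∈ cell η ⌊r / η⌋ := by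
  constructor
  · have := Int.floor_le (r / η)
    calc ((⌊r / η⌋ : ℤ) : ℝ) * η ≤ r / η * η := by gcongr
      _ = r := by field_simp
  · have := Int.lt_floor_add_one (r / η)
    calc r = r / η * η := by field_simp
      _ < _ := by gcongr

lemma abs_sub_mid_of_mem {η r : ℝ} {k : ℤ} (h : r ∈ cell η k) :
    |r - ((k : ℝ) + 1 / 2) * η| ≤ η / 2 := by
  rw [abs_le]
  obtain ⟨h1, h2⟩ := h
  constructor <;> nlinarith

lemma abs_sub_lt_of_mem_cell {η r t : ℝ} {k : ℤ} (h : r ∈ cell η k) (ht : t ∈ cell η k) :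
    |r - t| < η := by
  obtain ⟨h1, h2⟩ := h
  obtain ⟨h3, h4⟩ := ht
  rw [abs_lt]
  constructor <;> nlinarith

/-- The finite combinatorial core of the layer plank theorem. -/
lemma planks_contra {ι : Type*} [Fintype ι] {S : Set X} (hS : Convex ℝ S)
    (hne : S.Nonempty) {μ : ℝ} (hμ : 0 < μ) (n : ι → X) (hn : ∀ i, ‖n i‖ = 1)
    (hch : ∀ i, ∃ a ∈ S, a + μ • n i ∈ S) (Jf : ι → Finset ℤ) {η : ℝ} (hη : 0 < η)
    (hMη : ((∑ i, (Jf i).card : ℕ) : ℝ) * η < μ)
    (hcover : ∀ x ∈ S, ∃ i, ∃ k ∈ Jf i, ⟪n i, x⟫ ∈ cell η k) : False := by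
  classical
  obtain ⟨M, hM⟩ : ∃ M : ℕ, M = ∑ i, (Jf i).card := ⟨_, rfl⟩
  rw [← hM] at hMη
  obtain ⟨p, hp⟩ := hne
  have hMpos : 0 < M := by
    obtain ⟨i, k, hk, -⟩ := hcover p hp
    have h1 : 0 < (Jf i).card := Finset.card_pos.2 ⟨k, hk⟩
    rw [hM]
    exact lt_of_lt_of_le h1 (Finset.single_le_sum (f := fun i => (Jf i).card)
      (fun _ _ => Nat.zero_le _) (Finset.mem_univ i))
  have hMR : (0 : ℝ) < M := by exact_mod_cast hMpos
  -- the width of the enlarged planks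
  obtain ⟨δ, hδdef⟩ : ∃ δ : ℝ, δ = μ / M := ⟨_, rfl⟩
  have hδ0 : 0 ≤ δ := by
    rw [hδdef]
    exact div_nonneg hμ.le hMR.le
  have hδη : η < δ := by
    rw [hδdef, lt_div_iff₀ hMR]
    linarith
  let F : Finset (Σ _ : ι, ℤ) := Finset.univ.sigma Jf
  have hcardF : F.card = M := by
    simp only [F, Finset.card_sigma, hM]
  have hsum : ∑ _j : F, δ ≤ μ := by
    rw [Finset.sum_const, Finset.card_univ, Fintype.card_coe, hcardF, nsmul_eq_mul, hδdef,
      mul_div_cancel₀ _ hMR.ne']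
  -- apply Bang
  choose a ha hab using hch
  obtain ⟨x, hxS, hx⟩ := bang_finite hS hμ hp (J := F) (fun j => n j.1.1) (fun j => hn j.1.1)
    (fun j => a j.1.1) (fun j => ha j.1.1) (fun j => hab j.1.1) (fun _ => δ) (fun _ => hδ0) hsum
    (fun j => ((j.1.2 : ℝ) + 1 / 2) * η)
  obtain ⟨i, k, hk, hxk⟩ := hcover x hxS
  have h1 := hx ⟨⟨i, k⟩, by simp [F, hk]⟩
  have h2 := abs_sub_mid_of_mem (k := k) hxk
  simp only at h1
  linarith

/-- The plank theorem in a layer. `A i` are arbitrary subsets of the line with outer measure. -/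
theorem layer_plank {ι : Type*} [Fintype ι] {S : Set X} (hS : Convex ℝ S) (hSc : IsCompact S)
    (hne : S.Nonempty) {μ : ℝ} (hμ : 0 < μ) (n : ι → X) (hn : ∀ i, ‖n i‖ = 1)
    (hch : ∀ i, ∃ a ∈ S, a + μ • n i ∈ S) (A : ι → Set ℝ)
    (hcov : ∀ x ∈ S, ∃ i, ⟪n i, x⟫ ∈ A i) :
    ENNReal.ofReal μ ≤ ∑ i, volume (A i) := by
  classical
  by_contra hlt
  rw [not_le] at hlt
  -- margin
  obtain ⟨ε, hε0, hε⟩ : ∃ ε : ℝ≥0∞, ε ≠ 0 ∧ ∑ i, volume (A i) + Fintype.card ι * ε < ENNReal.ofReal μ := by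
    have hcont : Filter.Tendsto (fun ε : ℝ≥0∞ => ∑ i, volume (A i) + (Fintype.card ι : ℝ≥0∞) * ε)
        (nhdsWithin 0 (Set.Ioi 0)) (nhds (∑ i, volume (A i) + (Fintype.card ι : ℝ≥0∞) * 0)) := by
      apply Filter.Tendsto.mono_left _ nhdsWithin_le_nhds
      exact (continuous_const.add (ENNReal.continuous_const_mul (ENNReal.natCast_ne_top _))).tendsto 0
    rw [mul_zero, add_zero] at hcont
    have h1 := (hcont.eventually (gt_mem_nhds hlt)).and self_mem_nhdsWithin
    have hne' : (nhdsWithin (0 : ℝ≥0∞) (Set.Ioi 0)).NeBot :=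
      nhdsGT_neBot_of_exists_gt ⟨1, by simp⟩
    obtain ⟨ε, h2, h3⟩ := h1.exists
    exact ⟨ε, (ne_of_gt h3), h2⟩
  choose G hGsub hGopen hGvol using fun i => Set.exists_isOpen_le_add (A i) volume hε0
  have hGsum : ∑ i, volume (G i) < ENNReal.ofReal μ := by
    refine lt_of_le_of_lt ?_ hε
    calc ∑ i, volume (G i) ≤ ∑ i, (volume (A i) + ε) := Finset.sum_le_sum fun i _ => hGvol i
      _ = _ := by
        rw [Finset.sum_add_distrib]
        simp
  -- Lebesgue number
  let U : ι → Set X := fun i => (fun x => ⟪n i, x⟫) ⁻¹' G i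
  have hUo : ∀ i, IsOpen (U i) := fun i =>
    (hGopen i).preimage (by fun_prop)
  have hUc : S ⊆ ⋃ i, U i := by
    intro x hx
    obtain ⟨i, hi⟩ := hcov x hx
    exact mem_iUnion.2 ⟨i, hGsub i hi⟩
  obtain ⟨d, hd0, hd⟩ := lebesgue_number_lemma_of_metric hSc hUo hUc
  -- the mesh and the index sets
  obtain ⟨R, hR⟩ : ∃ R : ℝ, ∀ x ∈ S, ‖x‖ ≤ R := hSc.isBounded.exists_norm_le
  let η : ℝ := d / 2
  have hη : 0 < η := by positivity
  let N : ℤ := ⌈R / η⌉ + 1
  let Jf : ι → Finset ℤ := fun i => (Finset.Icc (-N) N).filter fun k => cell η k ⊆ G i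
  let J := Σ i, {k // k ∈ Jf i}
  -- covering by cells
  have hcover : ∀ x ∈ S, ∃ i, ∃ k ∈ Jf i, ⟪n i, x⟫ ∈ cell η k := by
    intro x hx
    obtain ⟨i, hi⟩ := hd x hx
    refine ⟨i, ⌊⟪n i, x⟫ / η⌋, ?_, mem_cell_floor hη _⟩
    simp only [Jf, Finset.mem_filter, Finset.mem_Icc]
    have hbd : |⟪n i, x⟫| ≤ R := by
      calc |⟪n i, x⟫| ≤ ‖n i‖ * ‖x‖ := abs_real_inner_le_norm _ _
        _ = ‖x‖ := by rw [hn i, one_mul]
        _ ≤ R := hR x hx
    have hdiv : |⟪n i, x⟫ / η| ≤ R / η := by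
      rw [abs_div, abs_of_pos hη]
      gcongr
    rw [abs_le] at hdiv
    refine ⟨⟨?_, ?_⟩, ?_⟩
    · have h1 : (-N : ℤ) ≤ ⌊⟪n i, x⟫ / η⌋ := by
        apply Int.le_floor.2
        have h2 : (N : ℝ) ≥ R / η := by
          have := Int.le_ceil (R / η)
          simp only [N]
          push_cast
          linarith
        push_cast
        linarith [hdiv.1]
      exact h1
    · have h2 : ⌊⟪n i, x⟫ / η⌋ ≤ N := by
        have h3 : (⌊⟪n i, x⟫ / η⌋ : ℝ) ≤ ⟪n i, x⟫ / η := Int.floor_le _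
        have h4 : (N : ℝ) ≥ R / η := by
          have := Int.le_ceil (R / η)
          simp only [N]
          push_cast
          linarith
        have : (⌊⟪n i, x⟫ / η⌋ : ℝ) ≤ N := by linarith [hdiv.2]
        exact_mod_cast this
      exact h2
    · intro r hr
      have hr0 := mem_cell_floor hη ⟪n i, x⟫
      have hclose := abs_sub_lt_of_mem_cell hr hr0
      have hmem : x + (r - ⟪n i, x⟫) • n i ∈ Metric.ball x d := by
        rw [Metric.mem_ball, dist_eq_norm, add_sub_cancel_left, norm_smul, hn i, mul_one, Real.norm_eq_abs]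
        have : η < d := by simp only [η]; linarith
        linarith
      have hr' := hi hmem
      have e : ⟪n i, x + (r - ⟪n i, x⟫) • n i⟫ = r := by
        rw [inner_add_right, real_inner_smul_right, real_inner_self_eq_norm_sq, hn i]
        ring
      simp only [U, mem_preimage] at hr'
      rwa [e] at hr'
  -- the count of cells
  have hcount : ∀ i, ENNReal.ofReal (((Jf i).card : ℝ) * η) ≤ volume (G i) := by
    intro i
    have hdisj : ((Jf i : Finset ℤ) : Set ℤ).PairwiseDisjoint (cell η) := by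
      intro k _ l _ hkl
      exact cell_disjoint hη hkl
    have hmeas : ∀ k ∈ Jf i, MeasurableSet (cell η k) := fun k _ => measurableSet_Ico
    have h1 := measure_biUnion_finset hdisj hmeas (μ := (volume : Measure ℝ))
    have h2 : (⋃ k ∈ Jf i, cell η k) ⊆ G i := by
      intro r hr
      simp only [mem_iUnion] at hr
      obtain ⟨k, hk, hr⟩ := hr
      simp only [Jf, Finset.mem_filter] at hk
      exact hk.2 hr
    calc ENNReal.ofReal (((Jf i).card : ℝ) * η) = ∑ k ∈ Jf i, volume (cell η k) := by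
          simp only [volume_cell, Finset.sum_const, nsmul_eq_mul]
          rw [ENNReal.ofReal_mul (by positivity), ENNReal.ofReal_natCast]
      _ = volume (⋃ k ∈ Jf i, cell η k) := h1.symm
      _ ≤ volume (G i) := measure_mono h2
  -- total number of cells
  let M : ℕ := ∑ i, (Jf i).card
  have hMη : (M : ℝ) * η < μ := by
    have h1 : ENNReal.ofReal ((M : ℝ) * η) < ENNReal.ofReal μ := by
      refine lt_of_le_of_lt ?_ hGsum
      calc ENNReal.ofReal ((M : ℝ) * η) = ENNReal.ofReal (∑ i, ((Jf i).card : ℝ) * η) := by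
            simp only [M]
            push_cast
            rw [Finset.sum_mul]
        _ = ∑ i, ENNReal.ofReal (((Jf i).card : ℝ) * η) :=
            ENNReal.ofReal_sum_of_nonneg fun i _ => by positivity
        _ ≤ _ := Finset.sum_le_sum fun i _ => hcount i
    exact (ENNReal.ofReal_lt_ofReal_iff hμ).1 h1
  exact planks_contra hS hne hμ n hn hch Jf hη hMη hcover

end Vale.Agent.Lib.P243.Cop
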