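import Vale.Agent.Lib.P243.Cop2

open MeasureTheory Set
open scoped ENNReal RealInnerProductSpace

namespace Vale.Agent.Lib.P243.Cop

/-- A supporting line for a concave function at an interior point. -/
lemma concave_tangent {h : ℝ → ℝ} {a b s : ℝ} (hc : ConcaveOn ℝ (Icc a b) h) (has : a < s) (hsb : s < b) :
    ∃ κ : ℝ, ∀ t ∈ Icc a b, h t ≤ h s + κ * (t - s) := by
  have hsm : s ∈ Icc a b := ⟨has.le, hsb.le⟩
  have ham : a ∈ Icc a b := ⟨le_rfl, (has.trans hsb).le⟩
  have hbm : b ∈ Icc a b := ⟨(has.trans hsb).le, le_rfl⟩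
  let Q : Set ℝ := (fun t => (h t - h s) / (t - s)) '' Ioc s b
  have hQne : Q.Nonempty := ⟨_, b, ⟨hsb, le_rfl⟩, rfl⟩
  have hQb : ∀ t ∈ Ico a s, ∀ q ∈ Q, q ≤ (h s - h t) / (s - t) := by
    rintro t ⟨ht1, ht2⟩ _ ⟨t', ⟨ht1', ht2'⟩, rfl⟩
    exact hc.slope_anti_adjacent ⟨ht1, ht2.le.trans hsb.le⟩ ⟨has.le.trans ht1'.le, ht2'⟩ ht2 ht1'
  have hQbdd : BddAbove Q := ⟨_, fun q hq => hQb a ⟨le_rfl, has⟩ q hq⟩
  refine ⟨sSup Q, fun t ht => ?_⟩
  rcases lt_trichotomy t s with hts | rfl | hst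
  · have h1 : sSup Q ≤ (h s - h t) / (s - t) := csSup_le hQne (hQb t ⟨ht.1, hts⟩)
    have h2 : 0 < s - t := sub_pos.2 hts
    rw [le_div_iff₀ h2] at h1
    nlinarith
  · simp
  · have h1 : (h t - h s) / (t - s) ≤ sSup Q := le_csSup hQbdd ⟨t, ⟨hst, ht.2⟩, rfl⟩
    have h2 : 0 < t - s := sub_pos.2 hst
    rw [div_le_iff₀ h2] at h1
    linarith

/-- The integral of an affine function on an interval, as a lower integral. -/
lemma lintegral_affine {a b c κ s : ℝ} (hab : a ≤ b) (h0 : ∀ t ∈ Icc a b, 0 ≤ c + κ * (t - s)) :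
    ∫⁻ t in Icc a b, ENNReal.ofReal (c + κ * (t - s))
      = ENNReal.ofReal ((b - a) * (c + κ * ((a + b) / 2 - s))) := by
  have hcont : Continuous fun t : ℝ => c + κ * (t - s) := by fun_prop
  have hint : IntegrableOn (fun t : ℝ => c + κ * (t - s)) (Icc a b) :=
    hcont.continuousOn.integrableOn_compact isCompact_Icc
  rw [← ofReal_integral_eq_lintegral_ofReal hint]
  · congr 1
    rw [integral_Icc_eq_integral_Ioc, ← intervalIntegral.integral_of_le hab]
    have hd : ∀ t ∈ uIcc a b, HasDerivAt (fun t : ℝ => c * t + κ * (t ^ 2 / 2 - s * t))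
        (c + κ * (t - s)) t := by
      intro t _
      have h1 := ((hasDerivAt_id' t).const_mul c).fun_add
        ((((hasDerivAt_pow 2 t).div_const 2).fun_sub ((hasDerivAt_id' t).const_mul s)).const_mul κ)
      exact h1.congr_deriv (by
        push_cast
        ring)
    rw [intervalIntegral.integral_eq_sub_of_hasDerivAt hd (hcont.intervalIntegrable _ _)]
    ring
  · rw [Filter.EventuallyLE, ae_restrict_iff' measurableSet_Icc]
    exact Filter.Eventually.of_forall fun t ht => h0 t ht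

/-- The algebra of the tangent bound. -/
lemma tangent_alg {a b s c κ : ℝ} (has : a < s) (hsb : s < b)
    (h1 : 0 ≤ c + κ * (a - s)) (h2 : 0 ≤ c + κ * (b - s)) :
    2 * min (s - a) (b - s) * ((b - a) * (c + κ * ((a + b) / 2 - s))) ≤ c * (b - a) ^ 2 := by
  have hba : 0 < b - a := by linarith
  have key : 2 * min (s - a) (b - s) * (c + κ * ((a + b) / 2 - s)) ≤ c * (b - a) := by
    rcases le_total (s - a) (b - s) with hle | hle
    · rw [min_eq_left hle]
      have h3 : κ * (s - a) ≤ c := by linarith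
      have h4 : 0 ≤ (a + b) / 2 - s := by linarith
      have h5 : κ * (s - a) * ((a + b) / 2 - s) ≤ c * ((a + b) / 2 - s) :=
        mul_le_mul_of_nonneg_right h3 h4
      nlinarith
    · rw [min_eq_right hle]
      have h3 : - κ * (b - s) ≤ c := by linarith
      have h4 : 0 ≤ s - (a + b) / 2 := by linarith
      have h5 : - κ * (b - s) * (s - (a + b) / 2) ≤ c * (s - (a + b) / 2) :=
        mul_le_mul_of_nonneg_right h3 h4
      nlinarith
  calc 2 * min (s - a) (b - s) * ((b - a) * (c + κ * ((a + b) / 2 - s)))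
      = (b - a) * (2 * min (s - a) (b - s) * (c + κ * ((a + b) / 2 - s))) := by ring
    _ ≤ (b - a) * (c * (b - a)) := mul_le_mul_of_nonneg_left key hba.le
    _ = _ := by ring

section Width

variable {E : Type*} [NormedAddCommGroup E] [InnerProductSpace ℝ E]

/-- The planar image of `K` under the coordinates `w`, `v`. -/
def Pl (K : Set E) (w v : E) : Set (ℝ × ℝ) := (fun x => ((⟪w, x⟫ : ℝ), (⟪v, x⟫ : ℝ))) '' K

lemma isCompact_Pl {K : Set E} (hK : IsCompact K) (w v : E) : IsCompact (Pl K w v) :=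
  hK.image (by fun_prop)

/-- The layer of `K` at height `t`. -/
def Ly (K : Set E) (w : E) (t : ℝ) : Set E := K ∩ {x | ⟪w, x⟫ = t}

lemma isCompact_Ly {K : Set E} (hK : IsCompact K) (w : E) (t : ℝ) : IsCompact (Ly K w t) :=
  hK.inter_right (isClosed_eq (by fun_prop) continuous_const)

lemma convex_Ly {K : Set E} (hc : Convex ℝ K) (w : E) (t : ℝ) : Convex ℝ (Ly K w t) := by
  apply hc.inter
  intro x hx y hy p q hp hq hpq
  simp only [Set.mem_ofPred_eq] at hx hy ⊢
  rw [inner_add_right, real_inner_smul_right, real_inner_smul_right, hx, hy, ← add_mul, hpq, one_mul]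

/-- The layers between two attained heights are nonempty. -/
lemma Ly_nonempty {K : Set E} (hc : Convex ℝ K) {w : E} {a b t : ℝ} {xa xb : E} (ha : xa ∈ K) (hb : xb ∈ K)
    (hwa : ⟪w, xa⟫ = a) (hwb : ⟪w, xb⟫ = b) (ht : t ∈ Icc a b) (hab : a < b) : (Ly K w t).Nonempty := by
  have hd : 0 < b - a := by linarith
  refine ⟨(1 - (t - a) / (b - a)) • xa + ((t - a) / (b - a)) • xb, hc ha hb ?_ ?_ (by ring), ?_⟩
  · rw [sub_nonneg, div_le_one hd]
    linarith [ht.2]
  · exact div_nonneg (by linarith [ht.1]) hd.le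
  · simp only [Set.mem_ofPred_eq]
    rw [inner_add_right, real_inner_smul_right, real_inner_smul_right, hwa, hwb]
    field_simp
    ring

/-- Top and bottom of a layer in the direction `v`. -/
noncomputable def top (K : Set E) (w v : E) (t : ℝ) : ℝ := sSup ((fun x => (⟪v, x⟫ : ℝ)) '' Ly K w t)
noncomputable def bot (K : Set E) (w v : E) (t : ℝ) : ℝ := sInf ((fun x => (⟪v, x⟫ : ℝ)) '' Ly K w t)

lemma bdd_layer {K : Set E} (hK : IsCompact K) (w v : E) (t : ℝ) :
    BddAbove ((fun x => (⟪v, x⟫ : ℝ)) '' Ly K w t) ∧ BddBelow ((fun x => (⟪v, x⟫ : ℝ)) '' Ly K w t) := by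
  have h := (isCompact_Ly hK w t).image (f := fun x => (⟪v, x⟫ : ℝ)) (by fun_prop)
  exact ⟨h.bddAbove, h.bddBelow⟩

lemma exists_top {K : Set E} (hK : IsCompact K) {w v : E} {t : ℝ} (hne : (Ly K w t).Nonempty) :
    ∃ y ∈ Ly K w t, (⟪v, y⟫ : ℝ) = top K w v t := by
  have h := (isCompact_Ly hK w t).image (f := fun x => (⟪v, x⟫ : ℝ)) (by fun_prop)
  obtain ⟨y, hy, e⟩ := h.sSup_mem (hne.image _)
  exact ⟨y, hy, e⟩

lemma exists_bot {K : Set E} (hK : IsCompact K) {w v : E} {t : ℝ} (hne : (Ly K w t).Nonempty) :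
    ∃ y ∈ Ly K w t, (⟪v, y⟫ : ℝ) = bot K w v t := by
  have h := (isCompact_Ly hK w t).image (f := fun x => (⟪v, x⟫ : ℝ)) (by fun_prop)
  obtain ⟨y, hy, e⟩ := h.sInf_mem (hne.image _)
  exact ⟨y, hy, e⟩

lemma le_top {K : Set E} (hK : IsCompact K) {w v x : E} {t : ℝ} (hx : x ∈ Ly K w t) :
    (⟪v, x⟫ : ℝ) ≤ top K w v t := le_csSup (bdd_layer hK w v t).1 ⟨x, hx, rfl⟩

lemma bot_le {K : Set E} (hK : IsCompact K) {w v x : E} {t : ℝ} (hx : x ∈ Ly K w t) :
    bot K w v t ≤ (⟪v, x⟫ : ℝ) := csInf_le (bdd_layer hK w v t).2 ⟨x, hx, rfl⟩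

/-- The width of the layers is concave. -/
lemma width_concave {K : Set E} (hc : Convex ℝ K) (hK : IsCompact K) {w v : E} {a b : ℝ} {xa xb : E}
    (ha : xa ∈ K) (hb : xb ∈ K) (hwa : ⟪w, xa⟫ = a) (hwb : ⟪w, xb⟫ = b) (hab : a < b) :
    ConcaveOn ℝ (Icc a b) (fun t => top K w v t - bot K w v t) := by
  refine ⟨convex_Icc a b, ?_⟩
  intro t1 ht1 t2 ht2 p q hp hq hpq
  have hne1 := Ly_nonempty hc ha hb hwa hwb ht1 hab
  have hne2 := Ly_nonempty hc ha hb hwa hwb ht2 hab
  obtain ⟨y1, hy1, ey1⟩ := exists_top hK (v := v) hne1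
  obtain ⟨y2, hy2, ey2⟩ := exists_top hK (v := v) hne2
  obtain ⟨x1, hx1, ex1⟩ := exists_bot hK (v := v) hne1
  obtain ⟨x2, hx2, ex2⟩ := exists_bot hK (v := v) hne2
  have hmem : ∀ z1 z2 : E, z1 ∈ Ly K w t1 → z2 ∈ Ly K w t2 →
      p • z1 + q • z2 ∈ Ly K w (p • t1 + q • t2) := by
    intro z1 z2 hz1 hz2
    refine ⟨hc hz1.1 hz2.1 hp hq hpq, ?_⟩
    simp only [Set.mem_ofPred_eq, smul_eq_mul]
    rw [inner_add_right, real_inner_smul_right, real_inner_smul_right, hz1.2, hz2.2]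
  have h1 := le_top hK (v := v) (hmem y1 y2 hy1 hy2)
  have h2 := bot_le hK (v := v) (hmem x1 x2 hx1 hx2)
  rw [inner_add_right, real_inner_smul_right, real_inner_smul_right, ey1, ey2] at h1
  rw [inner_add_right, real_inner_smul_right, real_inner_smul_right, ex1, ex2] at h2
  simp only [smul_eq_mul] at h1 h2 ⊢
  nlinarith

/-- The planar area is controlled by the width of one interior layer. -/
theorem area_le_width {K : Set E} (hc : Convex ℝ K) (hK : IsCompact K) {w v : E} {a b s : ℝ} {xa xb : E}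
    (ha : xa ∈ K) (hb : xb ∈ K) (hwa : ⟪w, xa⟫ = a) (hwb : ⟪w, xb⟫ = b)
    (hmin : ∀ x ∈ K, a ≤ ⟪w, x⟫) (hmax : ∀ x ∈ K, ⟪w, x⟫ ≤ b) (has : a < s) (hsb : s < b) :
    (volume (Pl K w v)) * ENNReal.ofReal (2 * min (s - a) (b - s))
      ≤ ENNReal.ofReal ((top K w v s - bot K w v s) * (b - a) ^ 2) := by
  have hab : a < b := has.trans hsb
  have hconc := width_concave (v := v) hc hK ha hb hwa hwb hab
  obtain ⟨κ, hκ⟩ := concave_tangent hconc has hsb
  set c := top K w v s - bot K w v s with hcdef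
  have hwid : ∀ t ∈ Icc a b, 0 ≤ top K w v t - bot K w v t := by
    intro t ht
    obtain ⟨x, hx⟩ := Ly_nonempty hc ha hb hwa hwb ht hab
    have h1 := le_top hK (v := v) hx
    have h2 := bot_le hK (v := v) hx
    linarith
  have hc0 : 0 ≤ c := hwid s ⟨has.le, hsb.le⟩
  have hl0 : ∀ t ∈ Icc a b, 0 ≤ c + κ * (t - s) := fun t ht => (hwid t ht).trans (hκ t ht)
  have hvol : volume (Pl K w v) ≤ ∫⁻ t in Icc a b, ENNReal.ofReal (c + κ * (t - s)) := by
    have hm : MeasurableSet (Pl K w v) := (isCompact_Pl hK w v).measurableSet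
    rw [Measure.volume_eq_prod, Measure.prod_apply hm, ← lintegral_indicator measurableSet_Icc]
    refine lintegral_mono fun t => ?_
    by_cases ht : t ∈ Icc a b
    · rw [indicator_of_mem ht]
      have hsub : Prod.mk t ⁻¹' Pl K w v ⊆ Icc (bot K w v t) (top K w v t) := by
        rintro r ⟨x, hx, e⟩
        simp only [Prod.mk.injEq] at e
        have hx' : x ∈ Ly K w t := ⟨hx, e.1⟩
        rw [mem_Icc, ← e.2]
        exact ⟨bot_le hK hx', le_top hK hx'⟩
      calc volume (Prod.mk t ⁻¹' Pl K w v) ≤ volume (Icc (bot K w v t) (top K w v t)) := measure_mono hsub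
        _ = ENNReal.ofReal (top K w v t - bot K w v t) := Real.volume_Icc
        _ ≤ _ := ENNReal.ofReal_le_ofReal (hκ t ht)
    · rw [indicator_of_notMem ht]
      have hempty : Prod.mk t ⁻¹' Pl K w v = ∅ := by
        ext r
        simp only [mem_preimage, mem_empty_iff_false, iff_false]
        rintro ⟨x, hx, e⟩
        simp only [Prod.mk.injEq] at e
        exact ht ⟨e.1 ▸ hmin x hx, e.1 ▸ hmax x hx⟩
      rw [hempty]
      simp
  rw [lintegral_affine hab.le hl0] at hvol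
  have hmin0 : 0 ≤ 2 * min (s - a) (b - s) := by
    have : 0 ≤ min (s - a) (b - s) := le_min (by linarith) (by linarith)
    linarith
  calc volume (Pl K w v) * ENNReal.ofReal (2 * min (s - a) (b - s))
      ≤ ENNReal.ofReal ((b - a) * (c + κ * ((a + b) / 2 - s))) * ENNReal.ofReal (2 * min (s - a) (b - s)) := by
        gcongr
    _ = ENNReal.ofReal (2 * min (s - a) (b - s) * ((b - a) * (c + κ * ((a + b) / 2 - s)))) := by
        rw [mul_comm, ← ENNReal.ofReal_mul hmin0]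
    _ ≤ _ := ENNReal.ofReal_le_ofReal (tangent_alg has hsb (hl0 a ⟨le_rfl, hab.le⟩) (hl0 b ⟨hab.le, le_rfl⟩))

end Width

end Vale.Agent.Lib.P243.Cop
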