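import Vale.Agent.Lib.P243.Cop3

open MeasureTheory Set
open scoped ENNReal RealInnerProductSpace Pointwise

namespace Vale.Agent.Lib.P243.Cop

section Core

variable {E : Type*} [NormedAddCommGroup E] [InnerProductSpace ℝ E] [CompleteSpace E]

/-- If a layer is wide in all directions of the plane then it has a long chord in every direction
of the plane (Hahn-Banach). -/
theorem chord_of_width {K : Set E} (hc : Convex ℝ K) (hK : IsCompact K) {w : E} {s μ : ℝ}
    (hne : (Ly K w s).Nonempty) (hμ : 0 < μ)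
    (hwid : ∀ v : E, ‖v‖ = 1 → ⟪v, w⟫ = 0 → μ ≤ top K w v s - bot K w v s)
    {n : E} (hn : ‖n‖ = 1) (hnw : ⟪n, w⟫ = 0) (hw : ‖w‖ = 1) :
    ∃ a ∈ Ly K w s, a + μ • n ∈ Ly K w s := by
  by_contra hno
  push Not at hno
  -- the difference body
  let D : Set E := Ly K w s - Ly K w s
  have hDc : IsCompact D := by
    rw [show D = Ly K w s + (- Ly K w s) from sub_eq_add_neg _ _]
    exact (isCompact_Ly hK w s).add (isCompact_Ly hK w s).neg
  have hDconv : Convex ℝ D := (convex_Ly hc w s).sub (convex_Ly hc w s)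
  have hnot : μ • n ∉ D := by
    rintro ⟨q, hq, p, hp, e⟩
    apply hno p hp
    have : p + μ • n = q := by
      rw [← e]
      simp
    rwa [this]
  obtain ⟨f, c, hf1, hf2⟩ := geometric_hahn_banach_closed_point hDconv hDc.isClosed hnot
  -- represent the functional
  let y : E := (InnerProductSpace.toDual ℝ E).symm f
  have hy : ∀ z, f z = ⟪y, z⟫ := fun z => (InnerProductSpace.toDual_symm_apply (𝕜 := ℝ) (E := E)).symm
  -- project to the plane
  let v0 : E := y - ⟪y, w⟫ • w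
  have hv0w : ⟪v0, w⟫ = 0 := by
    simp only [v0]
    rw [inner_sub_left, real_inner_smul_left, real_inner_self_eq_norm_sq, hw]
    ring
  have hv0D : ∀ d ∈ D, ⟪v0, d⟫ = ⟪y, d⟫ := by
    rintro _ ⟨q, hq, p, hp, rfl⟩
    have h1 : ⟪w, q - p⟫ = 0 := by
      rw [inner_sub_right, hq.2, hp.2, sub_self]
    simp only [v0]
    rw [inner_sub_left, real_inner_smul_left, h1]
    ring
  have hv0n : ⟪v0, n⟫ = ⟪y, n⟫ := by
    simp only [v0]
    rw [inner_sub_left, real_inner_smul_left, real_inner_comm n w, hnw]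
    ring
  -- a point of the layer gives `0 ∈ D`
  obtain ⟨p0, hp0⟩ := hne
  have h0D : (0 : E) ∈ D := ⟨p0, hp0, p0, hp0, sub_self _⟩
  have hc0 : 0 < c := by simpa using hf1 0 h0D
  have hyn : c < μ * ⟪y, n⟫ := by
    have := hf2
    rw [hy, real_inner_smul_right] at this
    exact this
  have hv0pos : 0 < ‖v0‖ := by
    rw [norm_pos_iff]
    intro h
    have h1 : ⟪y, n⟫ = 0 := by
      rw [← hv0n, h, inner_zero_left]
    rw [h1] at hyn
    linarith
  -- normalise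
  let v : E := (‖v0‖)⁻¹ • v0
  have hv : ‖v‖ = 1 := by
    simp only [v]
    rw [norm_smul, norm_inv, norm_norm, inv_mul_cancel₀ hv0pos.ne']
  have hvw : ⟪v, w⟫ = 0 := by
    simp only [v]
    rw [real_inner_smul_left, hv0w, mul_zero]
  have hle := hwid v hv hvw
  -- extreme points of the layer
  obtain ⟨q, hq, eq⟩ := exists_top hK (v := v) (w := w) (t := s) ⟨p0, hp0⟩
  obtain ⟨p, hp, ep⟩ := exists_bot hK (v := v) (w := w) (t := s) ⟨p0, hp0⟩
  have hqp : q - p ∈ D := ⟨q, hq, p, hp, rfl⟩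
  have h1 : ⟪y, q - p⟫ < c := by
    rw [← hy]
    exact hf1 _ hqp
  have h2 : ⟪v, q - p⟫ = (‖v0‖)⁻¹ * ⟪y, q - p⟫ := by
    simp only [v]
    rw [real_inner_smul_left, hv0D _ hqp]
  have h3 : μ ≤ ⟪v, q - p⟫ := by
    rw [inner_sub_right, eq, ep]
    exact hle
  have h4 : ⟪v, n⟫ ≤ 1 := by
    calc ⟪v, n⟫ ≤ ‖v‖ * ‖n‖ := real_inner_le_norm _ _
      _ = 1 := by rw [hv, hn, one_mul]
  have h5 : ⟪v, n⟫ = (‖v0‖)⁻¹ * ⟪y, n⟫ := by
    simp only [v]
    rw [real_inner_smul_left, hv0n]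
  have hinv : 0 < (‖v0‖)⁻¹ := inv_pos.2 hv0pos
  -- conclusion
  have h6 : μ * ⟪v, n⟫ > ⟪v, q - p⟫ := by
    rw [h2, h5]
    have : (‖v0‖)⁻¹ * ⟪y, q - p⟫ < (‖v0‖)⁻¹ * (μ * ⟪y, n⟫) :=
      mul_lt_mul_of_pos_left (h1.trans hyn) hinv
    nlinarith
  have h7 : μ * ⟪v, n⟫ ≤ μ := by nlinarith
  linarith

/-- The layer inequality. -/
theorem layer_main {K : Set E} (hc : Convex ℝ K) (hK : IsCompact K) {w : E} (hw : ‖w‖ = 1)
    {a b : ℝ} {xa xb : E} (ha : xa ∈ K) (hb : xb ∈ K) (hwa : ⟪w, xa⟫ = a) (hwb : ⟪w, xb⟫ = b)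
    (hmin : ∀ x ∈ K, a ≤ ⟪w, x⟫) (hmax : ∀ x ∈ K, ⟪w, x⟫ ≤ b)
    {ι : Type*} [Fintype ι] (n : ι → E) (hn : ∀ i, ‖n i‖ = 1) (hnw : ∀ i, ⟪n i, w⟫ = 0)
    (B : ι → Set (ℝ × ℝ)) (hcov : ∀ x ∈ K, ∃ i, ((⟪w, x⟫ : ℝ), (⟪n i, x⟫ : ℝ)) ∈ B i)
    {Λ : ℝ} (hΛ0 : 0 < Λ) (hΛ : ∀ v : E, ‖v‖ = 1 → ⟪v, w⟫ = 0 → ENNReal.ofReal Λ ≤ volume (Pl K w v))
    {s : ℝ} (has : a < s) (hsb : s < b) :
    ENNReal.ofReal (Λ * (2 * min (s - a) (b - s)) / (b - a) ^ 2)
      ≤ ∑ i, volume (Prod.mk s ⁻¹' B i) := by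
  have hab : a < b := has.trans hsb
  have hL : 0 < (b - a) ^ 2 := by
    have : 0 < b - a := by linarith
    positivity
  have hmin0 : 0 < 2 * min (s - a) (b - s) := by
    have : 0 < min (s - a) (b - s) := lt_min (by linarith) (by linarith)
    linarith
  set μ := Λ * (2 * min (s - a) (b - s)) / (b - a) ^ 2 with hμdef
  have hμ : 0 < μ := by
    rw [hμdef]
    positivity
  have hne : (Ly K w s).Nonempty := Ly_nonempty hc ha hb hwa hwb ⟨has.le, hsb.le⟩ hab
  have hwid : ∀ v : E, ‖v‖ = 1 → ⟪v, w⟫ = 0 → μ ≤ top K w v s - bot K w v s := by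
    intro v hv hvw
    have h1 := area_le_width (v := v) hc hK ha hb hwa hwb hmin hmax has hsb
    have h2 : ENNReal.ofReal Λ * ENNReal.ofReal (2 * min (s - a) (b - s))
        ≤ ENNReal.ofReal ((top K w v s - bot K w v s) * (b - a) ^ 2) :=
      le_trans (mul_le_mul_left (hΛ v hv hvw) _) h1
    rw [← ENNReal.ofReal_mul hΛ0.le] at h2
    have h3 : Λ * (2 * min (s - a) (b - s)) ≤ (top K w v s - bot K w v s) * (b - a) ^ 2 := by
      by_contra hcon
      rw [not_le] at hcon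
      have h4 := (ENNReal.ofReal_lt_ofReal_iff (by positivity)).2 hcon
      exact absurd h2 (not_le.2 h4)
    rw [hμdef, div_le_iff₀ hL]
    exact h3
  have hch : ∀ i, ∃ a ∈ Ly K w s, a + μ • n i ∈ Ly K w s := fun i =>
    chord_of_width hc hK hne hμ hwid (hn i) (hnw i) hw
  refine layer_plank (convex_Ly hc w s) (isCompact_Ly hK w s) hne hμ n hn hch
    (fun i => Prod.mk s ⁻¹' B i) ?_
  intro x hx
  obtain ⟨i, hi⟩ := hcov x hx.1
  refine ⟨i, ?_⟩
  have e : (⟪w, x⟫ : ℝ) = s := hx.2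
  rw [e] at hi
  exact hi

/-- Integration over the layers. -/
theorem core {K : Set E} (hc : Convex ℝ K) (hK : IsCompact K) {w : E} (hw : ‖w‖ = 1)
    {a b : ℝ} {xa xb : E} (ha : xa ∈ K) (hb : xb ∈ K) (hwa : ⟪w, xa⟫ = a) (hwb : ⟪w, xb⟫ = b)
    (hmin : ∀ x ∈ K, a ≤ ⟪w, x⟫) (hmax : ∀ x ∈ K, ⟪w, x⟫ ≤ b) (hab : a < b)
    {ι : Type*} [Fintype ι] (n : ι → E) (hn : ∀ i, ‖n i‖ = 1) (hnw : ∀ i, ⟪n i, w⟫ = 0)
    (B : ι → Set (ℝ × ℝ)) (hcov : ∀ x ∈ K, ∃ i, ((⟪w, x⟫ : ℝ), (⟪n i, x⟫ : ℝ)) ∈ B i)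
    {Λ : ℝ} (hΛ0 : 0 < Λ) (hΛ : ∀ v : E, ‖v‖ = 1 → ⟪v, w⟫ = 0 → ENNReal.ofReal Λ ≤ volume (Pl K w v)) :
    ENNReal.ofReal (Λ / 2) ≤ ∑ i, volume (B i) := by
  classical
  -- measurable hulls
  let B' : ι → Set (ℝ × ℝ) := fun i => toMeasurable volume (B i)
  have hB'm : ∀ i, MeasurableSet (B' i) := fun i => measurableSet_toMeasurable _ _
  have hvolB : ∀ i, volume (B i) = ∫⁻ s, volume (Prod.mk s ⁻¹' B' i) := by
    intro i
    rw [← measure_toMeasurable (B i)]
    exact Measure.prod_apply (hB'm i)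
  let T : ℝ → ℝ≥0∞ := fun s => ∑ i, volume (Prod.mk s ⁻¹' B' i)
  have hTm : Measurable T := by
    refine Finset.measurable_sum _ fun i _ => ?_
    exact measurable_measure_prodMk_left (hB'm i)
  have hsum : ∑ i, volume (B i) = ∫⁻ s, T s := by
    simp only [T]
    rw [lintegral_finsetSum _ fun i _ => measurable_measure_prodMk_left (hB'm i)]
    exact Finset.sum_congr rfl fun i _ => hvolB i
  -- the layer bound for the hull
  have hlayer : ∀ s, a < s → s < b →
      ENNReal.ofReal (Λ * (2 * min (s - a) (b - s)) / (b - a) ^ 2) ≤ T s := by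
    intro s has hsb
    refine le_trans (layer_main hc hK hw ha hb hwa hwb hmin hmax n hn hnw B hcov hΛ0 hΛ has hsb) ?_
    exact Finset.sum_le_sum fun i _ => measure_mono (preimage_mono (subset_toMeasurable _ _))
  set m := (a + b) / 2 with hm
  have ham : a < m := by rw [hm]; linarith
  have hmb : m < b := by rw [hm]; linarith
  have hL : 0 < (b - a) ^ 2 := by
    have : 0 < b - a := by linarith
    positivity
  have hd : b - a ≠ 0 := (sub_pos.2 hab).ne'
  set κ := Λ * 2 / (b - a) ^ 2 with hκ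
  have hκ0 : 0 ≤ κ := by
    rw [hκ]
    positivity
  -- the left half
  have hleft : ENNReal.ofReal (Λ / 4) ≤ ∫⁻ s in Ioo a m, T s := by
    have h1 := lintegral_affine (a := a) (b := m) (c := 0) (κ := κ) (s := a) ham.le (fun t ht => by
      have := ht.1
      have : 0 ≤ κ * (t - a) := mul_nonneg hκ0 (by linarith)
      linarith)
    have h2 : (m - a) * (0 + κ * ((a + m) / 2 - a)) = Λ / 4 := by
      rw [hκ, hm]
      field_simp
      ring
    rw [h2] at h1
    rw [← h1, ← setLIntegral_congr (Ioo_ae_eq_Icc (μ := volume))]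
    refine setLIntegral_mono' measurableSet_Ioo fun s hs => ?_
    refine le_trans (ENNReal.ofReal_le_ofReal ?_) (hlayer s hs.1 (hs.2.trans hmb))
    have h3 : min (s - a) (b - s) = s - a := by
      apply min_eq_left
      have := hs.2
      rw [hm] at this
      linarith
    rw [h3, hκ]
    apply le_of_eq
    field_simp
    ring
  -- the right half
  have hright : ENNReal.ofReal (Λ / 4) ≤ ∫⁻ s in Ioo m b, T s := by
    have h1 := lintegral_affine (a := m) (b := b) (c := 0) (κ := -κ) (s := b) hmb.le (fun t ht => by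
      have := ht.2
      have : 0 ≤ κ * (b - t) := mul_nonneg hκ0 (by linarith)
      linarith)
    have h2 : (b - m) * (0 + -κ * ((m + b) / 2 - b)) = Λ / 4 := by
      rw [hκ, hm]
      field_simp
      ring
    rw [h2] at h1
    rw [← h1, ← setLIntegral_congr (Ioo_ae_eq_Icc (μ := volume))]
    refine setLIntegral_mono' measurableSet_Ioo fun s hs => ?_
    refine le_trans (ENNReal.ofReal_le_ofReal ?_) (hlayer s (ham.trans hs.1) hs.2)
    have h3 : min (s - a) (b - s) = b - s := by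
      apply min_eq_right
      have := hs.1
      rw [hm] at this
      linarith
    rw [h3, hκ]
    apply le_of_eq
    field_simp
    ring
  have hdisj : Disjoint (Ioo a m) (Ioo m b) := by
    rw [Set.disjoint_left]
    rintro s ⟨-, h1⟩ ⟨h2, -⟩
    linarith
  calc ENNReal.ofReal (Λ / 2) = ENNReal.ofReal (Λ / 4) + ENNReal.ofReal (Λ / 4) := by
        rw [← ENNReal.ofReal_add (by positivity) (by positivity)]
        congr 1
        ring
    _ ≤ (∫⁻ s in Ioo a m, T s) + ∫⁻ s in Ioo m b, T s := add_le_add hleft hright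
    _ = ∫⁻ s in Ioo a m ∪ Ioo m b, T s := (lintegral_union measurableSet_Ioo hdisj).symm
    _ ≤ ∫⁻ s, T s := setLIntegral_le_lintegral _ _
    _ = _ := hsum.symm

end Core

end Vale.Agent.Lib.P243.Cop
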