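import Vale.Agent.Lib.P243.Cop4

open MeasureTheory Set Module Submodule
open scoped ENNReal RealInnerProductSpace

namespace Vale.Agent.Lib.P243.Cop

section Transfer

variable {E : Type*} [NormedAddCommGroup E] [InnerProductSpace ℝ E] [FiniteDimensional ℝ E]
  [MeasurableSpace E] [BorelSpace E]

lemma finrank_perp_two (hE : finrank ℝ E = 3) (u : E) (hu : ‖u‖ = 1) :
    finrank ℝ (ℝ ∙ u)ᗮ = 2 := by
  have hu0 : u ≠ 0 := by
    intro h
    simp [h] at hu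
  have h1 := (Submodule.span ℝ {u}).finrank_add_finrank_orthogonal
  rw [finrank_span_singleton hu0, hE] at h1
  omega

/-- Coordinates on the plane orthogonal to `u` given by an orthonormal pair of that plane. -/
lemma exists_chart (hE : finrank ℝ E = 3) {u w n : E} (hu : ‖u‖ = 1) (hw : ‖w‖ = 1) (hn : ‖n‖ = 1)
    (huw : ⟪u, w⟫ = 0) (hun : ⟪u, n⟫ = 0) (hwn : ⟪w, n⟫ = 0) :
    ∃ e : (ℝ ∙ u)ᗮ ≃ᵐ ℝ × ℝ, MeasurePreserving e volume volume ∧
      ∀ y : (ℝ ∙ u)ᗮ, e y = ((⟪w, (y : E)⟫ : ℝ), (⟪n, (y : E)⟫ : ℝ)) := by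
  have hwm : w ∈ (ℝ ∙ u)ᗮ := by
    rw [Submodule.mem_orthogonal_singleton_iff_inner_right]
    exact huw
  have hnm : n ∈ (ℝ ∙ u)ᗮ := by
    rw [Submodule.mem_orthogonal_singleton_iff_inner_right]
    exact hun
  let v : Fin 2 → (ℝ ∙ u)ᗮ := ![⟨w, hwm⟩, ⟨n, hnm⟩]
  have hv : Orthonormal ℝ ((Set.univ : Set (Fin 2)).domRestrict v) := by
    rw [orthonormal_iff_ite]
    rintro ⟨i, -⟩ ⟨j, -⟩
    fin_cases i <;> fin_cases j <;> simp [v, domRestrict, hw, hn, hwn, real_inner_comm, real_inner_self_eq_norm_sq]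
  obtain ⟨b, hb⟩ := hv.exists_orthonormalBasis_extension_of_card_eq
    (by rw [finrank_perp_two hE u hu]; simp)
  let e : (ℝ ∙ u)ᗮ ≃ᵐ ℝ × ℝ :=
    b.measurableEquiv.trans ((MeasurableEquiv.toLp 2 (Fin 2 → ℝ)).symm.trans MeasurableEquiv.finTwoArrow)
  have hmp : MeasurePreserving e volume volume :=
    (volume_preserving_finTwoArrow ℝ).comp
      ((EuclideanSpace.volume_preserving_symm_measurableEquiv_toLp (Fin 2)).comp
        b.measurePreserving_measurableEquiv)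
  refine ⟨e, hmp, fun y => ?_⟩
  have h0 : b 0 = ⟨w, hwm⟩ := hb 0 (mem_univ _)
  have h1 : b 1 = ⟨n, hnm⟩ := hb 1 (mem_univ _)
  show ((b.repr y) 0, (b.repr y) 1) = _
  rw [OrthonormalBasis.repr_apply_apply, OrthonormalBasis.repr_apply_apply, h0, h1]
  rfl

/-- A unit vector orthogonal to two given vectors in three dimensions. -/
lemma exists_unit_orthogonal (hE : finrank ℝ E = 3) (u w : E) :
    ∃ n : E, ‖n‖ = 1 ∧ ⟪u, n⟫ = 0 ∧ ⟪w, n⟫ = 0 := by
  classical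
  let S : Submodule ℝ E := Submodule.span ℝ ((({u, w} : Finset E)) : Set E)
  have h1 : finrank ℝ S ≤ 2 :=
    (finrank_span_finset_le_card ({u, w} : Finset E)).trans Finset.card_le_two
  have h2 := S.finrank_add_finrank_orthogonal
  rw [hE] at h2
  have h3 : Sᗮ ≠ ⊥ := by
    intro h
    rw [h, finrank_bot] at h2
    omega
  obtain ⟨x, hx, hx0⟩ := Submodule.exists_mem_ne_zero_of_ne_bot h3
  have hxn : 0 < ‖x‖ := norm_pos_iff.2 hx0
  refine ⟨(‖x‖)⁻¹ • x, ?_, ?_, ?_⟩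
  · rw [norm_smul, norm_inv, norm_norm, inv_mul_cancel₀ hxn.ne']
  · rw [real_inner_smul_right]
    have : ⟪u, x⟫ = 0 := (Submodule.mem_orthogonal _ _).1 hx u (Submodule.subset_span (by simp))
    rw [this, mul_zero]
  · rw [real_inner_smul_right]
    have : ⟪w, x⟫ = 0 := (Submodule.mem_orthogonal _ _).1 hx w (Submodule.subset_span (by simp))
    rw [this, mul_zero]

/-- Bang's half area bound for cylinders whose axes are parallel to one plane. -/
theorem coplanar_half (hE : finrank ℝ E = 3) {K : Set E} (hc : Convex ℝ K) (hK : IsCompact K)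
    (hi : (interior K).Nonempty) {ι : Type*} [Fintype ι] (u : ι → E) (hu : ∀ i, ‖u i‖ = 1)
    {w : E} (hw : ‖w‖ = 1) (huw : ∀ i, ⟪u i, w⟫ = 0) (B : (i : ι) → Set (ℝ ∙ u i)ᗮ)
    (hcov : ∀ x ∈ K, ∃ i, (ℝ ∙ u i)ᗮ.orthogonalProjectionOnto x ∈ B i) :
    ENNReal.ofReal (1 / 2) *
        (⨅ v : {v : E // ‖v‖ = 1 ∧ ⟪v, w⟫ = 0}, volume ((ℝ ∙ (v : E))ᗮ.orthogonalProjectionOnto '' K))
      ≤ ∑ i, volume (B i) := by
  classical
  set A := ⨅ v : {v : E // ‖v‖ = 1 ∧ ⟪v, w⟫ = 0}, volume ((ℝ ∙ (v : E))ᗮ.orthogonalProjectionOnto '' K)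
    with hA
  by_cases hA0 : A = 0
  · rw [hA0, mul_zero]
    exact zero_le
  -- finiteness of `A`
  have hKne : K.Nonempty := hi.mono interior_subset
  have hAle : ∀ v : E, ‖v‖ = 1 → ⟪v, w⟫ = 0 → A ≤ volume ((ℝ ∙ v)ᗮ.orthogonalProjectionOnto '' K) := by
    intro v hv hvw
    exact iInf_le (fun v : {v : E // ‖v‖ = 1 ∧ ⟪v, w⟫ = 0} =>
      volume ((ℝ ∙ (v : E))ᗮ.orthogonalProjectionOnto '' K)) ⟨v, hv, hvw⟩
  have hAtop : A ≠ ⊤ := by
    obtain ⟨n, hn, -, hwn⟩ := exists_unit_orthogonal hE w w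
    have hnw : ⟪n, w⟫ = 0 := by rw [real_inner_comm]; exact hwn
    have h1 := hAle n hn hnw
    have h2 : IsCompact ((ℝ ∙ n)ᗮ.orthogonalProjectionOnto '' K) := hK.image (by fun_prop)
    exact ne_top_of_le_ne_top h2.measure_lt_top.ne h1
  -- the range of heights
  obtain ⟨xa, ha, hxa⟩ := hK.exists_isMinOn hKne
    (f := fun x => (⟪w, x⟫ : ℝ)) (by fun_prop)
  obtain ⟨xb, hb, hxb⟩ := hK.exists_isMaxOn hKne
    (f := fun x => (⟪w, x⟫ : ℝ)) (by fun_prop)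
  have hmin : ∀ x ∈ K, ⟪w, xa⟫ ≤ ⟪w, x⟫ := fun x hx => hxa hx
  have hmax : ∀ x ∈ K, ⟪w, x⟫ ≤ ⟪w, xb⟫ := fun x hx => hxb hx
  have hab : ⟪w, xa⟫ < ⟪w, xb⟫ := by
    obtain ⟨x0, hx0⟩ := hi
    rw [mem_interior_iff_mem_nhds, Metric.mem_nhds_iff] at hx0
    obtain ⟨r, hr, hball⟩ := hx0
    have h1 : x0 + (r / 2) • w ∈ K := hball (by
      rw [Metric.mem_ball, dist_eq_norm, add_sub_cancel_left, norm_smul, hw, mul_one, Real.norm_eq_abs,
        abs_of_pos (by positivity)]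
      linarith)
    have h2 : x0 ∈ K := hball (Metric.mem_ball_self hr)
    have h3 := hmax _ h1
    have h4 := hmin _ h2
    rw [inner_add_right, real_inner_smul_right, real_inner_self_eq_norm_sq, hw] at h3
    have : 0 < r / 2 := by positivity
    nlinarith
  -- charts
  have hex : ∀ i, ∃ n : E, ‖n‖ = 1 ∧ ⟪u i, n⟫ = 0 ∧ ⟪w, n⟫ = 0 := fun i => exists_unit_orthogonal hE (u i) w
  choose n hn hun hwn using hex
  have hch := fun i => exists_chart hE (hu i) hw (hn i) (huw i) (hun i) (hwn i)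
  choose e he hee using hch
  let B' : ι → Set (ℝ × ℝ) := fun i => e i '' (B i)
  have hvolB' : ∀ i, volume (B' i) = volume (B i) := by
    intro i
    have h1 := (he i).measure_preimage_equiv (B' i)
    rw [← h1]
    simp only [B']
    rw [(e i).injective.preimage_image]
  have hproj : ∀ (i : ι) (x : E), e i ((ℝ ∙ u i)ᗮ.orthogonalProjectionOnto x) = ((⟪w, x⟫ : ℝ), (⟪n i, x⟫ : ℝ)) := by
    intro i x
    rw [hee]
    have hwm : w ∈ (ℝ ∙ u i)ᗮ := by
      rw [Submodule.mem_orthogonal_singleton_iff_inner_right]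
      exact huw i
    have hnm : n i ∈ (ℝ ∙ u i)ᗮ := by
      rw [Submodule.mem_orthogonal_singleton_iff_inner_right]
      exact hun i
    have h1 := Submodule.inner_orthogonalProjectionOnto_eq_of_mem_left (K := (ℝ ∙ u i)ᗮ) (𝕜 := ℝ) ⟨w, hwm⟩ x
    have h2 := Submodule.inner_orthogonalProjectionOnto_eq_of_mem_left (K := (ℝ ∙ u i)ᗮ) (𝕜 := ℝ) ⟨n i, hnm⟩ x
    simp only [conj_trivial] at h1 h2
    ext
    · exact h1
    · exact h2
  have hcov' : ∀ x ∈ K, ∃ i, ((⟪w, x⟫ : ℝ), (⟪n i, x⟫ : ℝ)) ∈ B' i := by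
    intro x hx
    obtain ⟨i, hi⟩ := hcov x hx
    refine ⟨i, _, hi, hproj i x⟩
  -- the area lower bound
  set Λ := A.toReal with hΛdef
  have hΛ0 : 0 < Λ := ENNReal.toReal_pos hA0 hAtop
  have hofΛ : ENNReal.ofReal Λ = A := ENNReal.ofReal_toReal hAtop
  have hΛ : ∀ v : E, ‖v‖ = 1 → ⟪v, w⟫ = 0 → ENNReal.ofReal Λ ≤ volume (Pl K w v) := by
    intro v hv hvw
    rw [hofΛ]
    obtain ⟨u', hu', hu'v, hu'w⟩ := exists_unit_orthogonal hE v w
    have hu'v' : ⟪u', v⟫ = 0 := by rw [real_inner_comm]; exact hu'v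
    have hu'w' : ⟪u', w⟫ = 0 := by rw [real_inner_comm]; exact hu'w
    have hwv : ⟪w, v⟫ = 0 := by rw [real_inner_comm]; exact hvw
    obtain ⟨e', he', hee'⟩ := exists_chart hE hu' hw hv hu'w' hu'v' hwv
    have hPl : Pl K w v = e' '' ((ℝ ∙ u')ᗮ.orthogonalProjectionOnto '' K) := by
      have hproj' : ∀ x : E, e' ((ℝ ∙ u')ᗮ.orthogonalProjectionOnto x) = ((⟪w, x⟫ : ℝ), (⟪v, x⟫ : ℝ)) := by
        intro x
        rw [hee']
        have hwm : w ∈ (ℝ ∙ u')ᗮ := by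
          rw [Submodule.mem_orthogonal_singleton_iff_inner_right]
          exact hu'w'
        have hnm : v ∈ (ℝ ∙ u')ᗮ := by
          rw [Submodule.mem_orthogonal_singleton_iff_inner_right]
          exact hu'v'
        have h1 := Submodule.inner_orthogonalProjectionOnto_eq_of_mem_left (K := (ℝ ∙ u')ᗮ) (𝕜 := ℝ) ⟨w, hwm⟩ x
        have h2 := Submodule.inner_orthogonalProjectionOnto_eq_of_mem_left (K := (ℝ ∙ u')ᗮ) (𝕜 := ℝ) ⟨v, hnm⟩ x
        simp only [conj_trivial] at h1 h2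
        ext
        · exact h1
        · exact h2
      ext p
      constructor
      · rintro ⟨x, hx, rfl⟩
        exact ⟨_, ⟨x, hx, rfl⟩, hproj' x⟩
      · rintro ⟨_, ⟨x, hx, rfl⟩, rfl⟩
        exact ⟨x, hx, (hproj' x).symm⟩
    have h1 := he'.measure_preimage_equiv (Pl K w v)
    rw [← h1, hPl, e'.injective.preimage_image]
    exact hAle u' hu' hu'w'
  have hcore := core hc hK hw ha hb rfl rfl hmin hmax hab n hn (fun i => by rw [real_inner_comm]; exact hwn i)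
    B' hcov' hΛ0 hΛ
  simp only [hvolB'] at hcore
  refine le_trans (le_of_eq ?_) hcore
  rw [← hofΛ, ← ENNReal.ofReal_mul (by norm_num)]
  congr 1
  ring

end Transfer

end Vale.Agent.Lib.P243.Cop
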