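import Mathlib

open MeasureTheory Submodule Module

namespace Vale.Agent.Lib.P243

variable {E : Type*} [NormedAddCommGroup E] [InnerProductSpace ℝ E]
  {ι : Type*}

/-- The cylinders `B i + ℝ u i` cover `K`: a point `x` lies in the `i`-th cylinder exactly when its
orthogonal projection to the plane orthogonal to `u i` lies in `B i`. -/
def CylinderCover [FiniteDimensional ℝ E] (K : Set E) (u : ι → E)
    (B : (i : ι) → Set (ℝ ∙ u i)ᗮ) : Prop :=
  ∀ x ∈ K, ∃ i, (ℝ ∙ u i)ᗮ.orthogonalProjectionOnto x ∈ B i

/-- The directionwise relative area: the sum of the planar areas of the bases, each divided by the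
planar area of the orthogonal projection of `K` along the same axis. -/
noncomputable def relArea [FiniteDimensional ℝ E] [MeasurableSpace E] [BorelSpace E] [Fintype ι]
    (K : Set E) (u : ι → E) (B : (i : ι) → Set (ℝ ∙ u i)ᗮ) : ENNReal :=
  ∑ i, volume (B i) / volume ((ℝ ∙ u i)ᗮ.orthogonalProjectionOnto '' K)

end Vale.Agent.Lib.P243
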