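import Vale.Agent.Lib.P243.Select

open MeasureTheory Set Module Filter Topology TopologicalSpace
open scoped ENNReal Pointwise RealInnerProductSpace

namespace Vale.Agent.Lib.P243

variable {E : Type*} [NormedAddCommGroup E] [InnerProductSpace ℝ E] [FiniteDimensional ℝ E]
  [MeasurableSpace E] [BorelSpace E]

/-- A density certificate for the X-ray bound with constant `C`. -/
structure Cert (K : Set E) (f : E → ℝ≥0∞) (C : ℝ) : Prop where
  meas : Measurable f
  supp : ∀ x, x ∉ K → f x = 0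
  le_one : ∀ x, f x ≤ 1
  pos : ∫⁻ x, f x ≠ 0
  xray : ∀ (u : E) (_ : ‖u‖ = 1) (z : (Submodule.span ℝ {u})ᗮ),
    (∫⁻ t : ℝ, f ((z : E) + t • u)) *
        volume ((Submodule.span ℝ {u})ᗮ.orthogonalProjectionOnto '' K)
      ≤ ENNReal.ofReal C * ∫⁻ x, f x

lemma mem_fib_split (u : E) (hu : ‖u‖ = 1) (K : Set E) (z : (Submodule.span ℝ {u})ᗮ) (t : ℝ) :
    t ∈ fib (splitEquiv u hu '' K) z ↔ (z : E) + t • u ∈ K := by
  constructor
  · rintro ⟨x, hx, hxe⟩
    have : x = (z : E) + t • u := by
      rw [← splitEquiv_symm u hu, ContinuousLinearEquiv.eq_symm_apply]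
      exact hxe
    rwa [← this]
  · intro h
    refine ⟨_, h, ?_⟩
    rw [← splitEquiv_symm u hu, ContinuousLinearEquiv.apply_symm_apply]

lemma xray_chord {K : Set E} (hB : Body K) (u : E) (hu : ‖u‖ = 1) (z : (Submodule.span ℝ {u})ᗮ)
    (hne : ∃ t : ℝ, (z : E) + t • u ∈ K) :
    ∃ a b : ℝ, a ≤ b ∧ ∀ t : ℝ, (z : E) + t • u ∈ K ↔ t ∈ Icc a b := by
  set T := splitEquiv u hu with hT
  have hK'c : IsCompact (T '' K) := hB.hK.image T.continuous
  have hc' : Convex ℝ (T '' K) :=
    hB.hc.linear_image (T.toLinearEquiv.toLinearMap : E →ₗ[ℝ] (Submodule.span ℝ {u})ᗮ × ℝ)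
  obtain ⟨t0, ht0⟩ := hne
  have hz : z ∈ Prod.fst '' (T '' K) :=
    ⟨(z, t0), (mem_fib_split u hu K z t0).2 ht0, rfl⟩
  obtain ⟨a, b, ha, hb, hsub⟩ := exists_fib_extremes hK'c hz
  refine ⟨a, b, (hsub hb).1, fun t => ?_⟩
  rw [← mem_fib_split u hu K z t]
  exact ⟨fun h => hsub h, fun h => (fib_convex hc' z).ordConnected.out ha hb h⟩

lemma shadow_fin {K : Set E} (hK : IsCompact K) (u : E) :
    volume ((Submodule.span ℝ {u})ᗮ.orthogonalProjectionOnto '' K) ≠ ⊤ :=
  (hK.image (ContinuousLinearMap.continuous _)).measure_lt_top.ne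

lemma vol_le_shadow {K : Set E} (hB : Body K) {D : ℝ} (hD : ∀ a ∈ K, ∀ b ∈ K, ‖a - b‖ ≤ D)
    (u : E) (hu : ‖u‖ = 1) :
    volume K ≤ ENNReal.ofReal D * volume ((Submodule.span ℝ {u})ᗮ.orthogonalProjectionOnto '' K) := by
  set T := splitEquiv u hu with hT
  have hK'c : IsCompact (T '' K) := hB.hK.image T.continuous
  rw [← volume_split u hu hB.hK, ← image_fst_split u hu K,
    Measure.prod_apply hK'c.measurableSet]
  have hPm : MeasurableSet (Prod.fst '' (T '' K)) :=
    (hK'c.image continuous_fst).measurableSet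
  rw [← lintegral_indicator_const hPm]
  apply lintegral_mono
  intro z
  by_cases hz : z ∈ Prod.fst '' (T '' K)
  · rw [indicator_of_mem hz]
    obtain ⟨⟨z', t0⟩, ht0, hze⟩ := hz
    obtain rfl : z' = z := hze
    obtain ⟨a, b, hab, h⟩ := xray_chord hB u hu z' ⟨t0, (mem_fib_split u hu K z' t0).1 ht0⟩
    have hfib : Prod.mk z' ⁻¹' (T '' K) = Icc a b := by
      ext t
      rw [← h t, ← mem_fib_split u hu K z' t]
      rfl
    show volume (Prod.mk z' ⁻¹' (T '' K)) ≤ _
    rw [hfib, Real.volume_Icc]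
    apply ENNReal.ofReal_le_ofReal
    have h1 := hD _ ((h b).2 ⟨hab, le_rfl⟩) _ ((h a).2 ⟨le_rfl, hab⟩)
    have e : (z' : E) + b • u - ((z' : E) + a • u) = (b - a) • u := by module
    rw [e, norm_smul, hu, mul_one, Real.norm_eq_abs] at h1
    exact (le_abs_self _).trans h1
  · rw [indicator_of_notMem hz]
    have : Prod.mk z ⁻¹' (T '' K) = ∅ := by
      ext t
      simp only [mem_preimage, mem_empty_iff_false, iff_false]
      intro ht
      exact hz ⟨(z, t), ht, rfl⟩
    show volume (Prod.mk z ⁻¹' (T '' K)) ≤ _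
    rw [this]
    simp

lemma chord_gain {h : ℝ → ℝ≥0∞} {a b a' b' c : ℝ} (h1 : ∀ t, h t ≤ (Icc a b).indicator 1 t)
    (hJ : Icc a' b' ⊆ Icc a b) (hab : a' ≤ b') (h2 : ∀ t ∈ Icc a' b', h t ≤ ENNReal.ofReal c)
    (hc : 0 ≤ c) :
    ∫⁻ t, h t ≤ ENNReal.ofReal ((b - a) - (b' - a') + c * (b' - a')) := by
  have hle : b' - a' ≤ b - a := by
    have h3 := hJ (left_mem_Icc.2 hab)
    have h4 := hJ (right_mem_Icc.2 hab)
    linarith [h3.1, h4.2]
  calc ∫⁻ t, h t
      ≤ ∫⁻ t, ((Icc a b \ Icc a' b').indicator 1 t + (Icc a' b').indicator (fun _ => ENNReal.ofReal c) t) := by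
        apply lintegral_mono
        intro t
        beta_reduce
        by_cases ht : t ∈ Icc a' b'
        · rw [indicator_of_mem ht]
          exact (h2 t ht).trans le_add_self
        · by_cases ht2 : t ∈ Icc a b
          · have hm : t ∈ Icc a b \ Icc a' b' := ⟨ht2, ht⟩
            rw [indicator_of_mem hm]
            exact ((h1 t).trans (by rw [indicator_of_mem ht2])).trans le_self_add
          · have := h1 t
            rw [indicator_of_notMem ht2] at this
            exact this.trans zero_le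
    _ = (volume (Icc a b \ Icc a' b')) + ENNReal.ofReal c * volume (Icc a' b') := by
        rw [lintegral_add_left (measurable_one.indicator (measurableSet_Icc.diff measurableSet_Icc))]
        rw [lintegral_indicator_const measurableSet_Icc]
        have : (Icc a b \ Icc a' b').indicator (1 : ℝ → ℝ≥0∞) =
            (Icc a b \ Icc a' b').indicator (fun _ => (1 : ℝ≥0∞)) := rfl
        rw [this, lintegral_indicator_const (measurableSet_Icc.diff measurableSet_Icc), one_mul]
    _ = ENNReal.ofReal ((b - a) - (b' - a') + c * (b' - a')) := by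
        rw [measure_diff hJ measurableSet_Icc.nullMeasurableSet (by simp),
          Real.volume_Icc, Real.volume_Icc, ← ENNReal.ofReal_sub _ (by linarith),
          ← ENNReal.ofReal_mul hc, ← ENNReal.ofReal_add (by linarith) (mul_nonneg hc (by linarith))]

section Dens

variable {K : Set E}

lemma capSet_meas (hK : IsCompact K) (i j : ℕ) (s : ℝ) : MeasurableSet (capSet K i j s) := by
  have : capSet K i j s = K ∩ ({x | dd K i x ≤ s} ∩ {x | dd K j x ≤ s}) := rfl
  rw [this]
  exact hK.measurableSet.inter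
    ((isClosed_le (continuous_dd K i) continuous_const).measurableSet.inter
      (isClosed_le (continuous_dd K j) continuous_const).measurableSet)

/-- The total weight of the caps at a point. -/
noncomputable def wt (K : Set E) (s : ℕ → ℕ → ℝ) (F : Finset (ℕ × ℕ)) (x : E) : ℝ :=
  ∑ k ∈ F, (s k.1 k.2)⁻¹ * (capSet K k.1 k.2 (s k.1 k.2)).indicator (fun _ => (1 : ℝ)) x

/-- The density: one on `K`, lowered on the caps. -/
noncomputable def dens (K : Set E) (s : ℕ → ℕ → ℝ) (F : Finset (ℕ × ℕ)) (ε : ℝ) (x : E) : ℝ≥0∞ :=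
  K.indicator (fun x => ENNReal.ofReal (1 - ε * wt K s F x)) x

variable {s : ℕ → ℕ → ℝ} {F : Finset (ℕ × ℕ)} {ε : ℝ}

lemma wt_nonneg (hs : ∀ i j, 0 < s i j) (x : E) : 0 ≤ wt K s F x := by
  apply Finset.sum_nonneg
  intro k _
  apply mul_nonneg (inv_nonneg.2 (hs _ _).le)
  apply indicator_nonneg
  intro _ _
  exact zero_le_one

lemma wt_meas (hK : IsCompact K) : Measurable (wt K s F) := by
  unfold wt
  apply Finset.measurable_fun_sum
  intro k _
  apply Measurable.const_mul
  exact measurable_const.indicator (capSet_meas hK _ _ _)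

lemma dens_meas (hK : IsCompact K) : Measurable (dens K s F ε) := by
  unfold dens
  apply Measurable.indicator _ hK.measurableSet
  apply ENNReal.measurable_ofReal.comp
  exact measurable_const.sub ((wt_meas hK).const_mul ε)

lemma dens_supp {x : E} (hx : x ∉ K) : dens K s F ε x = 0 := indicator_of_notMem hx _

lemma dens_le_one (hs : ∀ i j, 0 < s i j) (hε : 0 ≤ ε) (x : E) : dens K s F ε x ≤ 1 := by
  unfold dens
  by_cases hx : x ∈ K
  · rw [indicator_of_mem hx, ← ENNReal.ofReal_one]
    apply ENNReal.ofReal_le_ofReal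
    have := mul_nonneg hε (wt_nonneg (K := K) (F := F) hs x)
    linarith
  · rw [indicator_of_notMem hx]
    exact zero_le

lemma dens_le_ind (hs : ∀ i j, 0 < s i j) (hε : 0 ≤ ε) (z u : E) {a b : ℝ}
    (h : ∀ t : ℝ, z + t • u ∈ K ↔ t ∈ Icc a b) (t : ℝ) :
    dens K s F ε (z + t • u) ≤ (Icc a b).indicator 1 t := by
  by_cases ht : t ∈ Icc a b
  · rw [indicator_of_mem ht]
    exact dens_le_one hs hε _
  · rw [indicator_of_notMem ht, dens_supp (by rwa [h])]

lemma dens_on_cap (hs : ∀ i j, 0 < s i j) (hε : 0 ≤ ε) {k : ℕ × ℕ} (hk : k ∈ F) {x : E}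
    (hx : x ∈ capSet K k.1 k.2 (s k.1 k.2)) :
    dens K s F ε x ≤ ENNReal.ofReal (1 - ε * (s k.1 k.2)⁻¹) := by
  unfold dens
  rw [indicator_of_mem hx.1]
  apply ENNReal.ofReal_le_ofReal
  have h1 : (s k.1 k.2)⁻¹ ≤ wt K s F x := by
    unfold wt
    have h2 := Finset.single_le_sum (f := fun k : ℕ × ℕ =>
      (s k.1 k.2)⁻¹ * (capSet K k.1 k.2 (s k.1 k.2)).indicator (fun _ => (1 : ℝ)) x)
      (fun l _ => mul_nonneg (inv_nonneg.2 (hs _ _).le)
        (indicator_nonneg (fun _ _ => zero_le_one) _)) hk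
    simp only [indicator_of_mem hx, mul_one] at h2
    exact h2
  have := mul_le_mul_of_nonneg_left h1 hε
  linarith

/-- The integral of the density is almost the volume of `K`. -/
lemma dens_integral (hK : IsCompact K) (hs : ∀ i j, 0 < s i j) (hε : 0 ≤ ε) {τ : ℕ × ℕ → ℝ}
    (hτ : ∀ k, 0 ≤ τ k)
    (hcap : ∀ k ∈ F, volume (capSet K k.1 k.2 (s k.1 k.2)) ≤ ENNReal.ofReal (τ k * s k.1 k.2)) :
    volume K ≤ (∫⁻ x, dens K s F ε x) + ENNReal.ofReal (ε * ∑ k ∈ F, τ k) := by
  have h1 : ∫⁻ x, dens K s F ε x = ∫⁻ x in K, ENNReal.ofReal (1 - ε * wt K s F x) := by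
    unfold dens
    rw [lintegral_indicator hK.measurableSet]
  have hpt : ∀ x, ENNReal.ofReal (ε * wt K s F x) =
      ∑ k ∈ F, ENNReal.ofReal (ε * (s k.1 k.2)⁻¹) *
        (capSet K k.1 k.2 (s k.1 k.2)).indicator (fun _ => (1 : ℝ≥0∞)) x := by
    intro x
    unfold wt
    rw [Finset.mul_sum, ENNReal.ofReal_sum_of_nonneg]
    · apply Finset.sum_congr rfl
      intro k _
      by_cases hx : x ∈ capSet K k.1 k.2 (s k.1 k.2)
      · simp only [indicator_of_mem hx, mul_one]
      · simp only [indicator_of_notMem hx, mul_zero, ENNReal.ofReal_zero]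
    · intro k _
      apply mul_nonneg hε
      exact mul_nonneg (inv_nonneg.2 (hs _ _).le) (indicator_nonneg (fun _ _ => zero_le_one) _)
  have h2 : ∫⁻ x, ENNReal.ofReal (ε * wt K s F x) ≤ ENNReal.ofReal (ε * ∑ k ∈ F, τ k) := by
    simp_rw [hpt]
    rw [lintegral_finset_sum]
    · rw [Finset.mul_sum, ENNReal.ofReal_sum_of_nonneg]
      · apply Finset.sum_le_sum
        intro k hk
        rw [lintegral_const_mul _ (measurable_const.indicator (capSet_meas hK _ _ _)),
          lintegral_indicator_const (capSet_meas hK _ _ _), one_mul]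
        refine (mul_le_mul' le_rfl (hcap k hk)).trans ?_
        have hsk := hs k.1 k.2
        rw [← ENNReal.ofReal_mul (mul_nonneg hε (inv_nonneg.2 hsk.le))]
        apply ENNReal.ofReal_le_ofReal
        apply le_of_eq
        field_simp
      · intro k _
        exact mul_nonneg hε (hτ k)
    · intro k _
      exact Measurable.const_mul (measurable_const.indicator (capSet_meas hK _ _ _)) _
  calc volume K = ∫⁻ x in K, 1 := by simp
    _ ≤ ∫⁻ x in K, (ENNReal.ofReal (1 - ε * wt K s F x) + ENNReal.ofReal (ε * wt K s F x)) := by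
        apply lintegral_mono
        intro x
        refine le_trans ?_ ENNReal.ofReal_add_le
        simp
    _ = (∫⁻ x in K, ENNReal.ofReal (1 - ε * wt K s F x)) + ∫⁻ x in K, ENNReal.ofReal (ε * wt K s F x) := by
        have hm : Measurable fun x => ENNReal.ofReal (ε * wt K s F x) :=
          ENNReal.measurable_ofReal.comp ((wt_meas hK).const_mul ε)
        exact lintegral_add_right _ hm
    _ ≤ _ := by
        rw [h1]
        gcongr
        exact (setLIntegral_le_lintegral _ _).trans h2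

end Dens

end Vale.Agent.Lib.P243
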