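import Vale.Agent.Lib.P243.GenRS

open MeasureTheory Set Module
open scoped ENNReal Pointwise

namespace Vale.Agent.Lib.P243

section Exact

variable {W : Type*} [NormedAddCommGroup W] [NormedSpace ℝ W] [FiniteDimensional ℝ W]
  [MeasurableSpace W] [BorelSpace W]

/-- An exact chord of a convex body in `W × ℝ`: equality in the chord-shadow bound. -/
structure ExactChord (μ : Measure W) [μ.IsAddHaarMeasure] (K : Set (W × ℝ)) (y0 : W) (a b : ℝ) :
    Prop where
  hW : finrank ℝ W = 2
  hc : Convex ℝ K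
  hK : IsCompact K
  hint : (interior (Prod.fst '' K)).Nonempty
  ha : a ∈ fib K y0
  hb : b ∈ fib K y0
  hL : 0 < b - a
  hexact : (μ.prod volume) K ≤ ENNReal.ofReal ((b - a) / 3) * μ (Prod.fst '' K)

variable {μ : Measure W} [μ.IsAddHaarMeasure] {K : Set (W × ℝ)} {y0 : W} {a b : ℝ}

namespace ExactChord

variable (h : ExactChord μ K y0 a b)
include h

lemma shadow_pos : μ (Prod.fst '' K) ≠ 0 := by
  obtain ⟨w, hw⟩ := h.hint
  exact (Measure.measure_pos_of_mem_nhds μ (mem_interior_iff_mem_nhds.1 hw)).ne'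

lemma shadow_fin : μ (Prod.fst '' K) ≠ ⊤ :=
  (h.hK.image continuous_fst).measure_lt_top.ne

/-- No chord is longer than the exact one. -/
lemma chord_le {y : W} {s1 s2 : ℝ} (h1 : s1 ∈ fib K y) (h2 : s2 ∈ fib K y) : s2 - s1 ≤ b - a := by
  have hv := volume_bound_gen μ h.hW h.hc h.hK h1 h2
  have h3 := hv.trans h.hexact
  have h4 : ENNReal.ofReal ((s2 - s1) / 3) ≤ ENNReal.ofReal ((b - a) / 3) :=
    (ENNReal.mul_le_mul_iff_left h.shadow_pos h.shadow_fin).1 h3
  have h5 : (s2 - s1) / 3 ≤ (b - a) / 3 := by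
    rcases le_or_gt ((s2 - s1) / 3) 0 with h6 | h6
    · exact h6.trans (by have := h.hL; positivity)
    · exact (ENNReal.ofReal_le_ofReal_iff' .. |>.1 h4).resolve_right (not_le.2 h6)
  linarith

/-- The fibre length is affine along rays from the base point of an exact chord. -/
lemma ray_le {y'' : W} {a'' b'' : ℝ} (ha'' : a'' ∈ fib K y'') (hb'' : b'' ∈ fib K y'')
    (hsub : fib K y'' ⊆ Icc a'' b'') {τ : ℝ} (hτ0 : 0 < τ) (hτ1 : τ < 1)
    {s1 s2 : ℝ} (h1 : s1 ∈ fib K ((1 - τ) • y0 + τ • y'')) (h2 : s2 ∈ fib K ((1 - τ) • y0 + τ • y'')) :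
    s2 - s1 ≤ (1 - τ) * (b - a) + τ * (b'' - a'') := by
  by_contra hcon
  push_neg at hcon
  set L := b - a with hLdef
  have hLpos : 0 < L := h.hL
  have hle : s2 - s1 ≤ L := h.chord_le h1 h2
  have hl'' : b'' - a'' ≤ L := h.chord_le ha'' hb''
  have hl''0 : 0 ≤ b'' - a'' := by
    have := hsub hb''
    linarith [this.1]
  set R := (1 - τ) * L + τ * (b'' - a'') with hR
  have hRpos : 0 < R := by
    have : 0 < (1 - τ) * L := mul_pos (by linarith) hLpos
    have : 0 ≤ τ * (b'' - a'') := mul_nonneg hτ0.le hl''0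
    linarith
  set m := (R + (s2 - s1)) / (2 * L) with hm
  have hmL : m * L = (R + (s2 - s1)) / 2 := by
    rw [hm]
    field_simp
  have hm0 : 0 < m := by
    have : 0 < m * L := by rw [hmL]; linarith
    exact (mul_pos_iff_of_pos_right hLpos).1 this
  have hm1 : m < 1 := by
    have : m * L < 1 * L := by rw [hmL, one_mul]; linarith
    exact lt_of_mul_lt_mul_right this hLpos.le
  have hlev : (1 - τ) • y0 + τ • y'' ∈ level K (m * (b - a)) := by
    refine le_trans (ENNReal.ofReal_le_ofReal ?_) (ofReal_le_vol_fib h.hc h1 h2)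
    rw [← hLdef, hmL]
    linarith
  obtain ⟨z', hz', hzeq⟩ := exact_level_subset μ h.hW h.hc h.hK h.hint h.ha h.hb h.hL h.hexact hm0 hm1 hlev
  rw [AffineMap.homothety_apply, vsub_eq_sub, vadd_eq_add] at hzeq
  have hmR : R < m * L := by rw [hmL]; linarith
  have h1m : 1 - m < τ := by
    have : (1 - τ) * L < m * L := by
      have : 0 ≤ τ * (b'' - a'') := mul_nonneg hτ0.le hl''0
      linarith
    have := lt_of_mul_lt_mul_right this hLpos.le
    linarith
  set κ := (1 - m) / τ with hκ
  have hκ0 : 0 < κ := div_pos (by linarith) hτ0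
  have hκ1 : κ < 1 := (div_lt_one hτ0).2 h1m
  have hκτ : κ * τ = 1 - m := by
    rw [hκ]
    field_simp
  have hy'' : y'' = (1 - κ) • y0 + κ • z' := by
    have e1 : τ • (y'' - y0) = (1 - m) • (z' - y0) := by
      have : (1 - m) • (z' - y0) + y0 = (1 - τ) • y0 + τ • y'' := hzeq
      have e2 : τ • (y'' - y0) = ((1 - τ) • y0 + τ • y'') - y0 := by module
      rw [e2, ← this]
      abel
    have e3 : y'' - y0 = κ • (z' - y0) := by
      have : τ • (y'' - y0) = τ • (κ • (z' - y0)) := by
        rw [e1, smul_smul, mul_comm, hκτ]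
      exact smul_right_injective _ hτ0.ne' this
    have : y'' = y0 + (y'' - y0) := by abel
    rw [this, e3]
    module
  obtain ⟨⟨z'', s'⟩, hp, rfl⟩ := hz'
  simp only at hy''
  have key : ∀ {c : ℝ}, c ∈ fib K y0 → (1 - κ) * c + κ * s' ∈ fib K y'' := by
    intro c hc
    have := h.hc hc hp (by linarith : (0 : ℝ) ≤ 1 - κ) hκ0.le (by ring)
    simp only [fib, mem_setOf_eq]
    rw [hy'']
    convert this using 1
    ext <;> simp
  have h3 := hsub (key h.ha)
  have h4 := hsub (key h.hb)
  have h5 : (1 - κ) * L ≤ b'' - a'' := by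
    have e : (1 - κ) * L = ((1 - κ) * b + κ * s') - ((1 - κ) * a + κ * s') := by
      rw [hLdef]; ring
    rw [e]
    linarith [h4.2, h3.1]
  have h6 : m * L ≤ R := by
    have h7 : τ * ((1 - κ) * L) ≤ τ * (b'' - a'') := mul_le_mul_of_nonneg_left h5 hτ0.le
    have h8 : τ * ((1 - κ) * L) = (τ - (1 - m)) * L := by
      rw [← hκτ]; ring
    rw [h8] at h7
    rw [hR]
    nlinarith
  linarith

/-- The top of the fibre over an interior point lies on a segment through the top of the exact
chord, so that every supporting functional there also supports the top of the chord. -/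
lemma top_support {y' : W} (hy' : y' ∈ interior (Prod.fst '' K)) {h0 : ℝ} (hh : h0 ∈ fib K y')
    (htop : ∀ s ∈ fib K y', s ≤ h0) (f : (W × ℝ) →ₗ[ℝ] ℝ) (hf : ∀ x ∈ K, f x ≤ f (y', h0)) :
    f (y0, b) = f (y', h0) := by
  by_cases hyy : y' = y0
  · subst hyy
    have h1 : b ≤ h0 := htop b h.hb
    have h2 : h0 - a ≤ b - a := h.chord_le h.ha hh
    have : h0 = b := by linarith
    rw [this]
  · have hev : ∀ᶠ κ : ℝ in nhds 0, y' + κ • (y' - y0) ∈ interior (Prod.fst '' K) := by
      have hc : Continuous fun κ : ℝ => y' + κ • (y' - y0) := by fun_prop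
      apply hc.continuousAt.eventually
      simp only [zero_smul, add_zero]
      exact isOpen_interior.mem_nhds hy'
    obtain ⟨δ, hδ, hball⟩ := Metric.eventually_nhds_iff.1 hev
    set κ := δ / 2 with hκ
    have hκ0 : 0 < κ := by positivity
    have hmem : y' + κ • (y' - y0) ∈ Prod.fst '' K := by
      apply interior_subset
      apply hball
      rw [Real.dist_eq, sub_zero, abs_of_pos hκ0]
      linarith
    set y'' := y' + κ • (y' - y0) with hy''
    obtain ⟨a'', b'', ha'', hb'', hsub⟩ := exists_fib_extremes h.hK hmem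
    set τ := 1 / (1 + κ) with hτ
    have hτ0 : 0 < τ := by positivity
    have hτ1 : τ < 1 := by
      rw [hτ, div_lt_one (by linarith)]
      linarith
    have hy'eq : y' = (1 - τ) • y0 + τ • y'' := by
      have e1 : τ * (1 + κ) = 1 := by rw [hτ]; field_simp
      have e2 : (1 - τ) • y0 + τ • y'' = (τ * (1 + κ)) • y' + (1 - τ * (1 + κ)) • y0 := by
        rw [hy'']; module
      rw [e2, e1]
      simp
    have hh' : h0 ∈ fib K ((1 - τ) • y0 + τ • y'') := by rw [← hy'eq]; exact hh
    have hcomb : ∀ {c d : ℝ}, c ∈ fib K y0 → d ∈ fib K y'' → (1 - τ) * c + τ * d ∈ fib K y' := by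
      intro c d hc hd
      have := h.hc hc hd (by linarith : (0 : ℝ) ≤ 1 - τ) hτ0.le (by ring)
      simp only [fib, mem_setOf_eq]
      have e : (y', (1 - τ) * c + τ * d) = (1 - τ) • (y0, c) + τ • (y'', d) := by
        ext
        · simp only [Prod.fst_add, Prod.smul_fst]
          exact hy'eq
        · simp
      rw [e]
      exact this
    have h1 : (1 - τ) * a + τ * a'' ∈ fib K y' := hcomb h.ha ha''
    have h2 : (1 - τ) * b + τ * b'' ∈ fib K y' := hcomb h.hb hb''
    have h3 : (1 - τ) * b + τ * b'' ≤ h0 := htop _ h2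
    have h4 : h0 - ((1 - τ) * a + τ * a'') ≤ (1 - τ) * (b - a) + τ * (b'' - a'') := by
      refine h.ray_le ha'' hb'' hsub hτ0 hτ1 ?_ hh'
      rw [← hy'eq]
      exact h1
    have h5 : h0 = (1 - τ) * b + τ * b'' := by
      have : (1 - τ) * (b - a) + τ * (b'' - a'') + ((1 - τ) * a + τ * a'') = (1 - τ) * b + τ * b'' := by
        ring
      linarith
    have h6 : (y', h0) = (1 - τ) • (y0, b) + τ • (y'', b'') := by
      ext
      · simp only [Prod.fst_add, Prod.smul_fst]
        exact hy'eq
      · simp [h5]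
    have h7 : f (y0, b) ≤ f (y', h0) := hf _ h.hb
    have h8 : f (y'', b'') ≤ f (y', h0) := hf _ hb''
    have h9 : f (y', h0) = (1 - τ) * f (y0, b) + τ * f (y'', b'') := by
      conv_lhs => rw [h6]
      simp only [map_add, map_smul, smul_eq_mul]
    apply le_antisymm h7
    by_contra hcon
    push_neg at hcon
    have h10 : (1 - τ) * f (y0, b) < (1 - τ) * f (y', h0) :=
      mul_lt_mul_of_pos_left hcon (by linarith)
    have h11 : τ * f (y'', b'') ≤ τ * f (y', h0) := mul_le_mul_of_nonneg_left h8 hτ0.le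
    nlinarith

end ExactChord

end Exact

end Vale.Agent.Lib.P243
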