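import Vale.Agent.Lib.P243.Nearest

open MeasureTheory Set Module Filter Topology
open scoped ENNReal Pointwise RealInnerProductSpace

namespace Vale.Agent.Lib.P243

variable {E : Type*} [NormedAddCommGroup E] [InnerProductSpace ℝ E] [FiniteDimensional ℝ E]
  [MeasurableSpace E] [BorelSpace E]

/-- A pair of points of `K` with equality in the swept volume bound. -/
structure ExactPair (K : Set E) (p q : E) : Prop where
  hp : p ∈ K
  hq : q ∈ K
  hs : 4 * volume K ≤ volume (sweep K (q - p))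

variable {K : Set E} {p q : E}

lemma Body.vol_pos (hB : Body K) : volume K ≠ 0 := by
  obtain ⟨x, hx⟩ := hB.hi
  exact (Measure.measure_pos_of_mem_nhds volume (mem_interior_iff_mem_nhds.1 hx)).ne'

lemma Body.vol_fin (hB : Body K) : volume K ≠ ⊤ := hB.hK.measure_lt_top.ne

lemma ExactPair.symm (h : ExactPair K p q) : ExactPair K q p :=
  ⟨h.hq, h.hp, by
    have : p - q = -(q - p) := by abel
    rw [this, volume_sweep_neg]
    exact h.hs⟩

lemma ExactPair.sub_ne (h : ExactPair K p q) (hB : Body K) : q - p ≠ 0 := by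
  intro h0
  have h1 := h.hs
  rw [h0, sweep_zero] at h1
  have h2 : (4 : ℝ≥0∞) * volume K ≤ 1 * volume K := by rwa [one_mul]
  have h3 := (ENNReal.mul_le_mul_iff_left hB.vol_pos hB.vol_fin).1 h2
  norm_num at h3

section Chord

variable (hB : Body K) (hE : finrank ℝ E = 3) (hx : ExactPair K p q)
  {u : E} (hu : ‖u‖ = 1) {L : ℝ} (hL : 0 < L) (hv : L • u = q - p)

include hv in
lemma split_q : splitEquiv u hu q = splitEquiv u hu p + (L : ℝ) • ((0 : (Submodule.span ℝ {u})ᗮ), (1 : ℝ)) := by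
  have hs : splitEquiv u hu u = (0, 1) := splitEquiv_self u hu
  rw [← hs, ← map_smul, ← map_add, hv]
  congr 1
  abel

include hB hE hx hL hv in
lemma exactChord :
    ExactChord (volume : Measure (Submodule.span ℝ {u})ᗮ) (splitEquiv u hu '' K)
      (splitEquiv u hu p).1 (splitEquiv u hu p).2 (splitEquiv u hu q).2 := by
  set T := splitEquiv u hu with hT
  have hq' : T q = T p + (L : ℝ) • ((0 : (Submodule.span ℝ {u})ᗮ), (1 : ℝ)) := split_q hu hv
  have hb2 : (T q).2 = (T p).2 + L := by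
    rw [hq']
    simp
  have hb1 : (T q).1 = (T p).1 := by
    rw [hq']
    simp
  refine ⟨finrank_perp hE hu, hB.hc.linear_image (T.toLinearEquiv.toLinearMap : E →ₗ[ℝ] _),
    hB.hK.image T.continuous, ?_, ⟨p, hx.hp, rfl⟩, ?_, by rw [hb2]; linarith, ?_⟩
  · obtain ⟨w, hw⟩ := hB.hi
    have hopen : IsOpenMap (fun x => (T x).1) :=
      isOpenMap_fst.comp T.toHomeomorph.isOpenMap
    refine ⟨(T w).1, ?_⟩
    refine interior_mono ?_ (hopen.image_interior_subset K ⟨w, hw, rfl⟩)
    rintro _ ⟨x, hx', rfl⟩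
    exact ⟨T x, ⟨x, hx', rfl⟩, rfl⟩
  · show ((T p).1, (T q).2) ∈ T '' K
    rw [← hb1]
    exact ⟨q, hx.hq, rfl⟩
  · rw [volume_split u hu hB.hK, image_fst_split, hb2]
    have e : (T p).2 + L - (T p).2 = L := by ring
    rw [e]
    have h1 := hx.hs
    rw [← hv, volume_sweep hB.hc hB.hK u hu hL.le] at h1
    set A := volume ((Submodule.span ℝ {u})ᗮ.orthogonalProjectionOnto '' K)
    have h2 : volume K + 3 * volume K ≤ volume K + ENNReal.ofReal L * A := by
      calc volume K + 3 * volume K = 4 * volume K := by ring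
        _ ≤ _ := h1
    have h3 : 3 * volume K ≤ ENNReal.ofReal L * A :=
      (ENNReal.add_le_add_iff_left hB.vol_fin).1 h2
    have e2 : ENNReal.ofReal L = 3 * ENNReal.ofReal (L / 3) := by
      have : L = 3 * (L / 3) := by ring
      conv_lhs => rw [this]
      rw [ENNReal.ofReal_mul (by norm_num)]
      norm_num
    rw [e2, mul_assoc] at h3
    have h30 : (3 : ℝ≥0∞) ≠ 0 := by norm_num
    have h3t : (3 : ℝ≥0∞) ≠ ⊤ := by norm_num
    exact (ENNReal.mul_le_mul_iff_right h30 h3t).1 h3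

end Chord

/-- The cylinder over `K` along `v`. -/
def cyl (K : Set E) (v : E) : Set E := {x | ∃ t : ℝ, x + t • v ∈ K}

lemma subset_cyl (v : E) : K ⊆ cyl K v := fun x hx => ⟨0, by simpa using hx⟩

lemma cyl_neg (v : E) : cyl K (-v) = cyl K v := by
  ext x
  constructor
  · rintro ⟨t, ht⟩
    exact ⟨-t, by simpa using ht⟩
  · rintro ⟨t, ht⟩
    exact ⟨-t, by simpa using ht⟩

lemma cyl_add {v x : E} (t : ℝ) (hx : x ∈ cyl K v) : x + t • v ∈ cyl K v := by
  obtain ⟨s, hs⟩ := hx
  refine ⟨s - t, ?_⟩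
  convert hs using 1
  module

lemma interior_cyl_add {v x : E} (t : ℝ) (hx : x ∈ interior (cyl K v)) :
    x + t • v ∈ interior (cyl K v) := by
  have hopen : IsOpen ((fun y => y - t • v) ⁻¹' interior (cyl K v)) :=
    isOpen_interior.preimage (by fun_prop)
  have hsub : (fun y => y - t • v) ⁻¹' interior (cyl K v) ⊆ cyl K v := by
    intro y hy
    have := cyl_add t (interior_subset hy)
    simpa using this
  exact interior_maximal hsub hopen (by simpa using hx)

section Top

variable (hB : Body K) (hE : finrank ℝ E = 3) (hx : ExactPair K p q)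
  {u : E} (hu : ‖u‖ = 1) {L : ℝ} (hL : 0 < L) (hv : L • u = q - p)

include hB hE hx hu hL hv in
/-- A supporting functional at a top point over the interior of the shadow also supports the top
of the exact chord. -/
lemma top_E {x : E} (hxK : x ∈ K) (hint : x ∈ interior (cyl K (q - p)))
    (htop : ∀ t : ℝ, 0 < t → x + t • (q - p) ∉ K) {n : E} (hn : ∀ w ∈ K, ⟪n, w⟫ ≤ ⟪n, x⟫) :
    ⟪n, q⟫ = ⟪n, x⟫ := by
  have hC := exactChord hB hE hx hu hL hv
  set T := splitEquiv u hu with hT
  have hq' : T q = T p + (L : ℝ) • ((0 : (Submodule.span ℝ {u})ᗮ), (1 : ℝ)) := split_q hu hv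
  have hb1 : (T q).1 = (T p).1 := by
    rw [hq']
    simp
  have hTu : T u = (0, 1) := splitEquiv_self u hu
  have hfstv : ∀ (y : E) (t : ℝ), (T (y + t • (q - p))).1 = (T y).1 := by
    intro y t
    rw [← hv, map_add, map_smul, map_smul, hTu]
    simp
  have hy' : (T x).1 ∈ interior (Prod.fst '' (T '' K)) := by
    have hopen : IsOpenMap (fun x => (T x).1) :=
      isOpenMap_fst.comp T.toHomeomorph.isOpenMap
    refine interior_mono ?_ (hopen.image_interior_subset _ ⟨x, hint, rfl⟩)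
    rintro _ ⟨y, ⟨t, ht⟩, rfl⟩
    refine ⟨T (y + t • (q - p)), ⟨_, ht, rfl⟩, hfstv y t⟩
  have hh : (T x).2 ∈ fib (T '' K) (T x).1 := ⟨x, hxK, rfl⟩
  have htop' : ∀ s ∈ fib (T '' K) (T x).1, s ≤ (T x).2 := by
    rintro s ⟨w, hw, hwe⟩
    by_contra hcon
    push_neg at hcon
    have e1 : T (w - x) = (0, s - (T x).2) := by
      rw [map_sub, hwe]
      ext <;> simp
    have e2 : w - x = (s - (T x).2) • u := by
      have := congrArg T.symm e1
      rw [T.symm_apply_apply] at this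
      rw [this, hT, splitEquiv_symm]
      simp
    have e3 : w = x + ((s - (T x).2) / L) • (q - p) := by
      rw [← hv, smul_smul, div_mul_cancel₀ _ hL.ne', ← e2]
      abel
    exact htop _ (div_pos (by linarith) hL) (e3 ▸ hw)
  let f : (Submodule.span ℝ {u})ᗮ × ℝ →ₗ[ℝ] ℝ :=
    (innerₗ E n).comp (T.symm.toLinearEquiv.toLinearMap)
  have hfT : ∀ w, f (T w) = ⟪n, w⟫ := by
    intro w
    simp [f]
  have hf : ∀ y ∈ T '' K, f y ≤ f ((T x).1, (T x).2) := by
    rintro _ ⟨w, hw, rfl⟩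
    show f (T w) ≤ f (T x)
    rw [hfT, hfT]
    exact hn w hw
  have := hC.top_support hy' hh htop' f hf
  have e4 : ((T p).1, (T q).2) = T q := by
    rw [← hb1]
  rw [e4] at this
  rw [hfT] at this
  rw [this]
  show f (T x) = _
  rw [hfT]

include hB hE hx hu hL hv in
/-- The level bound in the ambient space. -/
lemma level_E {x1 x2 : E} (h1 : x1 ∈ K) (h2 : x2 ∈ K) {m : ℝ} (hm : x2 - x1 = m • (q - p))
    (hm0 : 0 ≤ m) : m ≤ 1 ∧ ∀ D, (∀ a ∈ K, ∀ b ∈ K, ‖a - b‖ ≤ D) →
      ‖(Submodule.span ℝ {u})ᗮ.orthogonalProjectionOnto (x1 - q)‖ ≤ (1 - m) * D := by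
  have hC := exactChord hB hE hx hu hL hv
  set T := splitEquiv u hu with hT
  set π := (Submodule.span ℝ {u})ᗮ.orthogonalProjectionOnto with hπ
  have hTu : T u = (0, 1) := splitEquiv_self u hu
  have hq' : T q = T p + (L : ℝ) • ((0 : (Submodule.span ℝ {u})ᗮ), (1 : ℝ)) := split_q hu hv
  have hb1 : (T q).1 = (T p).1 := by
    rw [hq']
    simp
  have hb2 : (T q).2 = (T p).2 + L := by
    rw [hq']
    simp
  have e1 : T x2 = T x1 + (m * L) • ((0 : (Submodule.span ℝ {u})ᗮ), (1 : ℝ)) := by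
    have : x2 = x1 + m • (q - p) := by rw [← hm]; abel
    rw [this, ← hv, map_add, map_smul, map_smul, hTu, smul_smul]
  have e2 : (T x2).1 = (T x1).1 := by
    rw [e1]
    simp
  have e3 : (T x2).2 = (T x1).2 + m * L := by
    rw [e1]
    simp
  have ha : (T x1).2 ∈ fib (T '' K) (T x1).1 := ⟨x1, h1, rfl⟩
  have hb : (T x2).2 ∈ fib (T '' K) (T x1).1 := by
    rw [← e2]
    exact ⟨x2, h2, rfl⟩
  have hle := hC.chord_le ha hb
  rw [e3, hb2] at hle
  have hm1 : m ≤ 1 := by
    have : m * L ≤ 1 * L := by linarith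
    exact le_of_mul_le_mul_right this hL
  refine ⟨hm1, fun D hD => ?_⟩
  have hD0 : 0 ≤ D := by
    have := hD _ h1 _ h1
    simpa using this
  have hπ1 : ∀ w, ‖π w‖ ≤ ‖w‖ := fun w => by
    simpa using (Submodule.orthogonalProjectionOnto_norm_le (Submodule.span ℝ {u})ᗮ |> fun h =>
      (π.le_opNorm w).trans (mul_le_mul_of_nonneg_right h (norm_nonneg _)))
  have hbase : ‖π (x1 - q)‖ ≤ D := (hπ1 _).trans (hD _ h1 _ hx.hq)
  have hkey : ∀ m', 0 < m' → m' < 1 → m' ≤ m → ‖π (x1 - q)‖ ≤ (1 - m') * D := by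
    intro m' h0 h3 h4
    have hlev : (T x1).1 ∈ level (T '' K) (m' * ((T q).2 - (T p).2)) := by
      refine le_trans (ENNReal.ofReal_le_ofReal ?_) (ofReal_le_vol_fib hC.hc ha hb)
      rw [e3, hb2]
      have : m' * L ≤ m * L := mul_le_mul_of_nonneg_right h4 hL.le
      linarith
    obtain ⟨z', hz', hze⟩ := exact_level_subset volume hC.hW hC.hc hC.hK hC.hint hC.ha hC.hb hC.hL
      hC.hexact h0 h3 hlev
    obtain ⟨_, ⟨w, hw, rfl⟩, rfl⟩ := hz'
    rw [AffineMap.homothety_apply, vsub_eq_sub, vadd_eq_add] at hze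
    have hfst : ∀ y, (T y).1 = π y := fun y => splitEquiv_fst u hu y
    have e5 : π (x1 - q) = (1 - m') • π (w - q) := by
      rw [map_sub, map_sub, ← hfst, ← hfst, ← hfst, hb1, ← hze]
      abel
    rw [e5, norm_smul, Real.norm_eq_abs, abs_of_pos (by linarith)]
    exact mul_le_mul_of_nonneg_left ((hπ1 _).trans (hD _ hw _ hx.hq)) (by linarith)
  rcases eq_or_lt_of_le hm0 with h0 | h0
  · rw [← h0]
    simpa using hbase
  rcases eq_or_lt_of_le hm1 with h3 | h3
  · rw [h3]
    simp only [sub_self, zero_mul]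
    by_contra hcon
    push_neg at hcon
    have hDpos : 0 < D := lt_of_lt_of_le hcon hbase
    set m' := 1 - ‖π (x1 - q)‖ / (2 * D) with hm'
    have h4 : ‖π (x1 - q)‖ / (2 * D) ≤ 1 / 2 := by
      rw [div_le_iff₀ (by positivity)]
      linarith
    have h5 : 0 < ‖π (x1 - q)‖ / (2 * D) := by positivity
    have h6 := hkey m' (by rw [hm']; linarith) (by rw [hm']; linarith) (by rw [hm', h3]; linarith)
    have h7 : (1 - m') * D = ‖π (x1 - q)‖ / 2 := by
      rw [hm']
      field_simp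
      ring
    rw [h7] at h6
    linarith
  · exact hkey m h0 h3 le_rfl

end Top

end Vale.Agent.Lib.P243
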