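import Vale.Agent.Lib.P243.ExactE

open MeasureTheory Set Module Filter Topology TopologicalSpace
open scoped ENNReal Pointwise RealInnerProductSpace

namespace Vale.Agent.Lib.P243

variable {E : Type*} [NormedAddCommGroup E] [InnerProductSpace ℝ E] [FiniteDimensional ℝ E]
  [MeasurableSpace E] [BorelSpace E]

lemma exists_dir {v : E} (hv : v ≠ 0) : ∃ u : E, ‖u‖ = 1 ∧ ∃ L : ℝ, 0 < L ∧ L • u = v := by
  have hL : 0 < ‖v‖ := norm_pos_iff.2 hv
  refine ⟨‖v‖⁻¹ • v, ?_, ‖v‖, hL, ?_⟩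
  · rw [norm_smul, norm_inv, norm_norm, inv_mul_cancel₀ hL.ne']
  · rw [smul_smul, mul_inv_cancel₀ hL.ne', one_smul]

section Open

/-- Points whose nearest point lies on the part of the boundary facing `v`. -/
def Otop (K : Set E) (v : E) : Set E :=
  {z | z ∉ K ∧ nearest K z ∈ interior (cyl K v) ∧ 0 < ⟪nhat K z, v⟫}

variable {K : Set E} (hB : Body K)
include hB

lemma isOpen_Otop (v : E) : IsOpen (Otop K v) := by
  have h1 : ContinuousOn (fun z => ⟪nhat K z, v⟫) Kᶜ :=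
    (continuousOn_nhat hB).inner continuousOn_const
  have h2 := h1.isOpen_inter_preimage (isOpen_compl hB) (isOpen_Ioi (a := (0 : ℝ)))
  have h3 : IsOpen (nearest K ⁻¹' interior (cyl K v)) :=
    isOpen_interior.preimage (continuous_nearest hB)
  have e : Otop K v = (Kᶜ ∩ (fun z => ⟪nhat K z, v⟫) ⁻¹' Ioi 0) ∩ (nearest K ⁻¹' interior (cyl K v)) := by
    ext z
    constructor
    · rintro ⟨a, b, c⟩
      exact ⟨⟨a, c⟩, b⟩
    · rintro ⟨⟨a, c⟩, b⟩
      exact ⟨a, b, c⟩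
  rw [e]
  exact h2.inter h3

lemma exists_top {v x : E} (hv : v ≠ 0) (hx : x ∈ K) :
    ∃ t : ℝ, 0 ≤ t ∧ x + t • v ∈ K ∧ ∀ s : ℝ, 0 < s → x + t • v + s • v ∉ K := by
  have hS : IsCompact {t : ℝ | x + t • v ∈ K} := by
    have hcl : IsClosed {t : ℝ | x + t • v ∈ K} :=
      hB.hK.isClosed.preimage (by fun_prop : Continuous fun t : ℝ => x + t • v)
    obtain ⟨M, hM⟩ := hB.hK.isBounded.exists_norm_le
    refine Metric.isCompact_of_isClosed_isBounded hcl ?_
    have hvpos : 0 < ‖v‖ := norm_pos_iff.2 hv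
    refine (Metric.isBounded_closedBall (x := (0 : ℝ)) (r := (M + ‖x‖) / ‖v‖)).subset ?_
    intro t ht
    rw [mem_closedBall_zero_iff, Real.norm_eq_abs, le_div_iff₀ hvpos]
    have h1 : ‖x + t • v‖ ≤ M := hM _ ht
    have h2 : ‖t • v‖ ≤ ‖x + t • v‖ + ‖x‖ := by
      have : t • v = (x + t • v) - x := by abel
      conv_lhs => rw [this]
      exact norm_sub_le _ _
    rw [norm_smul, Real.norm_eq_abs] at h2
    linarith
  have h0 : (0 : ℝ) ∈ {t : ℝ | x + t • v ∈ K} := by simpa using hx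
  obtain ⟨t, ht⟩ := hS.exists_isGreatest ⟨0, h0⟩
  refine ⟨t, ht.2 h0, ht.1, fun s hs hmem => ?_⟩
  have : t + s ≤ t := ht.2 (show x + (t + s) • v ∈ K by
    rw [add_smul, ← add_assoc]
    exact hmem)
  linarith

lemma top_mem_Otop {v x : E} (hxK : x ∈ K) (hint : x ∈ interior (cyl K v))
    (htop : ∀ t : ℝ, 0 < t → x + t • v ∉ K) :
    ∀ᶠ δ : ℝ in 𝓝[>] 0, x + δ • v ∈ Otop K v := by
  have hc : Continuous fun δ : ℝ => nearest K (x + δ • v) :=
    (continuous_nearest hB).comp (by fun_prop)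
  have h0 : nearest K (x + (0 : ℝ) • v) = x := by
    simp only [zero_smul, add_zero]
    exact nearest_of_mem hB hxK
  have h1 : ∀ᶠ δ : ℝ in 𝓝 0, nearest K (x + δ • v) ∈ interior (cyl K v) := by
    apply hc.continuousAt.eventually
    have e : (fun δ : ℝ => nearest K (x + δ • v)) 0 = x := h0
    rw [e]
    exact isOpen_interior.mem_nhds hint
  have h2 : ∀ᶠ δ : ℝ in 𝓝[>] 0, nearest K (x + δ • v) ∈ interior (cyl K v) :=
    h1.filter_mono nhdsWithin_le_nhds
  filter_upwards [h2, self_mem_nhdsWithin] with δ hδ hδ0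
  have hδpos : 0 < δ := hδ0
  have hz : x + δ • v ∉ K := htop δ hδpos
  refine ⟨hz, hδ, ?_⟩
  set z := x + δ • v with hzdef
  have h3 := nhat_gap hB hz
  have h4 := nhat_inner_le hB (z := z) hxK
  have h5 : 0 < ‖z - nearest K z‖ := norm_pos_iff.2 (sub_nearest_ne hB hz)
  have h6 : δ * ⟪nhat K z, v⟫ = ⟪nhat K z, z - nearest K z⟫ + ⟪nhat K z, nearest K z⟫ - ⟪nhat K z, x⟫ := by
    rw [inner_sub_right, hzdef, inner_add_right, inner_smul_right]
    ring
  have h7 : 0 < δ * ⟪nhat K z, v⟫ := by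
    rw [h6, h3]
    linarith
  exact (mul_pos_iff_of_pos_left hδpos).1 h7

lemma Otop_nonempty {v : E} (hv : v ≠ 0) : (Otop K v).Nonempty := by
  obtain ⟨x, hx⟩ := hB.hi
  obtain ⟨t, _, ht, htop⟩ := exists_top hB hv (interior_subset hx)
  have hint : x + t • v ∈ interior (cyl K v) :=
    interior_cyl_add t (interior_mono (subset_cyl v) hx)
  obtain ⟨δ, hδ⟩ := (top_mem_Otop hB ht hint htop).exists
  exact ⟨_, hδ⟩

end Open

lemma abs_inner_unit_eq {a b : E} (ha : ‖a‖ = 1) (hb : ‖b‖ = 1) (h : ¬ |⟪a, b⟫| < 1) :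
    b = a ∨ b = -a := by
  have h1 : |⟪a, b⟫| ≤ 1 := by
    have := abs_real_inner_le_norm a b
    rwa [ha, hb, one_mul] at this
  have h2 : |⟪a, b⟫| = 1 := le_antisymm h1 (not_lt.1 h)
  rcases (abs_eq (by norm_num : (0 : ℝ) ≤ 1)).1 h2 with h3 | h3
  · left
    exact ((inner_eq_one_iff_of_norm_eq_one ha hb).1 h3).symm
  · right
    have h4 : ⟪a, -b⟫ = 1 := by rw [inner_neg_right, h3]; norm_num
    have h5 := (inner_eq_one_iff_of_norm_eq_one ha (by rw [norm_neg, hb])).1 h4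
    rw [h5]
    simp

section Dense

lemma dense_pair {U : Set (E × E)} (hU : IsOpen U) (hne : U.Nonempty) :
    ∃ i j, (denseSeq E i, denseSeq E j) ∈ U := by
  obtain ⟨⟨a, b⟩, hab⟩ := hne
  obtain ⟨A, B, hA, hB, ha, hb, hsub⟩ := isOpen_prod_iff.1 hU a b hab
  obtain ⟨i, hi⟩ := (denseRange_denseSeq E).exists_mem_open hA ⟨a, ha⟩
  obtain ⟨j, hj⟩ := (denseRange_denseSeq E).exists_mem_open hB ⟨b, hb⟩
  exact ⟨i, j, hsub ⟨hi, hj⟩⟩

/-- Two dense points outside `K` with non-parallel normals. -/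
structure Adm (K : Set E) (i j : ℕ) : Prop where
  hi : denseSeq E i ∉ K
  hj : denseSeq E j ∉ K
  hpar : |⟪nhat K (denseSeq E i), nhat K (denseSeq E j)⟫| < 1

/-- The depth below the supporting plane attached to the `i`-th dense point. -/
noncomputable def dd (K : Set E) (i : ℕ) (x : E) : ℝ :=
  ⟪nhat K (denseSeq E i), nearest K (denseSeq E i) - x⟫

/-- Both supporting planes of an admissible pair pass through `e`. -/
structure Good (K : Set E) (i j : ℕ) (e : E) : Prop where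
  hadm : Adm K i j
  hi0 : dd K i e = 0
  hj0 : dd K j e = 0

variable {K : Set E} (hB : Body K)
include hB

lemma exists_pair_of_open {O : Set E} (hO : IsOpen O) (hOK : O ⊆ Kᶜ) {a b : E} (ha : a ∈ O) (hb : b ∈ O)
    (hab : |⟪nhat K a, nhat K b⟫| < 1) :
    ∃ i j, denseSeq E i ∈ O ∧ denseSeq E j ∈ O ∧ Adm K i j := by
  have hcont : ContinuousOn (fun x : E × E => ⟪nhat K x.1, nhat K x.2⟫) (O ×ˢ O) := by
    apply ContinuousOn.inner
    · exact (continuousOn_nhat hB).comp continuousOn_fst (fun x hx => hOK hx.1)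
    · exact (continuousOn_nhat hB).comp continuousOn_snd (fun x hx => hOK hx.2)
  have h2 := hcont.abs.isOpen_inter_preimage (hO.prod hO) (isOpen_Iio (a := (1 : ℝ)))
  obtain ⟨i, j, hij⟩ := dense_pair h2 ⟨(a, b), ⟨ha, hb⟩, hab⟩
  exact ⟨i, j, hij.1.1, hij.1.2, hOK hij.1.1, hOK hij.1.2, hij.2⟩

/-- Either two dense points of `Otop` have non-parallel normals, or the normal is constant. -/
lemma flat_or_pair {v : E} (hv : v ≠ 0) :
    (∃ i j, denseSeq E i ∈ Otop K v ∧ denseSeq E j ∈ Otop K v ∧ Adm K i j) ∨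
      ∃ n : E, ∀ z ∈ Otop K v, nhat K z = n := by
  by_cases h : ∃ a ∈ Otop K v, ∃ b ∈ Otop K v, |⟪nhat K a, nhat K b⟫| < 1
  · left
    obtain ⟨a, ha, b, hb, hab⟩ := h
    exact exists_pair_of_open hB (isOpen_Otop hB v) (fun z hz => hz.1) ha hb hab
  · right
    push_neg at h
    obtain ⟨z0, hz0⟩ := Otop_nonempty hB hv
    refine ⟨nhat K z0, fun z hz => ?_⟩
    rcases abs_inner_unit_eq (nhat_norm hB hz0.1) (nhat_norm hB hz.1) (not_lt.2 (h z0 hz0 z hz)) with h1 | h1
    · exact h1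
    · exfalso
      have h2 := hz.2.2
      have h3 := hz0.2.2
      rw [h1, inner_neg_left] at h2
      linarith

end Dense

section Main

variable {K : Set E} {p q : E} (hB : Body K) (hE : finrank ℝ E = 3)
include hB

lemma good_of_sharp (hE : finrank ℝ E = 3) (hq : q ∈ K) {n0 : E} {c : ℝ} (hc : 0 < c)
    (hs : ∀ x ∈ K, ⟪n0, x - q⟫ ≤ -c * ‖x - q‖) : ∃ i j, Good K i j q := by
  have : Nontrivial E := Module.nontrivial_of_finrank_pos (R := ℝ) (by omega)
  have hexx : ∃ x ∈ K, x ≠ q := by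
    obtain ⟨x1, hx1⟩ := hB.hi
    obtain ⟨ρ, hρ, hball⟩ := Metric.isOpen_iff.1 isOpen_interior x1 hx1
    obtain ⟨w, hw⟩ := exists_ne (0 : E)
    have hwpos : 0 < ‖w‖ := norm_pos_iff.2 hw
    set x2 := x1 + (ρ / (2 * ‖w‖)) • w with hx2
    have hx2mem : x2 ∈ K := by
      apply interior_subset
      apply hball
      rw [Metric.mem_ball, dist_eq_norm, hx2, add_sub_cancel_left, norm_smul, Real.norm_eq_abs,
        abs_of_pos (by positivity)]
      field_simp
      linarith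
    have hne : x2 ≠ x1 := by
      rw [hx2]
      intro h
      have h1 : (ρ / (2 * ‖w‖)) • w = 0 := by simpa using h
      rcases smul_eq_zero.1 h1 with h2 | h2
      · have : 0 < ρ / (2 * ‖w‖) := by positivity
        linarith
      · exact hw h2
    by_cases h : x1 = q
    · exact ⟨x2, hx2mem, h ▸ hne⟩
    · exact ⟨x1, interior_subset hx1, h⟩
  obtain ⟨x0, hx0, hx0q⟩ := hexx
  have hx0pos : 0 < ‖x0 - q‖ := norm_pos_iff.2 (sub_ne_zero.2 hx0q)
  have hcn : c ≤ ‖n0‖ := by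
    have h1 := hs x0 hx0
    have h2 := abs_real_inner_le_norm n0 (x0 - q)
    have h3 := (abs_le.1 h2).1
    have h4 : c * ‖x0 - q‖ ≤ ‖n0‖ * ‖x0 - q‖ := by linarith
    exact le_of_mul_le_mul_right h4 hx0pos
  have hn0pos : 0 < ‖n0‖ := lt_of_lt_of_le hc hcn
  have hnear : ∀ z ∈ Metric.ball (q + n0) (c / 2), nearest K z = q := by
    intro z hz
    refine nearest_eq hB hq fun x hx => ?_
    have h1 := hs x hx
    have h2 : ⟪z - q, x - q⟫ = ⟪n0, x - q⟫ + ⟪z - (q + n0), x - q⟫ := by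
      rw [← inner_add_left]
      congr 1
      abel
    have h3 := real_inner_le_norm (z - (q + n0)) (x - q)
    have h4 : ‖z - (q + n0)‖ ≤ c / 2 := by
      rw [← dist_eq_norm]
      exact (Metric.mem_ball.1 hz).le
    have h5 : ‖z - (q + n0)‖ * ‖x - q‖ ≤ c / 2 * ‖x - q‖ :=
      mul_le_mul_of_nonneg_right h4 (norm_nonneg _)
    have h6 : 0 ≤ ‖x - q‖ := norm_nonneg _
    rw [h2]
    nlinarith
  have hout : Metric.ball (q + n0) (c / 2) ⊆ Kᶜ := by
    intro z hz hzK
    have h1 := hnear z hz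
    rw [nearest_of_mem hB hzK] at h1
    rw [h1, Metric.mem_ball, dist_eq_norm] at hz
    have e : q - (q + n0) = -n0 := by abel
    rw [e, norm_neg] at hz
    linarith
  obtain ⟨w, hw0, hw⟩ : ∃ w : E, w ≠ 0 ∧ ⟪n0, w⟫ = 0 := by
    set u := ‖n0‖⁻¹ • n0 with hu
    have hun : ‖u‖ = 1 := by
      rw [hu, norm_smul, norm_inv, norm_norm, inv_mul_cancel₀ hn0pos.ne']
    have hfr := finrank_perp hE hun
    have : Nontrivial (Submodule.span ℝ {u})ᗮ :=
      Module.nontrivial_of_finrank_pos (R := ℝ) (by omega)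
    obtain ⟨w, hw⟩ := exists_ne (0 : (Submodule.span ℝ {u})ᗮ)
    refine ⟨w, by simpa using hw, ?_⟩
    have h1 : ⟪‖n0‖⁻¹ • n0, (w : E)⟫ = 0 := inner_coe_perp u w
    rw [real_inner_smul_left] at h1
    have h2 : ‖n0‖⁻¹ ≠ 0 := inv_ne_zero hn0pos.ne'
    exact (mul_eq_zero.1 h1).resolve_left h2
  have hwpos : 0 < ‖w‖ := norm_pos_iff.2 hw0
  set r := c / (4 * ‖w‖) with hr
  have hrpos : 0 < r := by positivity
  have hrw : ‖r • w‖ = c / 4 := by
    rw [norm_smul, Real.norm_eq_abs, abs_of_pos hrpos, hr]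
    field_simp
  set a := q + n0 with ha
  set b := q + n0 + r • w with hb
  have haB : a ∈ Metric.ball (q + n0) (c / 2) := by
    rw [Metric.mem_ball, dist_self]
    positivity
  have hbB : b ∈ Metric.ball (q + n0) (c / 2) := by
    rw [Metric.mem_ball, dist_eq_norm, hb, add_sub_cancel_left, hrw]
    linarith
  have hpar : |⟪nhat K a, nhat K b⟫| < 1 := by
    have e1 : a - nearest K a = n0 := by rw [hnear a haB, ha]; abel
    have e2 : b - nearest K b = n0 + r • w := by rw [hnear b hbB, hb]; abel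
    unfold nhat
    rw [e1, e2, real_inner_smul_left, real_inner_smul_right, inner_add_right, inner_smul_right, hw,
      real_inner_self_eq_norm_sq]
    simp only [mul_zero, add_zero]
    have h1 : ‖n0 + r • w‖ ^ 2 = ‖n0‖ ^ 2 + ‖r • w‖ ^ 2 := by
      rw [← real_inner_self_eq_norm_sq, inner_add_left, inner_add_right, inner_add_right,
        real_inner_self_eq_norm_sq, real_inner_self_eq_norm_sq, inner_smul_right, hw,
        real_inner_comm, inner_smul_right, hw]
      ring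
    have h2 : ‖n0‖ < ‖n0 + r • w‖ := by
      have : ‖n0‖ ^ 2 < ‖n0 + r • w‖ ^ 2 := by
        rw [h1, hrw]
        have : 0 < c / 4 := by positivity
        nlinarith
      exact lt_of_pow_lt_pow_left₀ 2 (norm_nonneg _) this
    have hSpos : 0 < ‖n0 + r • w‖ := lt_trans hn0pos h2
    have e3 : ‖n0‖⁻¹ * (‖n0 + r • w‖⁻¹ * ‖n0‖ ^ 2) = ‖n0‖ / ‖n0 + r • w‖ := by
      field_simp
    rw [e3, abs_of_nonneg (by positivity), div_lt_one hSpos]
    exact h2
  obtain ⟨i, j, hi, hj, hadm⟩ := exists_pair_of_open hB Metric.isOpen_ball hout haB hbB hpar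
  refine ⟨i, j, hadm, ?_, ?_⟩
  · unfold dd
    rw [hnear _ hi]
    simp
  · unfold dd
    rw [hnear _ hj]
    simp

variable (hx : ExactPair K p q)
include hE hx

lemma top_E' {x : E} (hxK : x ∈ K) (hint : x ∈ interior (cyl K (q - p)))
    (htop : ∀ t : ℝ, 0 < t → x + t • (q - p) ∉ K) {n : E} (hn : ∀ w ∈ K, ⟪n, w⟫ ≤ ⟪n, x⟫) :
    ⟪n, q⟫ = ⟪n, x⟫ := by
  obtain ⟨u, hu, L, hL, hv⟩ := exists_dir (hx.sub_ne hB)
  exact top_E hB hE hx hu hL hv hxK hint htop hn

lemma Otop_support {z : E} (hz : z ∈ Otop K (q - p)) :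
    ⟪nhat K z, q⟫ = ⟪nhat K z, nearest K z⟫ := by
  refine top_E' hB hE hx (nearest_mem hB z) hz.2.1 ?_ (fun w hw => nhat_inner_le hB hw)
  intro t ht hmem
  have h1 := nhat_inner_le hB (z := z) hmem
  rw [inner_add_right, inner_smul_right] at h1
  have := mul_pos ht hz.2.2
  linarith

lemma good_of_pair {i j : ℕ} (hi : denseSeq E i ∈ Otop K (q - p)) (hj : denseSeq E j ∈ Otop K (q - p))
    (h : Adm K i j) : Good K i j q := by
  refine ⟨h, ?_, ?_⟩
  · unfold dd
    rw [inner_sub_right, Otop_support hB hE hx hi, sub_self]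
  · unfold dd
    rw [inner_sub_right, Otop_support hB hE hx hj, sub_self]

omit hB hE hx in
/-- The top of the body is flat. -/
structure Flat (K : Set E) (p q n : E) : Prop where
  hpos : 0 < ⟪n, q - p⟫
  hsup : ∀ w ∈ K, ⟪n, w⟫ ≤ ⟪n, q⟫
  hflat : ∀ x ∈ K, x ∈ interior (cyl K (q - p)) → (∀ t : ℝ, 0 < t → x + t • (q - p) ∉ K) →
    ⟪n, x⟫ = ⟪n, q⟫

lemma flat_facts {n : E} (hn : ∀ z ∈ Otop K (q - p), nhat K z = n) : Flat K p q n := by
  obtain ⟨z0, hz0⟩ := Otop_nonempty hB (hx.sub_ne hB)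
  have e0 := hn z0 hz0
  refine ⟨e0 ▸ hz0.2.2, ?_, ?_⟩
  · intro w hw
    have h1 := nhat_inner_le hB (z := z0) hw
    have h2 := Otop_support hB hE hx hz0
    rw [e0] at h1 h2
    linarith
  · intro x hxK hint htop
    have hev := top_mem_Otop hB hxK hint htop
    have hc : Continuous fun δ : ℝ => ⟪n, nearest K (x + δ • (q - p))⟫ :=
      continuous_const.inner ((continuous_nearest hB).comp (by fun_prop))
    have h0 : (fun δ : ℝ => ⟪n, nearest K (x + δ • (q - p))⟫) 0 = ⟪n, x⟫ := by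
      simp only [zero_smul, add_zero]
      rw [nearest_of_mem hB hxK]
    have hg : Tendsto (fun δ : ℝ => ⟪n, nearest K (x + δ • (q - p))⟫) (𝓝[>] 0) (𝓝 ⟪n, x⟫) := by
      rw [← h0]
      exact hc.continuousAt.tendsto.mono_left nhdsWithin_le_nhds
    have hg2 : ∀ᶠ δ : ℝ in 𝓝[>] 0, ⟪n, q⟫ = ⟪n, nearest K (x + δ • (q - p))⟫ := by
      filter_upwards [hev] with δ hδ
      have := Otop_support hB hE hx hδ
      rwa [hn _ hδ] at this
    exact tendsto_nhds_unique hg (tendsto_const_nhds.congr' hg2)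

/-- If the body is flat on both sides of an exact chord then it has a sharp vertex. -/
lemma sharp_of_flat {nt nb : E} (ht : Flat K p q nt) (hb : Flat K q p nb) :
    ∃ n0 : E, ∃ c : ℝ, 0 < c ∧ ∀ x ∈ K, ⟪n0, x - q⟫ ≤ -c * ‖x - q‖ := by
  obtain ⟨u, hu, L, hL, hv⟩ := exists_dir (hx.sub_ne hB)
  have hvne : q - p ≠ 0 := hx.sub_ne hB
  have hvne' : p - q ≠ 0 := hx.symm.sub_ne hB
  set βt := ⟪nt, q - p⟫ with hβt
  set βb := ⟪nb, p - q⟫ with hβb
  have hβt0 : 0 < βt := ht.hpos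
  have hβb0 : 0 < βb := hb.hpos
  set ν := βt⁻¹ • nt + βb⁻¹ • nb with hν
  have hnbv : ⟪nb, q - p⟫ = -βb := by
    rw [hβb, ← inner_neg_right, neg_sub]
  have hνv : ⟪ν, q - p⟫ = 0 := by
    rw [hν, inner_add_left, real_inner_smul_left, real_inner_smul_left, hnbv, ← hβt]
    field_simp
    ring
  set D := Metric.diam K + 1 with hDdef
  have hD0 : 0 < D := by
    have := Metric.diam_nonneg (s := K)
    linarith
  have hD : ∀ a ∈ K, ∀ b ∈ K, ‖a - b‖ ≤ D := by
    intro a ha b hb'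
    rw [← dist_eq_norm]
    have := Metric.dist_le_diam_of_mem hB.hK.isBounded ha hb'
    linarith
  set π := (Submodule.span ℝ {u})ᗮ.orthogonalProjectionOnto with hπ
  have hπv : π (q - p) = 0 := by
    rw [← hv, map_smul, hπ, prj_self, smul_zero]
  have hπv' : π (p - q) = 0 := by
    have : p - q = -(q - p) := by abel
    rw [this, map_neg, hπv, neg_zero]
  have hkeyint : ∀ x ∈ interior K, ‖π (x - q)‖ ≤ D * ⟪ν, x - q⟫ := by
    intro x hxi
    have hxK := interior_subset hxi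
    obtain ⟨t1, ht1, hxt, htop⟩ := exists_top hB hvne hxK
    obtain ⟨t2, ht2, hxb, hbot⟩ := exists_top hB hvne' hxK
    have hi1 : x + t1 • (q - p) ∈ interior (cyl K (q - p)) :=
      interior_cyl_add t1 (interior_mono (subset_cyl _) hxi)
    have hi2 : x + t2 • (p - q) ∈ interior (cyl K (p - q)) :=
      interior_cyl_add t2 (interior_mono (subset_cyl _) hxi)
    have tt := ht.hflat _ hxt hi1 htop
    have tb := hb.hflat _ hxb hi2 hbot
    set m := t1 + t2 with hm
    have hdiff : (x + t1 • (q - p)) - (x + t2 • (p - q)) = m • (q - p) := by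
      rw [hm]
      module
    obtain ⟨hm1, hbd⟩ := level_E hB hE hx hu hL hv hxb hxt hdiff (by positivity)
    have hb2 := hbd D hD
    have e1 : π (x + t2 • (p - q) - q) = π (x - q) := by
      have : x + t2 • (p - q) - q = (x - q) + t2 • (p - q) := by abel
      rw [this, map_add, map_smul, hπv', smul_zero, add_zero]
    rw [e1] at hb2
    have e2 : ⟪nt, x - q⟫ = -t1 * βt := by
      have : x - q = (x + t1 • (q - p) - q) - t1 • (q - p) := by abel
      rw [this, inner_sub_right, inner_sub_right, tt, inner_smul_right, sub_self, ← hβt]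
      ring
    have e3 : ⟪nb, x - q⟫ = βb - t2 * βb := by
      have : x - q = (x + t2 • (p - q) - p) + (p - q) - t2 • (p - q) := by abel
      rw [this, inner_sub_right, inner_add_right, inner_sub_right, tb, inner_smul_right, sub_self,
        ← hβb]
      ring
    have e4 : ⟪ν, x - q⟫ = 1 - m := by
      rw [hν, inner_add_left, real_inner_smul_left, real_inner_smul_left, e2, e3, hm]
      field_simp
      ring
    rw [e4, mul_comm]
    exact hb2
  have hkey : ∀ x ∈ K, ‖π (x - q)‖ ≤ D * ⟪ν, x - q⟫ := by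
    have hcl : IsClosed {x : E | ‖π (x - q)‖ ≤ D * ⟪ν, x - q⟫} := by
      apply isClosed_le
      · exact (π.continuous.comp (continuous_id.sub continuous_const)).norm
      · exact continuous_const.mul (continuous_const.inner (continuous_id.sub continuous_const))
    have h1 : closure (interior K) ⊆ {x : E | ‖π (x - q)‖ ≤ D * ⟪ν, x - q⟫} :=
      closure_minimal hkeyint hcl
    rw [hB.hc.closure_interior_eq_closure_of_nonempty_interior hB.hi] at h1
    exact fun x hx' => h1 (subset_closure hx')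
  set n0 := nt - ν with hn0
  have hνu : ⟪ν, u⟫ = 0 := by
    have : L * ⟪ν, u⟫ = 0 := by
      rw [← inner_smul_right, hv, hνv]
    exact (mul_eq_zero.1 this).resolve_left hL.ne'
  have hβ' : ⟪n0, u⟫ = βt / L := by
    have : L * ⟪nt, u⟫ = βt := by
      rw [← inner_smul_right, hv]
    rw [hn0, inner_sub_left, hνu, sub_zero, ← this]
    field_simp
  set β' := βt / L with hβ'def
  have hβ'pos : 0 < β' := div_pos hβt0 hL
  set C := D + (1 + ‖n0‖ * D) / β' with hC
  have hCpos : 0 < C := by positivity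
  refine ⟨n0, C⁻¹, inv_pos.2 hCpos, fun x hxK => ?_⟩
  set w := x - q with hw
  set G := -⟪n0, w⟫ with hG
  have h1 : ⟪nt, w⟫ ≤ 0 := by
    rw [hw, inner_sub_right]
    linarith [ht.hsup x hxK]
  have h2 : ⟪ν, w⟫ ≤ G := by
    rw [hG, hn0, inner_sub_left]
    linarith
  have h3 : ‖π w‖ ≤ D * G := (hkey x hxK).trans (mul_le_mul_of_nonneg_left h2 hD0.le)
  have hdec : w = (π w : E) + ⟪u, w⟫ • u := by
    have h4 := (splitEquiv u hu).symm_apply_apply w
    rw [splitEquiv_apply, splitEquiv_symm] at h4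
    exact h4.symm
  have h5 : ⟪n0, w⟫ = ⟪n0, (π w : E)⟫ + ⟪u, w⟫ * β' := by
    conv_lhs => rw [hdec]
    rw [inner_add_right, inner_smul_right, hβ']
  have h6 : |⟪n0, (π w : E)⟫| ≤ ‖n0‖ * ‖π w‖ := by
    have := abs_real_inner_le_norm n0 (π w : E)
    simpa using this
  have hG0 : 0 ≤ G := by
    have : 0 ≤ ‖π w‖ := norm_nonneg _
    have h7 : 0 ≤ D * G := le_trans this h3
    exact nonneg_of_mul_nonneg_right h7 hD0
  have h8 : |⟪u, w⟫| * β' ≤ G + ‖n0‖ * (D * G) := by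
    have h9 : ⟪u, w⟫ * β' = -G - ⟪n0, (π w : E)⟫ := by
      rw [hG]
      linarith
    have h10 : |⟪u, w⟫ * β'| = |⟪u, w⟫| * β' := by
      rw [abs_mul, abs_of_pos hβ'pos]
    rw [← h10, h9]
    have h11 : |-G - ⟪n0, (π w : E)⟫| ≤ |G| + |⟪n0, (π w : E)⟫| := by
      have : -G - ⟪n0, (π w : E)⟫ = -(G + ⟪n0, (π w : E)⟫) := by ring
      rw [this, abs_neg]
      exact abs_add_le _ _
    rw [abs_of_nonneg hG0] at h11
    have h12 : ‖n0‖ * ‖π w‖ ≤ ‖n0‖ * (D * G) := mul_le_mul_of_nonneg_left h3 (norm_nonneg _)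
    linarith
  have h13 : |⟪u, w⟫| ≤ (1 + ‖n0‖ * D) / β' * G := by
    rw [div_mul_eq_mul_div, le_div_iff₀ hβ'pos]
    calc |⟪u, w⟫| * β' ≤ G + ‖n0‖ * (D * G) := h8
      _ = (1 + ‖n0‖ * D) * G := by ring
  have h14 : ‖w‖ ≤ ‖π w‖ + |⟪u, w⟫| := by
    conv_lhs => rw [hdec]
    refine (norm_add_le _ _).trans ?_
    rw [norm_smul, hu, mul_one, Real.norm_eq_abs]
    simp
  have h15 : ‖w‖ ≤ C * G := by
    rw [hC, add_mul]
    linarith
  have h16 : ⟪n0, w⟫ = -G := by rw [hG]; ring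
  rw [h16, neg_mul, neg_le_neg_iff, inv_mul_le_iff₀ hCpos]
  exact h15

/-- Every exact chord has an end through which two non-parallel supporting planes of the dense
family pass. -/
theorem exact_good : ∃ i j, Good K i j q ∨ Good K i j p := by
  rcases flat_or_pair hB (hx.sub_ne hB) with ⟨i, j, hi, hj, h⟩ | ⟨nt, hnt⟩
  · exact ⟨i, j, Or.inl (good_of_pair hB hE hx hi hj h)⟩
  rcases flat_or_pair hB (hx.symm.sub_ne hB) with ⟨i, j, hi, hj, h⟩ | ⟨nb, hnb⟩
  · exact ⟨i, j, Or.inr (good_of_pair hB hE hx.symm hi hj h)⟩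
  obtain ⟨n0, c, hc, hs⟩ := sharp_of_flat hB hE hx (flat_facts hB hE hx hnt)
    (flat_facts hB hE hx.symm hnb)
  obtain ⟨i, j, h⟩ := good_of_sharp hB hE hx.hq hc hs
  exact ⟨i, j, Or.inl h⟩

end Main

end Vale.Agent.Lib.P243
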