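import Vale.Agent.Lib.P243.SymmCore

open MeasureTheory Set Module
open scoped ENNReal Pointwise

namespace Vale.Agent.Lib.P243

section GenRS

variable {W : Type*} [NormedAddCommGroup W] [NormedSpace ℝ W]

/-- The level set of the fibre length. -/
def level (K : Set (W × ℝ)) (c : ℝ) : Set W := {z | ENNReal.ofReal c ≤ volume (fib K z)}

lemma level_mono {K : Set (W × ℝ)} {c d : ℝ} (h : c ≤ d) : level K d ⊆ level K c := fun _ hz =>
  (ENNReal.ofReal_le_ofReal h).trans hz

/-- Level inclusion without symmetry. -/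
lemma level_incl_gen {K : Set (W × ℝ)} (hc : Convex ℝ K)
    {y w : W} {a b : ℝ} (ha : a ∈ fib K y) (hb : b ∈ fib K y) (hw : w ∈ Prod.fst '' K)
    {m : ℝ} (hm0 : 0 ≤ m) (hm1 : m ≤ 1) :
    ENNReal.ofReal (m * (b - a)) ≤ volume (fib K (AffineMap.homothety y (1 - m) w)) := by
  obtain ⟨⟨w', sw⟩, hp, rfl⟩ := hw
  simp only at *
  have ha' : (y, a) ∈ K := ha
  have hb' : (y, b) ∈ K := hb
  have key : ∀ {p : ℝ}, (y, p) ∈ K →
      (1 - m) * sw + m * p ∈ fib K (AffineMap.homothety y (1 - m) w') := by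
    intro p hp'
    have h2 := hc hp hp' (sub_nonneg.2 hm1) hm0 (by ring)
    simp only [fib, mem_setOf_eq]
    convert h2 using 1
    ext
    · simp only [AffineMap.homothety_apply, vsub_eq_sub, vadd_eq_add, Prod.fst_add, Prod.smul_fst]
      module
    · simp only [Prod.snd_add, Prod.smul_snd, smul_eq_mul]
  have := ofReal_le_vol_fib hc (key ha') (key hb')
  convert this using 2
  ring

lemma level_convex {K : Set (W × ℝ)} (hc : Convex ℝ K) (hK : IsCompact K) {c : ℝ} (hc0 : 0 < c) :
    Convex ℝ (level K c) := by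
  intro z1 h1 z2 h2 α β hα hβ hαβ
  have hpos : ∀ z, z ∈ level K c → z ∈ Prod.fst '' K := by
    intro z hz
    have hpos : 0 < volume (fib K z) :=
      lt_of_lt_of_le (ENNReal.ofReal_pos.2 hc0) hz
    obtain ⟨s, hs⟩ := nonempty_of_measure_ne_zero hpos.ne'
    exact ⟨(z, s), hs, rfl⟩
  obtain ⟨a1, b1, ha1, hb1, hs1⟩ := exists_fib_extremes hK (hpos z1 h1)
  obtain ⟨a2, b2, ha2, hb2, hs2⟩ := exists_fib_extremes hK (hpos z2 h2)
  have hl1 : c ≤ b1 - a1 := by
    have h : ENNReal.ofReal c ≤ ENNReal.ofReal (b1 - a1) := by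
      refine le_trans h1 ?_
      calc volume (fib K z1) ≤ volume (Icc a1 b1) := measure_mono hs1
        _ = _ := Real.volume_Icc
    exact (ENNReal.ofReal_le_ofReal_iff'.1 h).resolve_right (not_le.2 hc0)
  have hl2 : c ≤ b2 - a2 := by
    have h : ENNReal.ofReal c ≤ ENNReal.ofReal (b2 - a2) := by
      refine le_trans h2 ?_
      calc volume (fib K z2) ≤ volume (Icc a2 b2) := measure_mono hs2
        _ = _ := Real.volume_Icc
    exact (ENNReal.ofReal_le_ofReal_iff'.1 h).resolve_right (not_le.2 hc0)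
  have ha : α * a1 + β * a2 ∈ fib K (α • z1 + β • z2) := by
    have := hc ha1 ha2 hα hβ hαβ
    simpa [fib] using this
  have hb : α * b1 + β * b2 ∈ fib K (α • z1 + β • z2) := by
    have := hc hb1 hb2 hα hβ hαβ
    simpa [fib] using this
  refine le_trans (ENNReal.ofReal_le_ofReal ?_) (ofReal_le_vol_fib hc ha hb)
  have : c = α * c + β * c := by rw [← add_mul, hαβ, one_mul]
  rw [this]
  nlinarith

end GenRS

section GenRS2

variable {W : Type*} [NormedAddCommGroup W] [NormedSpace ℝ W] [FiniteDimensional ℝ W]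
  [MeasurableSpace W] [BorelSpace W]

/-- Area of the homothetic copies inside the level sets. -/
lemma level_area_gen (μ : Measure W) [μ.IsAddHaarMeasure] (hW : finrank ℝ W = 2)
    {K : Set (W × ℝ)} (hc : Convex ℝ K) {y : W} {a b : ℝ} (ha : a ∈ fib K y) (hb : b ∈ fib K y)
    {m : ℝ} (hm0 : 0 ≤ m) (hm1 : m ≤ 1) :
    ENNReal.ofReal ((1 - m) ^ 2) * μ (Prod.fst '' K) ≤ μ (level K (m * (b - a))) := by
  calc ENNReal.ofReal ((1 - m) ^ 2) * μ (Prod.fst '' K)
      = μ (AffineMap.homothety y (1 - m) '' (Prod.fst '' K)) := by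
        rw [Measure.addHaar_image_homothety, hW, abs_of_nonneg (by positivity)]
    _ ≤ _ := by
        apply measure_mono
        rintro _ ⟨w, hw, rfl⟩
        exact level_incl_gen hc ha hb hw hm0 hm1

lemma integral_q0 (L : ℝ) (hL : 0 < L) :
    ∫ l in (0 : ℝ)..L, (1 - l / L) ^ 2 = L / 3 := by
  have := integral_q L 0 hL
  simp only [mul_zero, add_zero] at this
  rw [this]
  ring

/-- The Rogers-Shephard bound for a chord in a general convex body. -/
lemma volume_bound_gen (μ : Measure W) [μ.IsAddHaarMeasure] (hW : finrank ℝ W = 2)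
    {K : Set (W × ℝ)} (hc : Convex ℝ K) (hK : IsCompact K)
    {y : W} {a b : ℝ} (ha : a ∈ fib K y) (hb : b ∈ fib K y) :
    ENNReal.ofReal ((b - a) / 3) * μ (Prod.fst '' K) ≤ (μ.prod volume) K := by
  rcases le_or_gt (b - a) 0 with hL | hL
  · have : (b - a) / 3 ≤ 0 := div_nonpos_of_nonpos_of_nonneg hL (by norm_num)
    simp [ENNReal.ofReal_of_nonpos this]
  set L := b - a with hLdef
  have hV : (μ.prod volume) K = ∫⁻ z, volume (fib K z) ∂μ :=
    Measure.prod_apply hK.measurableSet
  let g : W → ℝ := fun z => (volume (fib K z)).toReal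
  have hfin : ∀ z, volume (fib K z) ≠ ⊤ := fun z => (fib_compact hK z).measure_lt_top.ne
  have hgmeas : Measurable g :=
    (measurable_measure_prodMk_left hK.measurableSet).ennreal_toReal
  have hlc := lintegral_eq_lintegral_meas_le μ (f := g)
    (Filter.Eventually.of_forall fun z => ENNReal.toReal_nonneg) hgmeas.aemeasurable
  have hg : ∫⁻ z, ENNReal.ofReal (g z) ∂μ = ∫⁻ z, volume (fib K z) ∂μ := by
    simp [g, ENNReal.ofReal_toReal, hfin]
  let q : ℝ → ℝ := fun l => (1 - l / L) ^ 2
  have hqc : Continuous q := by fun_prop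
  have hint : ∫⁻ l in Ioo 0 L, ENNReal.ofReal (q l) = ENNReal.ofReal (L / 3) := by
    rw [← ofReal_integral_eq_lintegral_ofReal
      (hqc.integrableOn_Icc.mono_set Ioo_subset_Icc_self)
      (Filter.Eventually.of_forall fun l => sq_nonneg _)]
    rw [← integral_Ioc_eq_integral_Ioo, ← intervalIntegral.integral_of_le hL.le]
    simp only [q]
    rw [integral_q0 L hL]
  calc ENNReal.ofReal (L / 3) * μ (Prod.fst '' K)
      = ∫⁻ l in Ioo 0 L, ENNReal.ofReal (q l) * μ (Prod.fst '' K) := by
        rw [lintegral_mul_const _ (by fun_prop), hint]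
    _ ≤ ∫⁻ l in Ioo 0 L, μ {z | l ≤ g z} := by
        apply setLIntegral_mono' measurableSet_Ioo
        rintro l ⟨h1, h2⟩
        have h3 : 0 ≤ l / L := (div_pos h1 hL).le
        have h4 : l / L ≤ 1 := (div_le_one hL).2 h2.le
        have := level_area_gen μ hW hc ha hb h3 h4
        have e2 : {z | l ≤ g z} = level K ((l / L) * (b - a)) := by
          ext z
          simp only [mem_setOf_eq, g, level]
          rw [← hLdef, div_mul_cancel₀ _ hL.ne', ENNReal.ofReal_le_iff_le_toReal (hfin z)]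
        rw [e2]
        exact this
    _ ≤ ∫⁻ l in Ioi 0, μ {z | l ≤ g z} := lintegral_mono_set Ioo_subset_Ioi_self
    _ = (μ.prod volume) K := by rw [← hlc, hg, hV]

/-- A convex set strictly containing a closed convex body has strictly larger measure. -/
lemma area_strict (μ : Measure W) [μ.IsAddHaarMeasure] {S C : Set W} (hS : IsClosed S)
    (hSint : (interior S).Nonempty) (hCconv : Convex ℝ C) (hSC : S ⊆ C)
    {y : W} (hyC : y ∈ C) (hyS : y ∉ S) (hfin : μ S ≠ ⊤) : μ S < μ C := by
  obtain ⟨w, hw⟩ := hSint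
  obtain ⟨r, hr, hball⟩ := Metric.isOpen_iff.1 isOpen_interior w hw
  let x : ℝ → W := fun ξ => (1 - ξ) • y + ξ • w
  have hxc : Continuous x := by fun_prop
  have hx0 : x 0 = y := by simp [x]
  have hopen : IsOpen (x ⁻¹' Sᶜ) := hS.isOpen_compl.preimage hxc
  have h0 : (0 : ℝ) ∈ x ⁻¹' Sᶜ := by simpa [hx0] using hyS
  obtain ⟨δ, hδ, hδball⟩ := Metric.isOpen_iff.1 hopen 0 h0
  set ξ : ℝ := min (δ / 2) (1 / 2) with hξ
  have hξ0 : 0 < ξ := lt_min (by positivity) (by norm_num)
  have hξ1 : ξ ≤ 1 / 2 := min_le_right _ _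
  have hξδ : ξ < δ := lt_of_le_of_lt (min_le_left _ _) (by linarith)
  have hxξ : x ξ ∉ S := by
    have := hδball (show ξ ∈ Metric.ball (0 : ℝ) δ by
      simp [abs_of_pos hξ0, hξδ])
    exact this
  obtain ⟨ρ, hρ, hρball⟩ := Metric.isOpen_iff.1 hS.isOpen_compl (x ξ) hxξ
  set ρ' := min ρ (ξ * r) with hρ'
  have hρ'0 : 0 < ρ' := lt_min hρ (mul_pos hξ0 hr)
  have hB : Metric.ball (x ξ) ρ' ⊆ C \ S := by
    intro v hv
    have hv1 : dist v (x ξ) < ρ := lt_of_lt_of_le hv (min_le_left _ _)
    have hv2 : dist v (x ξ) < ξ * r := lt_of_lt_of_le hv (min_le_right _ _)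
    refine ⟨?_, hρball (Metric.mem_ball.2 hv1)⟩
    have hz : w + ξ⁻¹ • (v - x ξ) ∈ S := by
      apply interior_subset
      apply hball
      rw [Metric.mem_ball, dist_eq_norm]
      have : w + ξ⁻¹ • (v - x ξ) - w = ξ⁻¹ • (v - x ξ) := by abel
      rw [this, norm_smul, Real.norm_eq_abs, abs_of_pos (inv_pos.2 hξ0), ← dist_eq_norm]
      rw [inv_mul_lt_iff₀ hξ0]
      exact hv2
    have e : v = (1 - ξ) • y + ξ • (w + ξ⁻¹ • (v - x ξ)) := by
      simp only [smul_add, smul_smul, mul_inv_cancel₀ hξ0.ne', one_smul, x]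
      abel
    rw [e]
    exact hCconv hyC (hSC hz) (by linarith) hξ0.le (by ring)
  have hdisj : Disjoint S (Metric.ball (x ξ) ρ') := by
    rw [Set.disjoint_left]
    intro v hvS hvB
    exact (hB hvB).2 hvS
  have hpos : 0 < μ (Metric.ball (x ξ) ρ') := Metric.measure_ball_pos μ _ hρ'0
  calc μ S < μ S + μ (Metric.ball (x ξ) ρ') := ENNReal.lt_add_right hfin hpos.ne'
    _ = μ (S ∪ Metric.ball (x ξ) ρ') :=
        (measure_union hdisj Metric.isOpen_ball.measurableSet).symm
    _ ≤ μ C := measure_mono (union_subset hSC fun v hv => (hB hv).1)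

/-- Equality in the Rogers-Shephard bound: the level sets are exactly the homothetic copies. -/
lemma exact_level_subset (μ : Measure W) [μ.IsAddHaarMeasure] (hW : finrank ℝ W = 2)
    {K : Set (W × ℝ)} (hc : Convex ℝ K) (hK : IsCompact K)
    (hint : (interior (Prod.fst '' K)).Nonempty)
    {y : W} {a b : ℝ} (ha : a ∈ fib K y) (hb : b ∈ fib K y) (hL : 0 < b - a)
    (hexact : (μ.prod volume) K ≤ ENNReal.ofReal ((b - a) / 3) * μ (Prod.fst '' K))
    {m : ℝ} (hm0 : 0 < m) (hm1 : m < 1) {z : W} (hz : z ∈ level K (m * (b - a))) :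
    z ∈ AffineMap.homothety y (1 - m) '' (Prod.fst '' K) := by
  by_contra hzS
  set P := Prod.fst '' K with hP
  have hPcomp : IsCompact P := hK.image continuous_fst
  have hPfin : μ P ≠ ⊤ := hPcomp.measure_lt_top.ne
  have hPconv : Convex ℝ P := fst_image_convex hc
  set L := b - a with hLdef
  let ψ : ℝ → W := fun m' => y + (1 / (1 - m')) • (z - y)
  have hψmem : ∀ m' : ℝ, m' < 1 → (z ∈ AffineMap.homothety y (1 - m') '' P ↔ ψ m' ∈ P) := by
    intro m' hm'
    have hne : (1 - m') ≠ 0 := by linarith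
    constructor
    · rintro ⟨w, hw, rfl⟩
      have : ψ m' = w := by
        simp only [ψ, AffineMap.homothety_apply, vsub_eq_sub, vadd_eq_add]
        have : (1 - m') • (w - y) + y - y = (1 - m') • (w - y) := by abel
        rw [this, smul_smul, one_div, inv_mul_cancel₀ hne, one_smul]
        abel
      rwa [this]
    · intro h
      refine ⟨ψ m', h, ?_⟩
      simp only [ψ, AffineMap.homothety_apply, vsub_eq_sub, vadd_eq_add]
      have : y + (1 / (1 - m')) • (z - y) - y = (1 / (1 - m')) • (z - y) := by abel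
      rw [this, smul_smul, one_div, mul_inv_cancel₀ hne, one_smul]
      abel
  have hψm : ψ m ∉ P := fun h => hzS ((hψmem m hm1).2 h)
  have hψc : ContinuousAt ψ m := by
    have hne : (1 - m) ≠ 0 := by linarith
    apply ContinuousAt.add continuousAt_const
    apply ContinuousAt.smul _ continuousAt_const
    apply ContinuousAt.div continuousAt_const (by fun_prop) hne
  have hev : ∀ᶠ m' in nhds m, ψ m' ∉ P :=
    hψc.eventually (hPcomp.isClosed.isOpen_compl.mem_nhds hψm)
  obtain ⟨δ, hδ, hδball⟩ := Metric.eventually_nhds_iff.1 hev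
  set m2 := max (m - δ / 2) (m / 2) with hm2
  have hm20 : 0 < m2 := lt_of_lt_of_le (by linarith) (le_max_right _ _)
  have hm2m : m2 < m := max_lt (by linarith) (by linarith)
  have hzS' : ∀ m', m2 < m' → m' ≤ m → z ∉ AffineMap.homothety y (1 - m') '' P := by
    intro m' h1 h2 hmem
    have hm'1 : m' < 1 := by linarith
    refine hδball (y := m') ?_ ((hψmem m' hm'1).1 hmem)
    rw [Real.dist_eq, abs_lt]
    have : m - δ / 2 ≤ m2 := le_max_left _ _
    constructor <;> linarith
  have hV : (μ.prod volume) K = ∫⁻ z, volume (fib K z) ∂μ :=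
    Measure.prod_apply hK.measurableSet
  let g : W → ℝ := fun z => (volume (fib K z)).toReal
  have hfin : ∀ z, volume (fib K z) ≠ ⊤ := fun z => (fib_compact hK z).measure_lt_top.ne
  have hgmeas : Measurable g :=
    (measurable_measure_prodMk_left hK.measurableSet).ennreal_toReal
  have hlc := lintegral_eq_lintegral_meas_le μ (f := g)
    (Filter.Eventually.of_forall fun z => ENNReal.toReal_nonneg) hgmeas.aemeasurable
  have hg : ∫⁻ z, ENNReal.ofReal (g z) ∂μ = ∫⁻ z, volume (fib K z) ∂μ := by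
    simp [g, ENNReal.ofReal_toReal, hfin]
  let q : ℝ → ℝ := fun l => (1 - l / L) ^ 2
  have hqc : Continuous q := by fun_prop
  have hinteg : ∫⁻ l in Ioo 0 L, ENNReal.ofReal (q l) = ENNReal.ofReal (L / 3) := by
    rw [← ofReal_integral_eq_lintegral_ofReal
      (hqc.integrableOn_Icc.mono_set Ioo_subset_Icc_self)
      (Filter.Eventually.of_forall fun l => sq_nonneg _)]
    rw [← integral_Ioc_eq_integral_Ioo, ← intervalIntegral.integral_of_le hL.le]
    simp only [q]
    rw [integral_q0 L hL]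
  let F : ℝ → ℝ≥0∞ := fun l => ENNReal.ofReal (q l) * μ P
  let G : ℝ → ℝ≥0∞ := fun l => μ {z | l ≤ g z}
  have hGanti : Antitone G := fun l1 l2 h => measure_mono fun z hz => le_trans h hz
  have hlev : ∀ l, 0 < l → {z | l ≤ g z} = level K l := by
    intro l hl
    ext z
    simp only [mem_setOf_eq, g, level]
    rw [ENNReal.ofReal_le_iff_le_toReal (hfin z)]
  have hFG : ∀ l ∈ Ioo 0 L, F l ≤ G l := by
    rintro l ⟨h1, h2⟩
    have h3 : 0 ≤ l / L := (div_pos h1 hL).le
    have h4 : l / L ≤ 1 := (div_le_one hL).2 h2.le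
    have := level_area_gen μ hW hc ha hb h3 h4
    rw [← hLdef, div_mul_cancel₀ _ hL.ne'] at this
    simp only [G]
    rw [hlev l h1]
    exact this
  have hstrict : ∀ l ∈ Ioo (m2 * L) (m * L), F l < G l := by
    rintro l ⟨h1, h2⟩
    have hlpos : 0 < l := lt_trans (mul_pos hm20 hL) h1
    have hm'1 : m2 < l / L := (lt_div_iff₀ hL).2 h1
    have hm'2 : l / L < m := (div_lt_iff₀ hL).2 h2
    have hm'0 : 0 < l / L := div_pos hlpos hL
    have hm'lt : l / L < 1 := by linarith
    have hne : (1 - l / L) ≠ 0 := by linarith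
    simp only [G]
    rw [hlev l hlpos]
    have hl' : l = (l / L) * (b - a) := by rw [← hLdef, div_mul_cancel₀ _ hL.ne']
    have hzlev : z ∈ level K l := level_mono (le_of_lt (by simpa [hLdef] using h2)) hz
    have hS : IsClosed (AffineMap.homothety y (1 - l / L) '' P) :=
      (hPcomp.image (AffineMap.homothety_continuous y (1 - l / L))).isClosed
    have hSint : (interior (AffineMap.homothety y (1 - l / L) '' P)).Nonempty := by
      obtain ⟨w, hw⟩ := hint
      refine ⟨AffineMap.homothety y (1 - l / L) w,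
        (AffineMap.homothety_isOpenMap y (1 - l / L) hne).image_interior_subset _
          ⟨w, hw, rfl⟩⟩
    have hsub : AffineMap.homothety y (1 - l / L) '' P ⊆ level K l := by
      rintro _ ⟨w, hw, rfl⟩
      have := level_incl_gen hc ha hb hw hm'0.le hm'lt.le
      rw [← hl'] at this
      exact this
    have hfinS : μ (AffineMap.homothety y (1 - l / L) '' P) ≠ ⊤ :=
      (hPcomp.image (AffineMap.homothety_continuous y (1 - l / L))).measure_lt_top.ne
    have hlt := area_strict μ hS hSint (level_convex hc hK hlpos) hsub hzlev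
      (hzS' (l / L) hm'1 hm'2.le) hfinS
    rw [Measure.addHaar_image_homothety, hW, abs_of_nonneg (by positivity)] at hlt
    exact hlt
  have hFint : ∫⁻ l in Ioo 0 L, F l = ENNReal.ofReal (L / 3) * μ P := by
    simp only [F]
    rw [lintegral_mul_const _ (by fun_prop), hinteg]
  have hsubs : Ioo (m2 * L) (m * L) ⊆ Ioo 0 L := by
    rintro l ⟨h1, h2⟩
    exact ⟨lt_trans (mul_pos hm20 hL) h1, lt_trans h2 (by nlinarith)⟩
  have hlt : ∫⁻ l in Ioo 0 L, F l < ∫⁻ l in Ioo 0 L, G l := by
    apply lintegral_strict_mono_of_ae_le_of_ae_lt_on (s := Ioo (m2 * L) (m * L))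
      hGanti.measurable.aemeasurable
    · rw [hFint]
      exact ENNReal.mul_ne_top ENNReal.ofReal_ne_top hPfin
    · exact (ae_restrict_iff' measurableSet_Ioo).2 (Filter.Eventually.of_forall hFG)
    · rw [Measure.restrict_apply measurableSet_Ioo, inter_eq_left.2 hsubs, Real.volume_Ioo]
      have : m2 * L < m * L := by nlinarith
      simp [this]
    · exact (ae_restrict_iff' measurableSet_Ioo).2
        (Filter.Eventually.of_forall fun l _ hl => hstrict l hl)
  have hle : ∫⁻ l in Ioo 0 L, G l ≤ (μ.prod volume) K := by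
    calc ∫⁻ l in Ioo 0 L, G l ≤ ∫⁻ l in Ioi 0, G l := lintegral_mono_set Ioo_subset_Ioi_self
      _ = (μ.prod volume) K := by rw [← hlc, hg, hV]
  rw [hFint] at hlt
  exact absurd (lt_of_lt_of_le hlt (hle.trans hexact)) (lt_irrefl _)

end GenRS2

end Vale.Agent.Lib.P243
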