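import Vale.Agent.Lib.P243.Defs

open MeasureTheory Submodule Module

namespace Vale.Agent.Lib.P243

/-- For every convex body `K` in a Euclidean three-space `E` and every finite covering of `K` by
cylinders with unit axes, the sum of the base areas is at least `(1 + 10⁻⁹) / 3` times the smallest
shadow area of `K`. -/
def AbsBound : Prop :=
  ∀ {E : Type} [NormedAddCommGroup E] [InnerProductSpace ℝ E] [FiniteDimensional ℝ E]
    [MeasurableSpace E] [BorelSpace E], finrank ℝ E = 3 →
  ∀ K : Set E, Convex ℝ K → IsCompact K → (interior K).Nonempty →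
  ∀ {ι : Type} [Fintype ι] (u : ι → E), (∀ i, ‖u i‖ = 1) →
  ∀ B : (i : ι) → Set (ℝ ∙ u i)ᗮ, CylinderCover K u B →
    ENNReal.ofReal ((1 + 1 / 10 ^ 9) / 3) *
        (⨅ v : {v : E // ‖v‖ = 1}, volume ((ℝ ∙ (v : E))ᗮ.orthogonalProjectionOnto '' K))
      ≤ ∑ i, volume (B i)

/-- The four sharp or special bounds for every convex body `K` in a Euclidean three-space `E` and
every finite covering of `K` by cylinders with unit axes: axes parallel to one plane with unit normal
`w` (half of the infimum of the shadow areas along that plane, hence half of the smallest shadow);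
at most two cylinders (relative area at least `1 / 2`); the inequality
`1 ≤ ∑ i, (3 x i - 2 x i √(x i))` for the truncated relative areas `x i`; and the bound `m t` on the
relative area for `m` cylinders when `0 ≤ t < 1` and `m (3 t - 2 t √t) ≤ 1`. -/
def HalfBounds : Prop :=
  ∀ {E : Type} [NormedAddCommGroup E] [InnerProductSpace ℝ E] [FiniteDimensional ℝ E]
    [MeasurableSpace E] [BorelSpace E], finrank ℝ E = 3 →
  ∀ K : Set E, Convex ℝ K → IsCompact K → (interior K).Nonempty →
  ∀ {ι : Type} [Fintype ι] (u : ι → E), (∀ i, ‖u i‖ = 1) →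
  ∀ B : (i : ι) → Set (ℝ ∙ u i)ᗮ, CylinderCover K u B →
    (∀ w : E, ‖w‖ = 1 → (∀ i, inner ℝ (u i) w = 0) →
      ENNReal.ofReal (1 / 2) *
          (⨅ v : {v : E // ‖v‖ = 1 ∧ inner ℝ v w = 0},
            volume ((ℝ ∙ (v : E))ᗮ.orthogonalProjectionOnto '' K))
        ≤ ∑ i, volume (B i) ∧
      ENNReal.ofReal (1 / 2) *
          (⨅ v : {v : E // ‖v‖ = 1}, volume ((ℝ ∙ (v : E))ᗮ.orthogonalProjectionOnto '' K))
        ≤ ∑ i, volume (B i)) ∧
    (Fintype.card ι ≤ 2 → ENNReal.ofReal (1 / 2) ≤ relArea K u B) ∧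
    (∀ x : ι → ℝ,
      (∀ i, x i =
        (min (volume (B i) / volume ((ℝ ∙ u i)ᗮ.orthogonalProjectionOnto '' K)) 1).toReal) →
      1 ≤ ∑ i, (3 * x i - 2 * x i * Real.sqrt (x i))) ∧
    (∀ t : ℝ, 0 ≤ t → t < 1 → (Fintype.card ι : ℝ) * (3 * t - 2 * t * Real.sqrt t) ≤ 1 →
      ENNReal.ofReal ((Fintype.card ι : ℝ) * t) ≤ relArea K u B)

/-- There is an absolute constant `c > 1 / 3` such that for every convex body `K` in a Euclidean
three-space `E` and every finite covering of `K` by cylinders with unit axes the relative area is at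
least `c`. -/
def UniformBound : Prop :=
  ∃ c : ℝ, 1 / 3 < c ∧
    ∀ {E : Type} [NormedAddCommGroup E] [InnerProductSpace ℝ E] [FiniteDimensional ℝ E]
      [MeasurableSpace E] [BorelSpace E], finrank ℝ E = 3 →
    ∀ K : Set E, Convex ℝ K → IsCompact K → (interior K).Nonempty →
    ∀ {ι : Type} [Fintype ι] (u : ι → E), (∀ i, ‖u i‖ = 1) →
    ∀ B : (i : ι) → Set (ℝ ∙ u i)ᗮ, CylinderCover K u B →
      ENNReal.ofReal c ≤ relArea K u B

/-- For every centrally symmetric convex body `K` in a Euclidean three-space `E` and every finite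
covering of `K` by cylinders with unit axes the relative area is at least `5 / 12`. -/
def SymmBound : Prop :=
  ∀ {E : Type} [NormedAddCommGroup E] [InnerProductSpace ℝ E] [FiniteDimensional ℝ E]
    [MeasurableSpace E] [BorelSpace E], finrank ℝ E = 3 →
  ∀ K : Set E, Convex ℝ K → IsCompact K → (interior K).Nonempty → (∀ x ∈ K, -x ∈ K) →
  ∀ {ι : Type} [Fintype ι] (u : ι → E), (∀ i, ‖u i‖ = 1) →
  ∀ B : (i : ι) → Set (ℝ ∙ u i)ᗮ, CylinderCover K u B →
    (5 / 12 : ENNReal) ≤ relArea K u B

end Vale.Agent.Lib.P243
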