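import Vale.Agent.Lib.P243.Sweep

open MeasureTheory Set Module
open scoped ENNReal Pointwise RealInnerProductSpace

namespace Vale.Agent.Lib.P243

variable {E : Type*} [NormedAddCommGroup E] [InnerProductSpace ℝ E]

/-- A convex body. -/
structure Body (K : Set E) : Prop where
  hc : Convex ℝ K
  hK : IsCompact K
  hi : (interior K).Nonempty

lemma Body.hne {K : Set E} (h : Body K) : K.Nonempty := h.hi.mono interior_subset

/-- The nearest point of `K` to `z`, described by the variational inequality. -/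
noncomputable def nearest (K : Set E) (z : E) : E :=
  Classical.epsilon fun x => x ∈ K ∧ ∀ w ∈ K, ⟪z - x, w - x⟫ ≤ 0

/-- The unit outer normal at the nearest point. -/
noncomputable def nhat (K : Set E) (z : E) : E := ‖z - nearest K z‖⁻¹ • (z - nearest K z)

variable {K : Set E}

lemma nearest_spec (h : Body K) (z : E) :
    nearest K z ∈ K ∧ ∀ w ∈ K, ⟪z - nearest K z, w - nearest K z⟫ ≤ 0 := by
  have hex : ∃ x, x ∈ K ∧ ∀ w ∈ K, ⟪z - x, w - x⟫ ≤ 0 := by
    obtain ⟨x, hx, hd⟩ := exists_norm_eq_iInf_of_complete_convex h.hne h.hK.isComplete h.hc z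
    exact ⟨x, hx, (norm_eq_iInf_iff_real_inner_le_zero h.hc hx).1 hd⟩
  exact Classical.epsilon_spec hex

lemma nearest_mem (h : Body K) (z : E) : nearest K z ∈ K := (nearest_spec h z).1

lemma nearest_inner (h : Body K) (z : E) {w : E} (hw : w ∈ K) :
    ⟪z - nearest K z, w - nearest K z⟫ ≤ 0 := (nearest_spec h z).2 w hw

lemma nearest_eq (h : Body K) {z x : E} (hx : x ∈ K) (hv : ∀ w ∈ K, ⟪z - x, w - x⟫ ≤ 0) :
    nearest K z = x := by
  have h1 := nearest_inner h z hx
  have h2 := hv _ (nearest_mem h z)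
  set y := nearest K z
  have h3 : ⟪y - x, y - x⟫ ≤ 0 := by
    have e : ⟪y - x, y - x⟫ = ⟪z - y, x - y⟫ + ⟪z - x, y - x⟫ := by
      simp only [inner_sub_left, inner_sub_right, real_inner_comm]
      ring
    rw [e]
    linarith
  have h4 : y - x = 0 := by
    rw [real_inner_self_eq_norm_sq] at h3
    have : ‖y - x‖ = 0 := by nlinarith [norm_nonneg (y - x)]
    exact norm_eq_zero.1 this
  exact sub_eq_zero.1 h4

lemma nearest_of_mem (h : Body K) {x : E} (hx : x ∈ K) : nearest K x = x :=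
  nearest_eq h hx (fun w _ => by simp)

lemma nearest_lip (h : Body K) (z z' : E) : ‖nearest K z - nearest K z'‖ ≤ ‖z - z'‖ := by
  set x := nearest K z
  set x' := nearest K z'
  have h1 : ⟪z - x, x' - x⟫ ≤ 0 := nearest_inner h z (nearest_mem h z')
  have h2 : ⟪z' - x', x - x'⟫ ≤ 0 := nearest_inner h z' (nearest_mem h z)
  have h3 : ‖x - x'‖ ^ 2 ≤ ⟪z - z', x - x'⟫ := by
    rw [← real_inner_self_eq_norm_sq]
    have e : ⟪z - z', x - x'⟫ = ⟪x - x', x - x'⟫ - ⟪z - x, x' - x⟫ - ⟪z' - x', x - x'⟫ := by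
      simp only [inner_sub_left, inner_sub_right, real_inner_comm]
      ring
    rw [e]
    linarith
  have h4 : ⟪z - z', x - x'⟫ ≤ ‖z - z'‖ * ‖x - x'‖ := real_inner_le_norm _ _
  by_cases h5 : ‖x - x'‖ = 0
  · rw [h5]
    exact norm_nonneg _
  · have h6 : 0 < ‖x - x'‖ := lt_of_le_of_ne (norm_nonneg _) (Ne.symm h5)
    have h7 : ‖x - x'‖ * ‖x - x'‖ ≤ ‖z - z'‖ * ‖x - x'‖ := by nlinarith
    exact le_of_mul_le_mul_right h7 h6

lemma continuous_nearest (h : Body K) : Continuous (nearest K) := by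
  refine LipschitzWith.continuous (K := 1) ?_
  refine LipschitzWith.of_dist_le_mul fun z z' => ?_
  simp only [dist_eq_norm, NNReal.coe_one, one_mul]
  exact nearest_lip h z z'

lemma sub_nearest_ne (h : Body K) {z : E} (hz : z ∉ K) : z - nearest K z ≠ 0 := by
  intro h0
  apply hz
  have : z = nearest K z := sub_eq_zero.1 h0
  rw [this]
  exact nearest_mem h z

lemma nhat_norm (h : Body K) {z : E} (hz : z ∉ K) : ‖nhat K z‖ = 1 := by
  have h0 := norm_pos_iff.2 (sub_nearest_ne h hz)
  rw [nhat, norm_smul, norm_inv, norm_norm, inv_mul_cancel₀ h0.ne']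

lemma sub_nearest_eq (z : E) (h : Body K) (hz : z ∉ K) :
    z - nearest K z = ‖z - nearest K z‖ • nhat K z := by
  have h0 := norm_pos_iff.2 (sub_nearest_ne h hz)
  rw [nhat, smul_smul, mul_inv_cancel₀ h0.ne', one_smul]

lemma nhat_inner_le (h : Body K) {z w : E} (hw : w ∈ K) :
    ⟪nhat K z, w⟫ ≤ ⟪nhat K z, nearest K z⟫ := by
  have h1 := nearest_inner h z hw
  rw [nhat, real_inner_smul_left, real_inner_smul_left]
  have h2 : 0 ≤ ‖z - nearest K z‖⁻¹ := by positivity
  rw [inner_sub_right] at h1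
  exact mul_le_mul_of_nonneg_left (by linarith) h2

lemma nhat_gap (h : Body K) {z : E} (hz : z ∉ K) :
    ⟪nhat K z, z - nearest K z⟫ = ‖z - nearest K z‖ := by
  have h0 := norm_pos_iff.2 (sub_nearest_ne h hz)
  rw [nhat, real_inner_smul_left, real_inner_self_eq_norm_sq]
  field_simp

lemma continuousOn_nhat (h : Body K) : ContinuousOn (nhat K) Kᶜ := by
  have hc : Continuous fun z => z - nearest K z := continuous_id.sub (continuous_nearest h)
  unfold nhat
  apply ContinuousOn.smul
  · apply ContinuousOn.inv₀ hc.norm.continuousOn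
    intro z hz
    exact norm_ne_zero_iff.2 (sub_nearest_ne h hz)
  · exact hc.continuousOn

lemma isOpen_compl (h : Body K) : IsOpen Kᶜ := h.hK.isClosed.isOpen_compl

lemma nearest_outer_eq (h : Body K) {x n : E} (hx : x ∈ K) (hn : ∀ w ∈ K, ⟪n, w - x⟫ ≤ 0) :
    nearest K (x + n) = x :=
  nearest_eq h hx (fun w hw => by simpa using hn w hw)

end Vale.Agent.Lib.P243
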