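import Vale.Agent.Lib.P243.Transfer

open MeasureTheory Set Module Filter Topology TopologicalSpace
open scoped ENNReal Pointwise RealInnerProductSpace

namespace Vale.Agent.Lib.P243

/-- The model Euclidean three-space. -/
abbrev E0 := EuclideanSpace ℝ (Fin 3)

/-- The determinant in coordinates. -/
def det3 (a b c : E0) : ℝ :=
  a 0 * (b 1 * c 2 - b 2 * c 1) - a 1 * (b 0 * c 2 - b 2 * c 0) + a 2 * (b 0 * c 1 - b 1 * c 0)

lemma continuous_det3_sub :
    Continuous fun w : E0 × E0 × E0 × E0 => |det3 (w.2.1 - w.1) (w.2.2.1 - w.1) (w.2.2.2 - w.1)| := by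
  unfold det3
  have hc : ∀ i : Fin 3, Continuous fun x : E0 => x i := fun i => by fun_prop
  have h1 : ∀ i : Fin 3, Continuous fun w : E0 × E0 × E0 × E0 => (w.2.1 - w.1) i := fun i =>
    (hc i).comp (by fun_prop)
  have h2 : ∀ i : Fin 3, Continuous fun w : E0 × E0 × E0 × E0 => (w.2.2.1 - w.1) i := fun i =>
    (hc i).comp (by fun_prop)
  have h3 : ∀ i : Fin 3, Continuous fun w : E0 × E0 × E0 × E0 => (w.2.2.2 - w.1) i := fun i =>
    (hc i).comp (by fun_prop)
  apply Continuous.abs
  apply Continuous.add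
  · apply Continuous.sub
    · exact (h1 0).mul (((h2 1).mul (h3 2)).sub ((h2 2).mul (h3 1)))
    · exact (h1 1).mul (((h2 0).mul (h3 2)).sub ((h2 2).mul (h3 0)))
  · exact (h1 2).mul (((h2 0).mul (h3 1)).sub ((h2 1).mul (h3 0)))

lemma det3_expand1 (a b c : E0) (y0 y1 y2 : ℝ) :
    det3 (y0 • a + y1 • b + y2 • c) b c = y0 * det3 a b c := by
  simp only [det3, PiLp.add_apply, PiLp.smul_apply, smul_eq_mul]
  ring

lemma det3_expand2 (a b c : E0) (y0 y1 y2 : ℝ) :
    det3 a (y0 • a + y1 • b + y2 • c) c = y1 * det3 a b c := by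
  simp only [det3, PiLp.add_apply, PiLp.smul_apply, smul_eq_mul]
  ring

lemma det3_expand3 (a b c : E0) (y0 y1 y2 : ℝ) :
    det3 a b (y0 • a + y1 • b + y2 • c) = y2 * det3 a b c := by
  simp only [det3, PiLp.add_apply, PiLp.smul_apply, smul_eq_mul]
  ring

/-- The linear map sending the standard basis to `a, b, c`. -/
noncomputable def frameMap (a b c : E0) : E0 →ₗ[ℝ] E0 where
  toFun y := y 0 • a + y 1 • b + y 2 • c
  map_add' x y := by
    simp only [PiLp.add_apply, add_smul]
    abel
  map_smul' r x := by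
    simp only [PiLp.smul_apply, smul_eq_mul, mul_smul, RingHom.id_apply, smul_add]

lemma frameMap_apply (a b c y : E0) : frameMap a b c y = y 0 • a + y 1 • b + y 2 • c := rfl

lemma frameMap_inj {a b c : E0} (h : det3 a b c ≠ 0) : Function.Injective (frameMap a b c) := by
  rw [injective_iff_map_eq_zero]
  intro y hy
  rw [frameMap_apply] at hy
  have h0 := det3_expand1 a b c (y 0) (y 1) (y 2)
  have h1 := det3_expand2 a b c (y 0) (y 1) (y 2)
  have h2 := det3_expand3 a b c (y 0) (y 1) (y 2)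
  rw [hy] at h0 h1 h2
  have hz1 : det3 0 b c = 0 := by simp [det3]
  have hz2 : det3 a 0 c = 0 := by simp [det3]
  have hz3 : det3 a b 0 = 0 := by simp [det3]
  rw [hz1] at h0
  rw [hz2] at h1
  rw [hz3] at h2
  have e0 : y 0 = 0 := (mul_eq_zero.1 h0.symm).resolve_right h
  have e1 : y 1 = 0 := (mul_eq_zero.1 h1.symm).resolve_right h
  have e2 : y 2 = 0 := (mul_eq_zero.1 h2.symm).resolve_right h
  ext i
  fin_cases i
  · exact e0
  · exact e1
  · exact e2

/-- The centroid of the standard simplex. -/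
noncomputable def gg : E0 := WithLp.toLp 2 (fun _ => 1 / 4)

lemma gg_apply (i : Fin 3) : gg i = 1 / 4 := rfl

variable {E : Type*} [NormedAddCommGroup E] [InnerProductSpace ℝ E] [FiniteDimensional ℝ E]
  [MeasurableSpace E] [BorelSpace E]

/-- Every convex body has an affine image between two fixed balls. -/
theorem exists_normalize (hE : finrank ℝ E = 3) {K : Set E} (hB : Body K) :
    ∃ (G : E ≃L[ℝ] E0) (b : E0), Metric.closedBall 0 (1 / 12) ⊆ (fun x => G x + b) '' K ∧
      (fun x => G x + b) '' K ⊆ Metric.closedBall 0 3 := by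
  have hfr : finrank ℝ E = finrank ℝ E0 := by
    rw [hE]
    simp
  let ι : E ≃L[ℝ] E0 := ContinuousLinearEquiv.ofFinrankEq hfr
  set K0 := ι '' K with hK0
  have hK0c : IsCompact K0 := hB.hK.image ι.continuous
  have hK0v : Convex ℝ K0 := hB.hc.linear_image (ι.toLinearEquiv.toLinearMap : E →ₗ[ℝ] E0)
  obtain ⟨w0, hw0⟩ := hB.hi
  have hx0 : ι w0 ∈ interior K0 := by
    have hopen : IsOpenMap ι := ι.toHomeomorph.isOpenMap
    exact hopen.image_interior_subset K ⟨w0, hw0, rfl⟩
  obtain ⟨ρ, hρ, hball⟩ := Metric.isOpen_iff.1 isOpen_interior _ hx0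
  set x0 := ι w0 with hx0def
  have hne : (K0 ×ˢ K0 ×ˢ K0 ×ˢ K0).Nonempty :=
    ⟨(x0, x0, x0, x0), interior_subset hx0, interior_subset hx0, interior_subset hx0,
      interior_subset hx0⟩
  obtain ⟨⟨v0, v1, v2, v3⟩, ⟨hv0, hv1, hv2, hv3⟩, hmax⟩ :=
    (hK0c.prod (hK0c.prod (hK0c.prod hK0c))).exists_isMaxOn hne continuous_det3_sub.continuousOn
  set a := v1 - v0 with ha
  set b := v2 - v0 with hb
  set c := v3 - v0 with hc
  set Δ := det3 a b c with hΔ
  have hbd : ∀ w0 ∈ K0, ∀ w1 ∈ K0, ∀ w2 ∈ K0, ∀ w3 ∈ K0,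
      |det3 (w1 - w0) (w2 - w0) (w3 - w0)| ≤ |Δ| := by
    intro w0 h0 w1 h1 w2 h2 w3 h3
    exact hmax (show (w0, w1, w2, w3) ∈ _ from ⟨h0, h1, h2, h3⟩)
  have hΔ0 : Δ ≠ 0 := by
    set τ := ρ / 2 with hτ
    have hτ0 : 0 < τ := by positivity
    have hpt : ∀ i : Fin 3, x0 + τ • EuclideanSpace.single i (1 : ℝ) ∈ K0 := by
      intro i
      apply interior_subset
      apply hball
      rw [Metric.mem_ball, dist_eq_norm, add_sub_cancel_left, norm_smul, Real.norm_eq_abs,
        abs_of_pos hτ0, EuclideanSpace.norm_single]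
      simp only [norm_one, mul_one]
      rw [hτ]
      linarith
    have h1 := hbd x0 (interior_subset hx0) _ (hpt 0) _ (hpt 1) _ (hpt 2)
    have h2 : det3 (x0 + τ • EuclideanSpace.single 0 (1 : ℝ) - x0)
        (x0 + τ • EuclideanSpace.single 1 (1 : ℝ) - x0)
        (x0 + τ • EuclideanSpace.single 2 (1 : ℝ) - x0) = τ ^ 3 := by
      simp only [add_sub_cancel_left, det3, PiLp.smul_apply, smul_eq_mul,
        EuclideanSpace.single_apply]
      simp
      ring
    rw [h2, abs_of_pos (by positivity)] at h1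
    intro h0
    rw [h0, abs_zero] at h1
    have : 0 < τ ^ 3 := by positivity
    linarith
  let H : E0 ≃L[ℝ] E0 :=
    ((frameMap a b c).linearEquivOfInjective (frameMap_inj hΔ0) rfl).toContinuousLinearEquiv
  have hH : ∀ y, H y = y 0 • a + y 1 • b + y 2 • c := fun y => rfl
  let G : E ≃L[ℝ] E0 := ι.trans H.symm
  have hG : ∀ x, G x = H.symm (ι x) := fun x => rfl
  refine ⟨G, -H.symm v0 - gg, ?_, ?_⟩
  · -- the inner ball
    intro p hp
    rw [mem_closedBall_zero_iff] at hp
    have hcoord : ∀ i : Fin 3, |p i| ≤ 1 / 12 := fun i =>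
      (PiLp.norm_apply_le p i).trans hp
    set y := p + gg with hy
    have hyi : ∀ i : Fin 3, y i = p i + 1 / 4 := fun i => rfl
    have hsum : 0 ≤ 1 - (y 0 + y 1 + y 2) := by
      have h0 := abs_le.1 (hcoord 0)
      have h1 := abs_le.1 (hcoord 1)
      have h2 := abs_le.1 (hcoord 2)
      rw [hyi, hyi, hyi]
      linarith [h0.2, h1.2, h2.2]
    have hpos : ∀ i : Fin 3, 0 ≤ y i := fun i => by
      have := abs_le.1 (hcoord i)
      rw [hyi]
      linarith [this.1]
    have hmem : H y + v0 ∈ K0 := by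
      have hcomb := hK0v.sum_mem (t := Finset.univ) (w := ![1 - (y 0 + y 1 + y 2), y 0, y 1, y 2])
        (z := ![v0, v1, v2, v3]) (by
          intro i _
          fin_cases i
          · exact hsum
          · exact hpos 0
          · exact hpos 1
          · exact hpos 2)
        (by
          simp only [Fin.sum_univ_four]
          simp
          ring) (by
          intro i _
          fin_cases i
          · exact hv0
          · exact hv1
          · exact hv2
          · exact hv3)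
      simp only [Fin.sum_univ_four] at hcomb
      convert hcomb using 1
      rw [hH, ha, hb, hc]
      simp
      module
    obtain ⟨x, hx, hxe⟩ := hmem
    refine ⟨x, hx, ?_⟩
    show G x + (-H.symm v0 - gg) = p
    rw [hG, hxe, map_add, ContinuousLinearEquiv.symm_apply_apply, hy]
    abel
  · -- the outer ball
    rintro _ ⟨x, hx, rfl⟩
    have hxK0 : ι x ∈ K0 := mem_image_of_mem _ hx
    set y := H.symm (ι x - v0) with hy
    have hHy : y 0 • a + y 1 • b + y 2 • c = ι x - v0 := by
      rw [← hH, hy, ContinuousLinearEquiv.apply_symm_apply]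
    have hΔpos : 0 < |Δ| := abs_pos.2 hΔ0
    have hy0 : |y 0| ≤ 1 := by
      have h1 := hbd v0 hv0 _ hxK0 _ hv2 _ hv3
      rw [← hHy, det3_expand1, abs_mul] at h1
      exact le_of_mul_le_mul_right (by simpa using h1) hΔpos
    have hy1 : |y 1| ≤ 1 := by
      have h1 := hbd v0 hv0 _ hv1 _ hxK0 _ hv3
      rw [← hHy, det3_expand2, abs_mul] at h1
      exact le_of_mul_le_mul_right (by simpa using h1) hΔpos
    have hy2 : |y 2| ≤ 1 := by
      have h1 := hbd v0 hv0 _ hv1 _ hv2 _ hxK0
      rw [← hHy, det3_expand3, abs_mul] at h1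
      exact le_of_mul_le_mul_right (by simpa using h1) hΔpos
    have e : G x + (-H.symm v0 - gg) = y - gg := by
      rw [hG, hy, map_sub]
      abel
    show G x + (-H.symm v0 - gg) ∈ _
    rw [e, mem_closedBall_zero_iff, EuclideanSpace.norm_eq, Real.sqrt_le_iff]
    refine ⟨by norm_num, ?_⟩
    rw [Fin.sum_univ_three]
    simp only [PiLp.sub_apply, gg_apply, Real.norm_eq_abs, sq_abs]
    have h0 := abs_le.1 hy0
    have h1 := abs_le.1 hy1
    have h2 := abs_le.1 hy2
    nlinarith [h0.1, h0.2, h1.1, h1.2, h2.1, h2.2]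

end Vale.Agent.Lib.P243
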