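import Vale.Agent.Lib.P243.Density

open MeasureTheory Set Module Filter Topology TopologicalSpace
open scoped ENNReal Pointwise RealInnerProductSpace

namespace Vale.Agent.Lib.P243

variable {E : Type*} [NormedAddCommGroup E] [InnerProductSpace ℝ E] [FiniteDimensional ℝ E]
  [MeasurableSpace E] [BorelSpace E]

lemma cap_of_near {K : Set E} (hB : Body K) {i j : ℕ} (h : Adm K i j) {e x : E} {S : ℝ}
    (hx : x ∈ K) (hi : dd K i e < S / 4) (hj : dd K j e < S / 4) (hd : ‖x - e‖ ≤ S / 2) :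
    x ∈ capSet K i j S := by
  have key : ∀ l : ℕ, denseSeq E l ∉ K → dd K l e < S / 4 → dd K l x ≤ S := by
    intro l hl hl2
    have e1 : dd K l x = dd K l e + ⟪nhat K (denseSeq E l), e - x⟫ := by
      unfold dd
      rw [← inner_add_right]
      congr 1
      abel
    have h1 := real_inner_le_norm (nhat K (denseSeq E l)) (e - x)
    rw [nhat_norm hB hl, one_mul, norm_sub_rev] at h1
    rw [e1]
    have h2 := norm_nonneg (x - e)
    linarith
  exact ⟨hx, key i h.hi hi, key j h.hj hj⟩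

lemma near_gain {K : Set E} (hB : Body K) {s : ℕ → ℕ → ℝ} {F : Finset (ℕ × ℕ)} {ε : ℝ}
    (hs : ∀ i j, 0 < s i j) (hε : 0 ≤ ε) {k : ℕ × ℕ} (hk : k ∈ F) (hadm : Adm K k.1 k.2)
    (z u : E) (hu : ‖u‖ = 1) {a b : ℝ} (h : ∀ t : ℝ, z + t • u ∈ K ↔ t ∈ Icc a b) (hab : a ≤ b)
    (hsS : s k.1 k.2 ≤ b - a) (hεS : ε * (s k.1 k.2)⁻¹ ≤ 1)
    (hnear : (dd K k.1 (z + b • u) < s k.1 k.2 / 4 ∧ dd K k.2 (z + b • u) < s k.1 k.2 / 4) ∨
      (dd K k.1 (z + a • u) < s k.1 k.2 / 4 ∧ dd K k.2 (z + a • u) < s k.1 k.2 / 4)) :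
    ∫⁻ t : ℝ, dens K s F ε (z + t • u) ≤ ENNReal.ofReal ((b - a) - ε / 2) := by
  set S := s k.1 k.2 with hS
  have hSpos : 0 < S := hs _ _
  have hind := dens_le_ind (K := K) (F := F) hs hε z u h
  have hc : 0 ≤ 1 - ε * S⁻¹ := by linarith
  have hval : ∀ x y : ℝ, y - x = S / 2 → (b - a) - (y - x) + (1 - ε * S⁻¹) * (y - x) = (b - a) - ε / 2 := by
    intro x y hxy
    rw [hxy]
    field_simp
    ring
  rcases hnear with ⟨h1, h2⟩ | ⟨h1, h2⟩
  · have hJ : Icc (b - S / 2) b ⊆ Icc a b := Icc_subset_Icc (by linarith) le_rfl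
    have := chord_gain (h := fun t => dens K s F ε (z + t • u)) (a' := b - S / 2) (b' := b)
      hind hJ (by linarith) (fun t ht => by
        apply dens_on_cap hs hε hk
        apply cap_of_near hB hadm ((h t).2 (hJ ht)) h1 h2
        have e : z + t • u - (z + b • u) = (t - b) • u := by module
        rw [e, norm_smul, hu, mul_one, Real.norm_eq_abs, abs_le]
        constructor <;> linarith [ht.1, ht.2]) hc
    rwa [hval _ _ (by ring)] at this
  · have hJ : Icc a (a + S / 2) ⊆ Icc a b := Icc_subset_Icc le_rfl (by linarith)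
    have := chord_gain (h := fun t => dens K s F ε (z + t • u)) (a' := a) (b' := a + S / 2)
      hind hJ (by linarith) (fun t ht => by
        apply dens_on_cap hs hε hk
        apply cap_of_near hB hadm ((h t).2 (hJ ht)) h1 h2
        have e : z + t • u - (z + a • u) = (t - a) • u := by module
        rw [e, norm_smul, hu, mul_one, Real.norm_eq_abs, abs_le]
        constructor <;> linarith [ht.1, ht.2]) hc
    rwa [hval _ _ (by ring)] at this

lemma sum_weights (F : Finset (ℕ × ℕ)) :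
    ∑ k ∈ F, (1 / 2 : ℝ) ^ (Nat.pair k.1 k.2 + 1) ≤ 1 := by
  have hinj : Set.InjOn (fun k : ℕ × ℕ => Nat.pair k.1 k.2) F := by
    intro x _ y _ hxy
    have := Nat.pair_eq_pair.1 hxy
    exact Prod.ext this.1 this.2
  have e := Finset.sum_image (f := fun n : ℕ => (1 / 2 : ℝ) ^ (n + 1)) hinj
  rw [← e]
  have hsum : HasSum (fun n : ℕ => (1 / 2 : ℝ) ^ (n + 1)) 1 := by
    have h1 := hasSum_geometric_two.mul_right (1 / 2 : ℝ)
    have e1 : (fun n : ℕ => (1 / 2 : ℝ) ^ (n + 1)) = fun i : ℕ => (1 / 2 : ℝ) ^ i * (1 / 2) := by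
      ext n
      rw [pow_succ]
    rw [e1]
    have e2 : (2 : ℝ) * (1 / 2) = 1 := by norm_num
    rw [e2] at h1
    exact h1
  exact sum_le_hasSum _ (fun _ _ => by positivity) hsum

/-- Part A: every convex body has a density certificate with constant below three. -/
theorem partA (hE : finrank ℝ E = 3) {K : Set E} (hB : Body K) :
    ∃ (f : E → ℝ≥0∞) (C : ℝ), C < 3 ∧ 0 < C ∧ Cert K f C := by
  classical
  set V := (volume K).toReal with hVdef
  have hVe : ENNReal.ofReal V = volume K := ENNReal.ofReal_toReal hB.vol_fin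
  have hVpos : 0 < V := ENNReal.toReal_pos hB.vol_pos hB.vol_fin
  set D := Metric.diam K + 1 with hDdef
  have hD0 : 0 < D := by
    have := Metric.diam_nonneg (s := K)
    linarith
  have hD : ∀ a ∈ K, ∀ b ∈ K, ‖a - b‖ ≤ D := by
    intro a ha b hb'
    rw [← dist_eq_norm]
    have := Metric.dist_le_diam_of_mem hB.hK.isBounded ha hb'
    linarith
  set τ := V / (12 * D) with hτdef
  have hτ0 : 0 < τ := by positivity
  have hlt2 : volume (sweep K (0 : E)) < 2 * volume K := by
    rw [sweep_zero, ← hVe, ← ENNReal.ofReal_ofNat, ← ENNReal.ofReal_mul (by norm_num)]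
    apply (ENNReal.ofReal_lt_ofReal_iff (by positivity)).2
    linarith
  obtain ⟨L0, hL0, hL0ball⟩ := sweep_usc hB.hK (0 : E) hlt2
  have hex : ∀ i j : ℕ, ∃ S : ℝ, 0 < S ∧ S ≤ L0 ∧ (Adm K i j →
      volume (capSet K i j S) ≤ ENNReal.ofReal (τ * (1 / 2 : ℝ) ^ (Nat.pair i j + 1) * S)) := by
    intro i j
    by_cases h : Adm K i j
    · obtain ⟨S, h1, h2, h3⟩ := exists_scale hE hB h
        (τ := τ * (1 / 2 : ℝ) ^ (Nat.pair i j + 1)) (by positivity) hL0
      exact ⟨S, h1, h2, fun _ => h3⟩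
    · exact ⟨L0, hL0, le_rfl, fun h' => absurd h' h⟩
  choose s hs0 hsL hcap using hex
  obtain ⟨F, η, hη, hF, hsel⟩ := selection hE hB hs0
  set η' := min η V with hη'
  have hη'0 : 0 < η' := lt_min hη hVpos
  set SF := ∑ k ∈ F, (s k.1 k.2)⁻¹ with hSF
  have hSF0 : 0 ≤ SF := Finset.sum_nonneg fun k _ => inv_nonneg.2 (hs0 _ _).le
  set ε := min (1 / (SF + 1)) (min D (2 * D * η' / V)) with hεdef
  have hε0 : 0 < ε := lt_min (by positivity) (lt_min hD0 (by positivity))
  have hε1 : ε * SF ≤ 1 := by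
    have h1 : ε ≤ 1 / (SF + 1) := min_le_left _ _
    have h2 : ε * (SF + 1) ≤ 1 := (le_div_iff₀ (by positivity)).1 h1
    nlinarith
  have hε2 : ε ≤ D := (min_le_right _ _).trans (min_le_left _ _)
  have hε3 : ε * V / (2 * D) ≤ η' := by
    have h1 : ε ≤ 2 * D * η' / V := (min_le_right _ _).trans (min_le_right _ _)
    rw [le_div_iff₀ hVpos] at h1
    rw [div_le_iff₀ (by positivity)]
    linarith
  set C := 3 - ε / (4 * D) with hCdef
  have hC3 : C < 3 := by
    have : 0 < ε / (4 * D) := by positivity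
    linarith
  have hC0 : 0 < C := by
    have : ε / (4 * D) ≤ 1 / 4 := by
      rw [div_le_iff₀ (by positivity)]
      field_simp
      linarith
    linarith
  have hετ : ε * τ ≤ V / 12 := by
    rw [hτdef]
    have : ε * (V / (12 * D)) = (ε / D) * (V / 12) := by
      field_simp
    rw [this]
    have h1 : ε / D ≤ 1 := (div_le_one hD0).2 hε2
    have h2 : 0 < V / 12 := by positivity
    nlinarith
  have hint : ENNReal.ofReal (V - ε * τ) ≤ ∫⁻ x, dens K s F ε x := by
    have h1 := dens_integral (K := K) (s := s) (F := F) (ε := ε)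
      (τ := fun k => τ * (1 / 2 : ℝ) ^ (Nat.pair k.1 k.2 + 1)) hB.hK hs0 hε0.le
      (fun k => by positivity) (fun k hk => hcap _ _ (hF k hk))
    have h2 : ∑ k ∈ F, τ * (1 / 2 : ℝ) ^ (Nat.pair k.1 k.2 + 1) ≤ τ := by
      rw [← Finset.mul_sum]
      have := sum_weights F
      nlinarith
    have h3 : ENNReal.ofReal (ε * ∑ k ∈ F, τ * (1 / 2 : ℝ) ^ (Nat.pair k.1 k.2 + 1)) ≤
        ENNReal.ofReal (ε * τ) :=
      ENNReal.ofReal_le_ofReal (mul_le_mul_of_nonneg_left h2 hε0.le)
    rw [ENNReal.ofReal_sub _ (by positivity), hVe, tsub_le_iff_right]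
    exact h1.trans (by gcongr)
  have hVτ : 0 < V - ε * τ := by
    have : 0 < V / 12 := by positivity
    linarith
  have hkey : 3 * V - ε * V / (2 * D) ≤ C * (V - ε * τ) := by
    have e : C * (V - ε * τ) = 3 * V - ε * V / (2 * D) + ε / (4 * D) * (ε * τ) := by
      rw [hCdef, hτdef]
      field_simp
      ring
    rw [e]
    have : 0 ≤ ε / (4 * D) * (ε * τ) := by positivity
    linarith
  refine ⟨dens K s F ε, C, hC3, hC0, ⟨dens_meas hB.hK, fun x hx => dens_supp hx,
    dens_le_one hs0 hε0.le, ?_, ?_⟩⟩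
  · have := lt_of_lt_of_le (ENNReal.ofReal_pos.2 hVτ) hint
    exact this.ne'
  intro u hu z
  set A := volume ((Submodule.span ℝ {u})ᗮ.orthogonalProjectionOnto '' K) with hA
  have hAfin : A ≠ ⊤ := shadow_fin hB.hK u
  set aU := A.toReal with haU
  have hAe : ENNReal.ofReal aU = A := ENNReal.ofReal_toReal hAfin
  have haU0 : 0 ≤ aU := ENNReal.toReal_nonneg
  have hgoal : ∀ M : ℝ≥0∞, M * A ≤ ENNReal.ofReal (C * (V - ε * τ)) →
      M * A ≤ ENNReal.ofReal C * ∫⁻ x, dens K s F ε x := by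
    intro M hM
    refine hM.trans ?_
    rw [ENNReal.ofReal_mul hC0.le]
    gcongr
  apply hgoal
  by_cases hne : ∃ t : ℝ, (z : E) + t • u ∈ K
  swap
  · push_neg at hne
    have : ∀ t : ℝ, dens K s F ε ((z : E) + t • u) = 0 := fun t => dens_supp (hne t)
    simp [this]
  obtain ⟨a, b, hab, hchord⟩ := xray_chord hB u hu z hne
  set L := b - a with hL
  have hL0' : 0 ≤ L := by rw [hL]; linarith
  set p : E := (z : E) + a • u with hp
  set q : E := (z : E) + b • u with hq
  have hpK : p ∈ K := (hchord a).2 ⟨le_rfl, hab⟩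
  have hqK : q ∈ K := (hchord b).2 ⟨hab, le_rfl⟩
  have hqp : q - p = L • u := by
    rw [hq, hp, hL]
    module
  have hsw : volume (sweep K (q - p)) = ENNReal.ofReal (V + L * aU) := by
    rw [hqp, volume_sweep hB.hc hB.hK u hu hL0', ← hA, ← hVe, ← hAe,
      ENNReal.ofReal_add hVpos.le (mul_nonneg hL0' haU0), ENNReal.ofReal_mul hL0']
  have hrs : V + L * aU ≤ 4 * V := by
    have h1 := sweep_le hE hB.hc hB.hK hpK hqK
    rw [hsw, ← hVe, ← ENNReal.ofReal_ofNat, ← ENNReal.ofReal_mul (by norm_num)] at h1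
    exact (ENNReal.ofReal_le_ofReal_iff (by positivity)).1 h1
  have hV1 : V ≤ D * aU := by
    have h1 := vol_le_shadow hB hD u hu
    rw [← hVe, ← hA, ← hAe, ← ENNReal.ofReal_mul hD0.le] at h1
    exact (ENNReal.ofReal_le_ofReal_iff (by positivity)).1 h1
  have hV2 : ε * V / (2 * D) ≤ ε / 2 * aU := by
    rw [div_le_iff₀ (by positivity)]
    have : ε * V ≤ ε * (D * aU) := mul_le_mul_of_nonneg_left hV1 hε0.le
    nlinarith
  by_cases hnear : 4 * volume K ≤ volume (sweep K (q - p)) + ENNReal.ofReal η'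
  · have hnear2 : 4 * volume K ≤ volume (sweep K (q - p)) + ENNReal.ofReal η := by
      refine hnear.trans ?_
      gcongr
      exact min_le_left _ _
    obtain ⟨k, hk, hk'⟩ := hsel (p, q) ⟨hpK, hqK⟩ hnear2
    have hLL0 : L0 ≤ L := by
      by_contra hcon
      push_neg at hcon
      have hnorm : ‖q - p‖ = L := by
        rw [hqp, norm_smul, hu, mul_one, Real.norm_eq_abs, abs_of_nonneg hL0']
      have h1 : volume (sweep K (q - p)) < 2 * volume K := by
        apply hL0ball
        rw [sub_zero, hnorm]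
        exact hcon
      have h2 : ENNReal.ofReal η' ≤ volume K := by
        rw [← hVe]
        exact ENNReal.ofReal_le_ofReal (min_le_right _ _)
      have h3 : volume (sweep K (q - p)) + ENNReal.ofReal η' < 2 * volume K + volume K :=
        ENNReal.add_lt_add_of_lt_of_le ENNReal.ofReal_ne_top h1 h2
      have h4 : 4 * volume K ≤ 2 * volume K + volume K := hnear.trans h3.le
      have h5 : (4 : ℝ≥0∞) * volume K ≤ 3 * volume K := by
        refine h4.trans (le_of_eq ?_)
        ring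
      have h6 := (ENNReal.mul_le_mul_iff_left hB.vol_pos hB.vol_fin).1 h5
      norm_num at h6
    have hSL : s k.1 k.2 ≤ L := (hsL _ _).trans hLL0
    have hSinv : ε * (s k.1 k.2)⁻¹ ≤ 1 := by
      have h1 : (s k.1 k.2)⁻¹ ≤ SF :=
        Finset.single_le_sum (f := fun k : ℕ × ℕ => (s k.1 k.2)⁻¹)
          (fun l _ => inv_nonneg.2 (hs0 _ _).le) hk
      have := mul_le_mul_of_nonneg_left h1 hε0.le
      linarith
    have hεS : ε ≤ s k.1 k.2 := by
      have hSpos := hs0 k.1 k.2
      have : ε * (s k.1 k.2)⁻¹ * s k.1 k.2 ≤ 1 * s k.1 k.2 :=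
        mul_le_mul_of_nonneg_right hSinv hSpos.le
      rwa [mul_assoc, inv_mul_cancel₀ hSpos.ne', mul_one, one_mul] at this
    have hM := near_gain hB hs0 hε0.le hk (hF k hk) (z : E) u hu hchord hab hSL hSinv hk'
    have hSpos := hs0 k.1 k.2
    have hLε : 0 ≤ L - ε / 2 := by linarith
    calc (∫⁻ t : ℝ, dens K s F ε ((z : E) + t • u)) * A
        ≤ ENNReal.ofReal (L - ε / 2) * ENNReal.ofReal aU := by
          rw [hAe]
          gcongr
      _ = ENNReal.ofReal ((L - ε / 2) * aU) := (ENNReal.ofReal_mul hLε).symm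
      _ ≤ ENNReal.ofReal (C * (V - ε * τ)) := by
          apply ENNReal.ofReal_le_ofReal
          refine le_trans ?_ hkey
          have : (L - ε / 2) * aU = L * aU - ε / 2 * aU := by ring
          rw [this]
          linarith
  · push_neg at hnear
    rw [hsw, ← hVe, ← ENNReal.ofReal_ofNat, ← ENNReal.ofReal_mul (by norm_num),
      ← ENNReal.ofReal_add (by positivity) hη'0.le] at hnear
    have hfar := (ENNReal.ofReal_lt_ofReal_iff (by positivity)).1 hnear
    have hM : ∫⁻ t : ℝ, dens K s F ε ((z : E) + t • u) ≤ ENNReal.ofReal L := by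
      have hind := dens_le_ind (K := K) (F := F) hs0 hε0.le (z : E) u hchord
      calc ∫⁻ t : ℝ, dens K s F ε ((z : E) + t • u) ≤ ∫⁻ t : ℝ, (Icc a b).indicator 1 t :=
            lintegral_mono hind
        _ = ENNReal.ofReal L := by
            have : (Icc a b).indicator (1 : ℝ → ℝ≥0∞) = (Icc a b).indicator (fun _ => (1 : ℝ≥0∞)) := rfl
            rw [this, lintegral_indicator_const measurableSet_Icc, one_mul, Real.volume_Icc]
    calc (∫⁻ t : ℝ, dens K s F ε ((z : E) + t • u)) * A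
        ≤ ENNReal.ofReal L * ENNReal.ofReal aU := by
          rw [hAe]
          gcongr
      _ = ENNReal.ofReal (L * aU) := (ENNReal.ofReal_mul hL0').symm
      _ ≤ ENNReal.ofReal (C * (V - ε * τ)) := by
          apply ENNReal.ofReal_le_ofReal
          refine le_trans ?_ hkey
          linarith

end Vale.Agent.Lib.P243
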