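import Vale.Agent.Lib.P243.PartA

open MeasureTheory Set Module Filter Topology TopologicalSpace
open scoped ENNReal Pointwise RealInnerProductSpace

namespace Vale.Agent.Lib.P243

variable {E : Type*} [NormedAddCommGroup E] [InnerProductSpace ℝ E] [FiniteDimensional ℝ E]
  [MeasurableSpace E] [BorelSpace E]

lemma shadow_pos {K : Set E} (hB : Body K) (u : E) (hu : ‖u‖ = 1) :
    volume ((Submodule.span ℝ {u})ᗮ.orthogonalProjectionOnto '' K) ≠ 0 := by
  set T := splitEquiv u hu with hT
  have hopen : IsOpenMap (fun x => (T x).1) :=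
    isOpenMap_fst.comp T.toHomeomorph.isOpenMap
  obtain ⟨w, hw⟩ := hB.hi
  have h1 : (T w).1 ∈ interior ((fun x => (T x).1) '' K) :=
    hopen.image_interior_subset K ⟨w, hw, rfl⟩
  have h2 : (fun x => (T x).1) '' K = (Submodule.span ℝ {u})ᗮ.orthogonalProjectionOnto '' K := by
    ext z
    constructor
    · rintro ⟨x, hx, rfl⟩
      exact ⟨x, hx, (splitEquiv_fst u hu x).symm⟩
    · rintro ⟨x, hx, rfl⟩
      exact ⟨x, hx, splitEquiv_fst u hu x⟩
  rw [h2] at h1
  exact (Measure.measure_pos_of_mem_nhds volume (mem_interior_iff_mem_nhds.1 h1)).ne'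

/-- The integral of a density over one cylinder. -/
lemma one_cyl {f : E → ℝ≥0∞} (hf : Measurable f) (u : E) (hu : ‖u‖ = 1)
    {B : Set (Submodule.span ℝ {u})ᗮ} (hB : MeasurableSet B) {M : ℝ≥0∞}
    (hM : ∀ z : (Submodule.span ℝ {u})ᗮ, ∫⁻ t : ℝ, f ((z : E) + t • u) ≤ M) :
    ∫⁻ x in (Submodule.span ℝ {u})ᗮ.orthogonalProjectionOnto ⁻¹' B, f x ≤ volume B * M := by
  set T := splitEquiv u hu with hT
  have hTm : MeasurePreserving T volume
      ((volume : Measure (Submodule.span ℝ {u})ᗮ).prod (volume : Measure ℝ)) :=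
    splitEquiv_measurePreserving u hu
  let G : (Submodule.span ℝ {u})ᗮ × ℝ → ℝ≥0∞ :=
    (Prod.fst ⁻¹' B).indicator (fun y => f (T.symm y))
  have hGm : Measurable G :=
    (hf.comp T.symm.continuous.measurable).indicator (measurable_fst hB)
  have hpre : MeasurableSet ((Submodule.span ℝ {u})ᗮ.orthogonalProjectionOnto ⁻¹' B) :=
    (ContinuousLinearMap.continuous _).measurable hB
  have e1 : ∫⁻ x in (Submodule.span ℝ {u})ᗮ.orthogonalProjectionOnto ⁻¹' B, f x = ∫⁻ x, G (T x) := by
    rw [← lintegral_indicator hpre]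
    apply lintegral_congr
    intro x
    have h : T x ∈ Prod.fst ⁻¹' B ↔ x ∈ (Submodule.span ℝ {u})ᗮ.orthogonalProjectionOnto ⁻¹' B := by
      simp only [mem_preimage]
      rw [show (T x).1 = _ from splitEquiv_fst u hu x]
    by_cases hx : x ∈ (Submodule.span ℝ {u})ᗮ.orthogonalProjectionOnto ⁻¹' B
    · rw [indicator_of_mem hx]
      simp only [G]
      rw [indicator_of_mem (h.2 hx), ContinuousLinearEquiv.symm_apply_apply]
    · rw [indicator_of_notMem hx]
      simp only [G]
      rw [indicator_of_notMem (fun h' => hx (h.1 h'))]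
  rw [e1, hTm.lintegral_comp hGm, lintegral_prod _ hGm.aemeasurable]
  have hin : ∀ z, ∫⁻ t : ℝ, G (z, t) = B.indicator (fun z => ∫⁻ t : ℝ, f ((z : E) + t • u)) z := by
    intro z
    by_cases hz : z ∈ B
    · rw [indicator_of_mem hz]
      apply lintegral_congr
      intro t
      have hmem : (z, t) ∈ Prod.fst ⁻¹' B := hz
      simp only [G, indicator_of_mem hmem]
      rw [hT, splitEquiv_symm]
    · rw [indicator_of_notMem hz]
      have : ∀ t : ℝ, G (z, t) = 0 := fun t => by
        have hmem : (z, t) ∉ Prod.fst ⁻¹' B := hz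
        simp only [G, indicator_of_notMem hmem]
      simp [this]
  simp_rw [hin]
  calc ∫⁻ z, B.indicator (fun z => ∫⁻ t : ℝ, f ((z : E) + t • u)) z
      ≤ ∫⁻ z, B.indicator (fun _ => M) z := by
        apply lintegral_mono
        intro z
        by_cases hz : z ∈ B
        · simp only [indicator_of_mem hz]
          exact hM z
        · simp only [indicator_of_notMem hz]
          exact le_rfl
    _ = volume B * M := by
        rw [lintegral_indicator_const hB, mul_comm]

/-- A density certificate gives the lower bound for every finite cylinder covering. -/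
theorem cert_cover {K : Set E} (hB : Body K) {f : E → ℝ≥0∞} {C : ℝ} (hC : 0 < C)
    (hcert : Cert K f C) {ι : Type*} [Fintype ι] (u : ι → E) (hu : ∀ i, ‖u i‖ = 1)
    (B : (i : ι) → Set (Submodule.span ℝ {u i})ᗮ)
    (hcov : ∀ x ∈ K, ∃ i, (Submodule.span ℝ {u i})ᗮ.orthogonalProjectionOnto x ∈ B i) :
    ENNReal.ofReal C⁻¹ ≤
      ∑ i, volume (B i) / volume ((Submodule.span ℝ {u i})ᗮ.orthogonalProjectionOnto '' K) := by
  set I := ∫⁻ x, f x with hI
  have hI0 : I ≠ 0 := hcert.pos
  have hIfin : I ≠ ⊤ := by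
    have h1 : I ≤ volume K := by
      calc I ≤ ∫⁻ x, K.indicator 1 x := by
            apply lintegral_mono
            intro x
            by_cases hx : x ∈ K
            · rw [indicator_of_mem hx]
              exact hcert.le_one x
            · rw [hcert.supp x hx]
              exact zero_le
        _ = volume K := lintegral_indicator_one hB.hK.measurableSet
    exact (h1.trans_lt hB.hK.measure_lt_top).ne
  let B' : (i : ι) → Set (Submodule.span ℝ {u i})ᗮ := fun i => toMeasurable volume (B i)
  have hB'm : ∀ i, MeasurableSet (B' i) := fun i => measurableSet_toMeasurable _ _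
  have hB'v : ∀ i, volume (B' i) = volume (B i) := fun i => measure_toMeasurable _
  let c : ι → Set E := fun i => (Submodule.span ℝ {u i})ᗮ.orthogonalProjectionOnto ⁻¹' B' i
  have hcm : ∀ i, MeasurableSet (c i) := fun i =>
    (ContinuousLinearMap.continuous _).measurable (hB'm i)
  have hone : ∀ i, ∫⁻ x in c i, f x ≤ ENNReal.ofReal C * I *
      (volume (B i) / volume ((Submodule.span ℝ {u i})ᗮ.orthogonalProjectionOnto '' K)) := by
    intro i
    set A := volume ((Submodule.span ℝ {u i})ᗮ.orthogonalProjectionOnto '' K) with hA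
    have hA0 : A ≠ 0 := shadow_pos hB (u i) (hu i)
    have hAt : A ≠ ⊤ := shadow_fin hB.hK (u i)
    have hM : ∀ z : (Submodule.span ℝ {u i})ᗮ, ∫⁻ t : ℝ, f ((z : E) + t • u i) ≤ ENNReal.ofReal C * I / A := by
      intro z
      rw [ENNReal.le_div_iff_mul_le (Or.inl hA0) (Or.inl hAt)]
      exact hcert.xray (u i) (hu i) z
    have h1 := one_cyl hcert.meas (u i) (hu i) (hB'm i) hM
    rw [hB'v i] at h1
    refine h1.trans (le_of_eq ?_)
    rw [mul_comm, ENNReal.div_eq_inv_mul, ENNReal.div_eq_inv_mul]
    ring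
  have hsum : I ≤ ENNReal.ofReal C * I *
      ∑ i, volume (B i) / volume ((Submodule.span ℝ {u i})ᗮ.orthogonalProjectionOnto '' K) := by
    rw [Finset.mul_sum]
    calc I ≤ ∫⁻ x, ∑ i, (c i).indicator f x := by
          apply lintegral_mono
          intro x
          by_cases hx : x ∈ K
          · obtain ⟨i, hi⟩ := hcov x hx
            have hxc : x ∈ c i := subset_toMeasurable _ _ hi
            calc f x = (c i).indicator f x := (indicator_of_mem hxc f).symm
              _ ≤ _ := Finset.single_le_sum (f := fun j => (c j).indicator f x)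
                  (fun _ _ => zero_le) (Finset.mem_univ i)
          · rw [hcert.supp x hx]
            exact zero_le
      _ = ∑ i, ∫⁻ x, (c i).indicator f x := by
          rw [lintegral_finset_sum]
          intro i _
          exact hcert.meas.indicator (hcm i)
      _ = ∑ i, ∫⁻ x in c i, f x := by
          apply Finset.sum_congr rfl
          intro i _
          exact lintegral_indicator (hcm i) f
      _ ≤ _ := Finset.sum_le_sum fun i _ => hone i
  set S := ∑ i, volume (B i) / volume ((Submodule.span ℝ {u i})ᗮ.orthogonalProjectionOnto '' K)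
    with hS
  have h1 : I * 1 ≤ I * (ENNReal.ofReal C * S) := by
    rw [mul_one]
    calc I ≤ _ := hsum
      _ = _ := by ring
  have h2 : 1 ≤ ENNReal.ofReal C * S := (ENNReal.mul_le_mul_iff_right hI0 hIfin).1 h1
  calc ENNReal.ofReal C⁻¹ = ENNReal.ofReal C⁻¹ * 1 := (mul_one _).symm
    _ ≤ ENNReal.ofReal C⁻¹ * (ENNReal.ofReal C * S) := by gcongr
    _ = S := by
      rw [← mul_assoc, ← ENNReal.ofReal_mul (inv_pos.2 hC).le, inv_mul_cancel₀ hC.ne']
      simp

end Vale.Agent.Lib.P243
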