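import Mathlib

open MeasureTheory Set Module Filter Topology
open scoped ENNReal Pointwise

namespace Vale.Agent.Lib.P243.Rel

variable {E : Type*} [NormedAddCommGroup E] [InnerProductSpace ℝ E] [FiniteDimensional ℝ E]
  [MeasurableSpace E] [BorelSpace E]

/-- The centroid of a convex body lies in its interior. -/
lemma centroid_mem_interior {K : Set E} (hc : Convex ℝ K) (hK : IsCompact K)
    (hi : (interior K).Nonempty) : (volume K).toReal⁻¹ • ∫ x in K, x ∈ interior K := by
  have : CompleteSpace E := FiniteDimensional.complete ℝ E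
  set V := (volume K).toReal with hV
  have hV0 : volume K ≠ 0 := by
    obtain ⟨x, hx⟩ := hi
    exact (Measure.measure_pos_of_mem_nhds volume (mem_interior_iff_mem_nhds.1 hx)).ne'
  have hVpos : 0 < V := ENNReal.toReal_pos hV0 hK.measure_lt_top.ne
  set c := V⁻¹ • ∫ x in K, x with hcdef
  by_contra hcon
  obtain ⟨f, hf⟩ := geometric_hahn_banach_open_point hc.interior isOpen_interior hcon
  have hle : ∀ x ∈ K, f x ≤ f c := by
    have hcl : IsClosed {x | f x ≤ f c} := isClosed_le f.continuous continuous_const
    have h1 : closure (interior K) ⊆ {x | f x ≤ f c} :=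
      closure_minimal (fun x hx => (hf x hx).le) hcl
    rw [hc.closure_interior_eq_closure_of_nonempty_interior hi] at h1
    exact fun x hx => h1 (subset_closure hx)
  have hint : IntegrableOn (fun x : E => x) K := continuous_id.continuousOn.integrableOn_compact hK
  have hfint : IntegrableOn (fun x => f c - f x) K :=
    (continuous_const.sub f.continuous).continuousOn.integrableOn_compact hK
  have e1 : ∫ x in K, (f c - f x) = 0 := by
    have hf1 : ∫ x in K, f x = f (∫ x in K, x) := f.integral_comp_comm hint
    have hc1 : IntegrableOn (fun _ : E => f c) K := continuousOn_const.integrableOn_compact hK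
    have hc2 : IntegrableOn (fun x => f x) K := f.continuous.continuousOn.integrableOn_compact hK
    rw [integral_sub hc1 hc2, setIntegral_const, hf1]
    have e2 : ∫ x in K, x = V • c := by
      rw [hcdef, smul_smul, mul_inv_cancel₀ hVpos.ne', one_smul]
    have e3 : f (∫ x in K, x) = V * f c := by
      rw [e2, map_smul, smul_eq_mul]
    rw [e3, measureReal_def, ← hV, smul_eq_mul, sub_self]
  have hpos : 0 < ∫ x in K, (f c - f x) := by
    rw [setIntegral_pos_iff_support_of_nonneg_ae _ hfint]
    · have hsub : interior K ⊆ Function.support (fun x => f c - f x) ∩ K := by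
        intro x hx
        refine ⟨?_, interior_subset hx⟩
        have := hf x hx
        simp only [Function.mem_support]
        linarith
      obtain ⟨x, hx⟩ := hi
      exact lt_of_lt_of_le (isOpen_interior.measure_pos volume ⟨x, hx⟩) (measure_mono hsub)
    · rw [Filter.EventuallyLE, ae_restrict_iff' hK.measurableSet]
      exact Filter.Eventually.of_forall fun x hx => by
        have := hle x hx
        simp only [Pi.zero_apply]
        linarith
  linarith

/-- Translating a convex body so that its centroid is the origin. -/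
lemma exists_centred {K : Set E} (hc : Convex ℝ K) (hK : IsCompact K)
    (hi : (interior K).Nonempty) :
    ∃ c : E, Convex ℝ ((fun x => x - c) '' K) ∧ IsCompact ((fun x => x - c) '' K) ∧
      (fun x => x - c) '' K ∈ 𝓝 (0 : E) ∧ ∫ x in (fun x => x - c) '' K, x = 0 := by
  have : CompleteSpace E := FiniteDimensional.complete ℝ E
  set V := (volume K).toReal with hV
  have hV0 : volume K ≠ 0 := by
    obtain ⟨x, hx⟩ := hi
    exact (Measure.measure_pos_of_mem_nhds volume (mem_interior_iff_mem_nhds.1 hx)).ne'
  have hVpos : 0 < V := ENNReal.toReal_pos hV0 hK.measure_lt_top.ne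
  set c := V⁻¹ • ∫ x in K, x with hcdef
  have hcm : c ∈ interior K := centroid_mem_interior hc hK hi
  have hcont : Continuous fun x : E => x - c := by fun_prop
  refine ⟨c, ?_, hK.image hcont, ?_, ?_⟩
  · rintro _ ⟨x, hx, rfl⟩ _ ⟨y, hy, rfl⟩ a b ha hb hab
    refine ⟨a • x + b • y, hc hx hy ha hb hab, ?_⟩
    have e : c = (a + b) • c := by rw [hab, one_smul]
    simp only
    conv_lhs => rw [e]
    module
  · have hopen : IsOpenMap fun x : E => x - c := (Homeomorph.subRight c).isOpenMap
    have h1 := hopen.image_interior_subset K ⟨c, hcm, rfl⟩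
    simp only [sub_self] at h1
    exact mem_interior_iff_mem_nhds.1 h1
  · have hmp : MeasurePreserving (fun x : E => x - c) volume volume :=
      measurePreserving_sub_right volume c
    have hme : MeasurableEmbedding (fun x : E => x - c) :=
      (Homeomorph.subRight c).measurableEmbedding
    rw [hmp.setIntegral_image_emb hme (fun y => y) K]
    have hint : IntegrableOn (fun x : E => x) K := continuous_id.continuousOn.integrableOn_compact hK
    have hc1 : IntegrableOn (fun _ : E => c) K := continuousOn_const.integrableOn_compact hK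
    rw [integral_sub hint hc1, setIntegral_const, measureReal_def,
      ← hV, hcdef, smul_smul, mul_inv_cancel₀ hVpos.ne', one_smul, sub_self]

section Par

variable {K : Set E} {g : E →L[ℝ] ℝ} {v : ℝ}

/-- The cone over the slice `g = β`. -/
def sliceCone (K : Set E) (g : E →L[ℝ] ℝ) (β : ℝ) : Set E :=
  (fun x : ℝ × E => x.1 • x.2) '' (Icc (0 : ℝ) 1 ×ˢ (K ∩ g ⁻¹' {β}))

lemma mem_sliceCone {β : ℝ} {x : E} :
    x ∈ sliceCone K g β ↔ ∃ t ∈ Icc (0 : ℝ) 1, ∃ q ∈ K, g q = β ∧ x = t • q := by
  constructor
  · rintro ⟨⟨t, q⟩, ⟨ht, hq, hgq⟩, rfl⟩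
    exact ⟨t, ht, q, hq, hgq, rfl⟩
  · rintro ⟨t, ht, q, hq, hgq, rfl⟩
    exact ⟨(t, q), ⟨ht, hq, hgq⟩, rfl⟩

lemma sliceCone_compact (hK : IsCompact K) (β : ℝ) : IsCompact (sliceCone K g β) := by
  have h1 : IsCompact (K ∩ g ⁻¹' {β}) :=
    hK.inter_right (isClosed_singleton.preimage g.continuous)
  exact (isCompact_Icc.prod h1).image (by fun_prop)

lemma sliceCone_mono {β : ℝ} {x : E} (hx : x ∈ sliceCone K g β) {τ : ℝ} (h0 : 0 < τ) (h1 : τ ≤ 1)
    (hβ : β ≠ 0) (hlt : g x / β < τ) : x ∈ τ • sliceCone K g β := by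
  obtain ⟨t, ht, q, hq, hgq, rfl⟩ := mem_sliceCone.1 hx
  have e : g (t • q) / β = t := by
    rw [map_smul, hgq, smul_eq_mul]
    field_simp
  rw [e] at hlt
  refine ⟨(t / τ) • q, mem_sliceCone.2 ⟨t / τ, ⟨div_nonneg ht.1 h0.le, (div_le_one h0).2 hlt.le⟩, q, hq,
    hgq, rfl⟩, ?_⟩
  simp only [smul_smul]
  congr 1
  field_simp

/-- The mean of `g / β` over the cone is at least `3 / 4`. -/
lemma mean_sliceCone (hE : finrank ℝ E = 3) (hK : IsCompact K) {β : ℝ} (hβ : 0 < β) :
    ENNReal.ofReal (3 / 4) * volume (sliceCone K g β) ≤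
      ∫⁻ x in sliceCone K g β, ENNReal.ofReal (g x / β) := by
  set C := sliceCone K g β with hC
  have hCm : MeasurableSet C := (sliceCone_compact hK β).measurableSet
  have hfm : Measurable fun x => g x / β := g.continuous.measurable.div_const β
  have hnn : 0 ≤ᵐ[volume.restrict C] fun x => g x / β := by
    rw [Filter.EventuallyLE, ae_restrict_iff' hCm]
    refine Filter.Eventually.of_forall fun x hx => ?_
    obtain ⟨t, ht, q, hq, hgq, rfl⟩ := mem_sliceCone.1 hx
    rw [map_smul, hgq, smul_eq_mul]
    simp only [Pi.zero_apply]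
    exact div_nonneg (mul_nonneg ht.1 hβ.le) hβ.le
  rw [lintegral_eq_lintegral_meas_le (volume.restrict C) hnn hfm.aemeasurable]
  have hint : ∫⁻ τ in Ioo (0 : ℝ) 1, ENNReal.ofReal (1 - τ ^ 3) = ENNReal.ofReal (3 / 4) := by
    have hc : Continuous fun τ : ℝ => 1 - τ ^ 3 := by fun_prop
    rw [← ofReal_integral_eq_lintegral_ofReal (hc.integrableOn_Icc.mono_set Ioo_subset_Icc_self)]
    · rw [← integral_Ioc_eq_integral_Ioo, ← intervalIntegral.integral_of_le zero_le_one]
      congr 1
      rw [intervalIntegral.integral_sub (by simp) (by exact (continuous_pow 3).intervalIntegrable _ _)]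
      rw [integral_pow]
      norm_num
    · rw [Filter.EventuallyLE, ae_restrict_iff' measurableSet_Ioo]
      refine Filter.Eventually.of_forall fun τ hτ => ?_
      have : τ ^ 3 ≤ 1 := pow_le_one₀ hτ.1.le hτ.2.le
      simp only [Pi.zero_apply]
      linarith
  calc ENNReal.ofReal (3 / 4) * volume C
      = ∫⁻ τ in Ioo (0 : ℝ) 1, ENNReal.ofReal (1 - τ ^ 3) * volume C := by
        rw [lintegral_mul_const _ (by fun_prop), hint]
    _ ≤ ∫⁻ τ in Ioo (0 : ℝ) 1, (volume.restrict C) {x | τ ≤ g x / β} := by
        apply setLIntegral_mono' measurableSet_Ioo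
        rintro τ ⟨h0, h1⟩
        have hmeas : MeasurableSet {x | τ ≤ g x / β} := measurableSet_le measurable_const hfm
        rw [Measure.restrict_apply hmeas]
        have hsub : C \ (τ • C) ⊆ {x | τ ≤ g x / β} ∩ C := by
          rintro x ⟨hx, hxn⟩
          refine ⟨?_, hx⟩
          by_contra hcon
          exact hxn (sliceCone_mono hx h0 h1.le hβ.ne' (not_le.1 hcon))
        refine le_trans ?_ (measure_mono hsub)
        have hτC : volume (τ • C) = ENNReal.ofReal (τ ^ 3) * volume C := by
          rw [Measure.addHaar_smul, hE, abs_of_pos (by positivity)]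
        have hfin : volume C ≠ ⊤ := (sliceCone_compact hK β).measure_lt_top.ne
        have hle : volume C ≤ volume (C \ (τ • C)) + volume (τ • C) := by
          have := measure_le_inter_add_diff (volume : Measure E) C (τ • C)
          calc volume C ≤ volume (C ∩ τ • C) + volume (C \ τ • C) := this
            _ ≤ volume (τ • C) + volume (C \ τ • C) := by gcongr; exact inter_subset_right
            _ = _ := add_comm _ _
        rw [ENNReal.ofReal_sub _ (by positivity), ENNReal.ofReal_one, ENNReal.sub_mul (fun _ _ => hfin), one_mul]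
        rw [← hτC]
        exact tsub_le_iff_right.2 hle
    _ ≤ ∫⁻ τ in Ioi (0 : ℝ), (volume.restrict C) {x | τ ≤ g x / β} :=
        lintegral_mono_set Ioo_subset_Ioi_self

/-- The cone over the slice `g = β` has at most a third of the volume, for a centred body. -/
lemma slice_mass (hE : finrank ℝ E = 3) (hc : Convex ℝ K) (hK : IsCompact K)
    (h0 : K ∈ 𝓝 (0 : E)) (hcen : ∫ x in K, x = 0) (hg : ∀ x ∈ K, g x ≤ 1) {p : E} (hp : p ∈ K)
    (hgp : g p = 1) {β : ℝ} (hβ : 0 < β) :
    volume (sliceCone K g β) ≤ ENNReal.ofReal (1 / 3) * volume K := by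
  have : CompleteSpace E := FiniteDimensional.complete ℝ E
  obtain ⟨a, ha, hamin⟩ := hK.exists_isMinOn ⟨p, hp⟩ g.continuous.continuousOn
  have hamin' : ∀ x ∈ K, g a ≤ g x := fun x hx => hamin hx
  set m := g a with hm
  have hm0 : m < 0 := by
    obtain ⟨r, hr, hball⟩ := Metric.mem_nhds_iff.1 h0
    set ε := r / (2 * (‖p‖ + 1)) with hε
    have hε0 : 0 < ε := by positivity
    have hx : -(ε • p) ∈ K := by
      apply hball
      rw [Metric.mem_ball, dist_zero_right, norm_neg, norm_smul, Real.norm_eq_abs, abs_of_pos hε0, hε,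
        div_mul_eq_mul_div, div_lt_iff₀ (by positivity)]
      nlinarith [norm_nonneg p]
    have h1 := hamin' _ hx
    rw [map_neg, map_smul, hgp, smul_eq_mul, mul_one] at h1
    linarith
  set M := -m with hM
  have hMpos : 0 < M := by rw [hM]; linarith
  let f : Module.Dual ℝ E := (-(1 / β)) • (g : E →ₗ[ℝ] ℝ)
  have hf : ∀ x, f x = -(g x / β) := fun x => by
    simp [f]
    ring
  let L : E →ₗ[ℝ] E := LinearMap.transvection f a
  set d := (β + M) / β with hd
  have hdpos : 0 < d := by positivity
  have hdet : L.det = d := by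
    rw [LinearMap.transvection.det, hf, ← hm, hd, hM]
    field_simp
  let Lc : E →L[ℝ] E := LinearMap.toContinuousLinearMap L
  have hLc : ∀ x, Lc x = x + f x • a := fun x => LinearMap.transvection.apply f a x
  have hLcdet : Lc.det = d := by
    rw [← hdet]
    rfl
  let T : E → E := fun x => Lc x + a
  have hTc : Continuous T := by fun_prop
  set C := sliceCone K g β with hC
  have hCc : IsCompact C := sliceCone_compact hK β
  have hCm : MeasurableSet C := hCc.measurableSet
  have hC'c : IsCompact (T '' C) := hCc.image hTc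
  have hC'm : MeasurableSet (T '' C) := hC'c.measurableSet
  have hsub : T '' C ⊆ K := by
    rintro _ ⟨x, hx, rfl⟩
    obtain ⟨t, ht, q, hq, hgq, rfl⟩ := mem_sliceCone.1 hx
    have e : T (t • q) = t • q + (1 - t) • a := by
      simp only [T]
      rw [hLc, hf, map_smul, hgq, smul_eq_mul]
      have : t * β / β = t := by field_simp
      rw [this]
      module
    rw [e]
    exact hc hq ha ht.1 (by linarith [ht.2]) (by ring)
  have hinj : InjOn T C := by
    intro x _ y _ hxy
    have e1 : Lc x = Lc y := add_right_cancel hxy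
    rw [hLc, hLc] at e1
    have e2 : x - y = (f y - f x) • a := by
      have h3 : x = (y + f y • a) - f x • a := by
        rw [← e1]
        abel
      calc x - y = ((y + f y • a) - f x • a) - y := by rw [← h3]
        _ = (f y - f x) • a := by
          rw [sub_smul]
          abel
    have e3 : g (x - y) = (f y - f x) * m := by
      rw [e2, map_smul, smul_eq_mul]
    have e4 : (f y - f x) * β = g (x - y) := by
      rw [hf, hf, map_sub]
      field_simp
      ring
    have e5 : (f y - f x) * (β + M) = 0 := by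
      have e7 : (f y - f x) * (β + M) = (f y - f x) * β - (f y - f x) * m := by
        rw [hM]
        ring
      rw [e7, e4, e3, sub_self]
    have e6 : f y - f x = 0 := (mul_eq_zero.1 e5).resolve_right (by positivity)
    rw [e6, zero_smul] at e2
    exact sub_eq_zero.1 e2
  have hCfin : volume C ≠ ⊤ := hCc.measure_lt_top.ne
  have hKfin : volume K ≠ ⊤ := hK.measure_lt_top.ne
  have hvol : volume (T '' C) = ENNReal.ofReal d * volume C := by
    have e : T '' C = (fun x => x + a) '' (L '' C) := by
      rw [image_image]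
      rfl
    rw [e, image_add_right, measure_preimage_add_right, Measure.addHaar_image_linearMap, hdet,
      abs_of_pos hdpos]
  set c := (volume C).toReal with hcdef
  set V := (volume K).toReal with hVdef
  have hc0 : 0 ≤ c := ENNReal.toReal_nonneg
  have hVe : ENNReal.ofReal V = volume K := ENNReal.ofReal_toReal hKfin
  have hce : ENNReal.ofReal c = volume C := ENNReal.ofReal_toReal hCfin
  have hgT : ∀ x, g (T x) = g x / β * (β + M) - M := by
    intro x
    simp only [T]
    rw [map_add, hLc, map_add, map_smul, hf, smul_eq_mul]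
    have e8 : g a = -M := by
      rw [hM, hm]
      ring
    rw [e8]
    field_simp
    ring
  have hderiv : ∀ x ∈ C, HasFDerivWithinAt T Lc C x := fun x _ =>
    (Lc.hasFDerivAt.add_const a).hasFDerivWithinAt
  have hI : ∫ x in T '' C, g x = d * ∫ x in C, (g x / β * (β + M) - M) := by
    rw [integral_image_eq_integral_abs_det_fderiv_smul volume hCm hderiv hinj, hLcdet, abs_of_pos hdpos]
    simp only [smul_eq_mul, hgT]
    rw [integral_const_mul]
  have hJint : IntegrableOn (fun x => g x / β) C :=
    (g.continuous.div_const β).continuousOn.integrableOn_compact hCc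
  set J := ∫ x in C, g x / β with hJ
  have hJnn : 0 ≤ᵐ[volume.restrict C] fun x => g x / β := by
    rw [Filter.EventuallyLE, ae_restrict_iff' hCm]
    refine Filter.Eventually.of_forall fun x hx => ?_
    obtain ⟨t, ht, q, hq, hgq, rfl⟩ := mem_sliceCone.1 hx
    rw [map_smul, hgq, smul_eq_mul]
    simp only [Pi.zero_apply]
    exact div_nonneg (mul_nonneg ht.1 hβ.le) hβ.le
  have hJ0 : 0 ≤ J := integral_nonneg_of_ae hJnn
  have hJmean : 3 / 4 * c ≤ J := by
    have h1 := mean_sliceCone (g := g) hE hK hβ
    rw [← ofReal_integral_eq_lintegral_ofReal hJint hJnn, ← hC, ← hce,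
      ← ENNReal.ofReal_mul (by norm_num)] at h1
    exact (ENNReal.ofReal_le_ofReal_iff hJ0).1 h1
  have hI2 : ∫ x in T '' C, g x = d * (J * (β + M) - M * c) := by
    rw [hI, integral_sub (hJint.mul_const _) (continuousOn_const.integrableOn_compact hCc),
      integral_mul_const, setIntegral_const, measureReal_def, ← hcdef, smul_eq_mul]
    ring
  have hgint : ∫ x in K, g x = 0 := by
    have hint : IntegrableOn (fun x : E => x) K := continuous_id.continuousOn.integrableOn_compact hK
    have := g.integral_comp_comm hint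
    rw [hcen, map_zero] at this
    exact this
  have hgK : IntegrableOn (fun x => g x) K := g.continuous.continuousOn.integrableOn_compact hK
  have hdiff := integral_diff hC'm hgK hsub
  rw [hgint, zero_sub] at hdiff
  have hC'real : (volume (T '' C)).toReal = d * c := by
    rw [hvol, ENNReal.toReal_mul, ENNReal.toReal_ofReal hdpos.le]
  have hlow : (V - d * c) * (-M) ≤ ∫ x in K \ T '' C, g x := by
    have hconst : IntegrableOn (fun _ : E => -M) (K \ T '' C) :=
      (continuousOn_const.integrableOn_compact hK).mono_set diff_subset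
    have h1 := setIntegral_mono_on hconst (hgK.mono_set diff_subset) (hK.measurableSet.diff hC'm)
      (fun x hx => by
        have := hamin' x hx.1
        rw [hM]
        linarith)
    rw [setIntegral_const, measureReal_def, measure_diff hsub hC'm.nullMeasurableSet
      (hC'c.measure_lt_top.ne), ENNReal.toReal_sub_of_le (measure_mono hsub) hKfin, hC'real, smul_eq_mul]
      at h1
    exact h1
  have hkey : d * (J * (β + M) - M * c) ≤ (V - d * c) * M := by
    rw [← hI2]
    linarith
  have hkey2 : d * (β + M) * J ≤ V * M := by nlinarith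
  have hkey3 : d * (β + M) * (3 / 4 * c) ≤ V * M :=
    le_trans (mul_le_mul_of_nonneg_left hJmean (by positivity)) hkey2
  have hsq : 4 * M ≤ d * (β + M) := by
    rw [hd, div_mul_eq_mul_div, le_div_iff₀ hβ]
    nlinarith [sq_nonneg (β - M)]
  have hfinal : 3 * c ≤ V := by
    have h1 : 4 * M * (3 / 4 * c) ≤ V * M :=
      le_trans (mul_le_mul_of_nonneg_right hsq (by positivity)) hkey3
    have h2 : 3 * c * M ≤ V * M := by nlinarith
    exact le_of_mul_le_mul_right h2 hMpos
  rw [← hce, ← hVe, ← ENNReal.ofReal_mul (by norm_num)]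
  apply ENNReal.ofReal_le_ofReal
  linarith

/-- The cap of points above level `1 - v` is small. -/
lemma cap_mass (hE : finrank ℝ E = 3) (hc : Convex ℝ K) (hK : IsCompact K)
    (h0 : K ∈ 𝓝 (0 : E)) (hg : ∀ x ∈ K, g x ≤ 1) {p : E} (hp : p ∈ K)
    (hgp : g p = 1) (hv0 : 0 ≤ v) (hv1 : v < 1) :
    volume {s | s ∈ K ∧ 1 - v < g s} ≤ ENNReal.ofReal (3 * v) * volume K := by
  obtain ⟨a, ha, hamin⟩ := hK.exists_isMinOn ⟨p, hp⟩ g.continuous.continuousOn
  have hamin' : ∀ x ∈ K, g a ≤ g x := fun x hx => hamin hx
  set m := g a with hm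
  have hm0 : m < 0 := by
    obtain ⟨r, hr, hball⟩ := Metric.mem_nhds_iff.1 h0
    set ε := r / (2 * (‖p‖ + 1)) with hε
    have hε0 : 0 < ε := by positivity
    have hx : -(ε • p) ∈ K := by
      apply hball
      rw [Metric.mem_ball, dist_zero_right, norm_neg, norm_smul, Real.norm_eq_abs, abs_of_pos hε0, hε,
        div_mul_eq_mul_div, div_lt_iff₀ (by positivity)]
      nlinarith [norm_nonneg p]
    have h1 := hamin' _ hx
    rw [map_neg, map_smul, hgp, smul_eq_mul, mul_one] at h1
    linarith
  set τ := v / (1 - m) with hτ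
  have hWpos : 0 < 1 - m := by linarith
  have hτ0 : 0 ≤ τ := div_nonneg hv0 hWpos.le
  have hτv : τ ≤ v := by
    rw [hτ]
    exact div_le_self hv0 (by linarith)
  have hτ1 : τ < 1 := lt_of_le_of_lt hτv hv1
  set H := AffineMap.homothety a (1 - τ) with hH
  have hHapp : ∀ x, H x = (1 - τ) • x + τ • a := by
    intro x
    rw [hH, AffineMap.homothety_apply, vsub_eq_sub, vadd_eq_add]
    module
  have hHc : Continuous H := AffineMap.homothety_continuous a (1 - τ)
  have hHK : IsCompact (H '' K) := hK.image hHc
  have hsub : H '' K ⊆ K := by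
    rintro _ ⟨x, hx, rfl⟩
    rw [hHapp]
    exact hc hx ha (by linarith) hτ0 (by ring)
  have hsub2 : {s | s ∈ K ∧ 1 - v < g s} ⊆ K \ H '' K := by
    rintro s ⟨hs, hgs⟩
    refine ⟨hs, ?_⟩
    rintro ⟨x, hx, rfl⟩
    rw [hHapp, map_add, map_smul, map_smul, smul_eq_mul, smul_eq_mul, ← hm] at hgs
    have h1 := hg x hx
    have h2 : τ * (1 - m) = v := by
      rw [hτ]
      field_simp
    nlinarith
  have hKfin : volume K ≠ ⊤ := hK.measure_lt_top.ne
  refine (measure_mono hsub2).trans ?_
  rw [measure_diff hsub hHK.measurableSet.nullMeasurableSet hHK.measure_lt_top.ne,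
    Measure.addHaar_image_homothety, hE]
  rw [abs_of_pos (by have : 0 < 1 - τ := by linarith
                     positivity)]
  have h1τ : 0 < 1 - τ := by linarith
  rw [tsub_le_iff_right, ← add_mul, ← ENNReal.ofReal_add (by positivity) (by positivity)]
  have h4 : 1 ≤ 3 * v + (1 - τ) ^ 3 := by
    have : 0 ≤ τ ^ 2 * (3 - τ) := by
      apply mul_nonneg (sq_nonneg _)
      linarith
    nlinarith
  calc volume K = ENNReal.ofReal 1 * volume K := by simp
    _ ≤ _ := by
      gcongr

/-- Most of `K` is not nearly parallel to a given supporting functional, for a centred body. -/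
theorem par_mass (hE : finrank ℝ E = 3) (hc : Convex ℝ K) (hK : IsCompact K)
    (h0 : K ∈ 𝓝 (0 : E)) (hcen : ∫ x in K, x = 0) (hg : ∀ x ∈ K, g x ≤ 1) {p : E} (hp : p ∈ K)
    (hgp : g p = 1) (hv0 : 0 ≤ v) (hv1 : v < 1) :
    volume {s | s ∈ K ∧ (1 - v) * gauge K s < g s} ≤ ENNReal.ofReal (1 / 3 + 3 * v) * volume K := by
  have hβ : 0 < 1 - v := by linarith
  have hsub : {s | s ∈ K ∧ (1 - v) * gauge K s < g s} ⊆
      sliceCone K g (1 - v) ∪ {s | s ∈ K ∧ 1 - v < g s} := by
    rintro s ⟨hs, hgs⟩
    by_cases h1 : 1 - v < g s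
    · exact Or.inr ⟨hs, h1⟩
    · left
      push_neg at h1
      have hρ : 0 ≤ gauge K s := gauge_nonneg s
      have hgpos : 0 < g s := lt_of_le_of_lt (mul_nonneg hβ.le hρ) hgs
      set t := g s / (1 - v) with ht
      have ht0 : 0 < t := div_pos hgpos hβ
      have ht1 : t ≤ 1 := (div_le_one hβ).2 h1
      have htρ : gauge K s < t := by
        rw [ht, lt_div_iff₀ hβ, mul_comm]
        exact hgs
      have hq : t⁻¹ • s ∈ K := by
        apply gauge_lt_one_subset_self hc (mem_of_mem_nhds h0) (absorbent_nhds_zero h0)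
        simp only [mem_setOf_eq]
        rw [gauge_smul_of_nonneg (inv_pos.2 ht0).le, smul_eq_mul, inv_mul_lt_iff₀ ht0, mul_one]
        exact htρ
      refine mem_sliceCone.2 ⟨t, ⟨ht0.le, ht1⟩, t⁻¹ • s, hq, ?_, ?_⟩
      · rw [map_smul, smul_eq_mul, ht]
        field_simp
      · rw [smul_smul, mul_inv_cancel₀ ht0.ne', one_smul]
  refine (measure_mono hsub).trans ((measure_union_le _ _).trans ?_)
  rw [ENNReal.ofReal_add (by norm_num) (by positivity), add_mul]
  exact add_le_add (slice_mass hE hc hK h0 hcen hg hp hgp hβ) (cap_mass hE hc hK h0 hg hp hgp hv0 hv1)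

end Par

end Vale.Agent.Lib.P243.Rel
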