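import Vale.Agent.Lib.P243.Cap

open MeasureTheory Set Module Filter Topology TopologicalSpace
open scoped ENNReal Pointwise RealInnerProductSpace

namespace Vale.Agent.Lib.P243

variable {E : Type*} [NormedAddCommGroup E] [InnerProductSpace ℝ E] [FiniteDimensional ℝ E]
  [MeasurableSpace E] [BorelSpace E]

lemma continuous_dd (K : Set E) (i : ℕ) : Continuous (dd K i) := by
  unfold dd
  fun_prop

/-- The selection property. -/
def SelQ (K : Set E) (s : ℕ → ℕ → ℝ) (S : Set (E × E)) : Prop :=
  ∃ (F : Finset (ℕ × ℕ)) (η : ℝ), 0 < η ∧ (∀ k ∈ F, Adm K k.1 k.2) ∧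
    ∀ x ∈ S, 4 * volume K ≤ volume (sweep K (x.2 - x.1)) + ENNReal.ofReal η →
      ∃ k ∈ F, (dd K k.1 x.2 < s k.1 k.2 / 4 ∧ dd K k.2 x.2 < s k.1 k.2 / 4) ∨
        (dd K k.1 x.1 < s k.1 k.2 / 4 ∧ dd K k.2 x.1 < s k.1 k.2 / 4)

/-- Finitely many admissible pairs catch all nearly exact chords. -/
lemma selection (hE : finrank ℝ E = 3) {K : Set E} (hB : Body K) {s : ℕ → ℕ → ℝ}
    (hs : ∀ i j, 0 < s i j) : SelQ K s (K ×ˢ K) := by
  classical
  apply (hB.hK.prod hB.hK).induction_on (p := SelQ K s)
  · exact ⟨∅, 1, one_pos, by simp, by simp⟩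
  · rintro S T hST ⟨F, η, hη, hF, h⟩
    exact ⟨F, η, hη, hF, fun x hx => h x (hST hx)⟩
  · rintro S T ⟨F, η, hη, hF, h⟩ ⟨F', η', hη', hF', h'⟩
    refine ⟨F ∪ F', min η η', lt_min hη hη', ?_, ?_⟩
    · intro k hk
      rcases Finset.mem_union.1 hk with hk | hk
      · exact hF k hk
      · exact hF' k hk
    · rintro x (hx | hx) hv
      · have h1 : volume (sweep K (x.2 - x.1)) + ENNReal.ofReal (min η η') ≤
            volume (sweep K (x.2 - x.1)) + ENNReal.ofReal η := by
          gcongr
          exact min_le_left _ _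
        obtain ⟨k, hk, hk'⟩ := h x hx (hv.trans h1)
        exact ⟨k, Finset.mem_union_left _ hk, hk'⟩
      · have h1 : volume (sweep K (x.2 - x.1)) + ENNReal.ofReal (min η η') ≤
            volume (sweep K (x.2 - x.1)) + ENNReal.ofReal η' := by
          gcongr
          exact min_le_right _ _
        obtain ⟨k, hk, hk'⟩ := h' x hx (hv.trans h1)
        exact ⟨k, Finset.mem_union_right _ hk, hk'⟩
  · rintro ⟨p, q⟩ ⟨hp, hq⟩
    by_cases hex : 4 * volume K ≤ volume (sweep K (q - p))
    · have hx : ExactPair K p q := ⟨hp, hq, hex⟩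
      obtain ⟨i, j, hij⟩ := exact_good hB hE hx
      have hsij := hs i j
      have hdi := continuous_dd K i
      have hdj := continuous_dd K j
      rcases hij with hg | hg
      · let U : Set (E × E) := {y | dd K i y.2 < s i j / 4 ∧ dd K j y.2 < s i j / 4}
        have hU : IsOpen U :=
          (isOpen_lt (hdi.comp continuous_snd) continuous_const).inter
            (isOpen_lt (hdj.comp continuous_snd) continuous_const)
        have hmem : (p, q) ∈ U := by
          show dd K i q < s i j / 4 ∧ dd K j q < s i j / 4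
          rw [hg.hi0, hg.hj0]
          constructor <;> positivity
        refine ⟨U, mem_nhdsWithin_of_mem_nhds (hU.mem_nhds hmem), {(i, j)}, 1, one_pos, ?_, ?_⟩
        · intro k hk
          rw [Finset.mem_singleton] at hk
          rw [hk]
          exact hg.hadm
        · intro x hx _
          exact ⟨(i, j), Finset.mem_singleton_self _, Or.inl hx⟩
      · let U : Set (E × E) := {y | dd K i y.1 < s i j / 4 ∧ dd K j y.1 < s i j / 4}
        have hU : IsOpen U :=
          (isOpen_lt (hdi.comp continuous_fst) continuous_const).inter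
            (isOpen_lt (hdj.comp continuous_fst) continuous_const)
        have hmem : (p, q) ∈ U := by
          show dd K i p < s i j / 4 ∧ dd K j p < s i j / 4
          rw [hg.hi0, hg.hj0]
          constructor <;> positivity
        refine ⟨U, mem_nhdsWithin_of_mem_nhds (hU.mem_nhds hmem), {(i, j)}, 1, one_pos, ?_, ?_⟩
        · intro k hk
          rw [Finset.mem_singleton] at hk
          rw [hk]
          exact hg.hadm
        · intro x hx _
          exact ⟨(i, j), Finset.mem_singleton_self _, Or.inr hx⟩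
    · push_neg at hex
      obtain ⟨c, hc1, hc2⟩ := exists_between hex
      obtain ⟨δ, hδ, hball⟩ := sweep_usc hB.hK (q - p) hc1
      have hfin : 4 * volume K ≠ ⊤ := ENNReal.mul_ne_top (by norm_num) hB.vol_fin
      have hcfin : c ≠ ⊤ := (hc2.trans_le le_top).ne
      set η := (4 * volume K - c).toReal with hη
      have hηpos : 0 < η := ENNReal.toReal_pos (tsub_pos_of_lt hc2).ne' (ENNReal.sub_ne_top hfin)
      have hηe : ENNReal.ofReal η = 4 * volume K - c :=
        ENNReal.ofReal_toReal (ENNReal.sub_ne_top hfin)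
      let U : Set (E × E) := {y | ‖(y.2 - y.1) - (q - p)‖ < δ}
      have hU : IsOpen U := isOpen_lt (by fun_prop) continuous_const
      have hmem : (p, q) ∈ U := by
        show ‖(q - p) - (q - p)‖ < δ
        simpa using hδ
      refine ⟨U, mem_nhdsWithin_of_mem_nhds (hU.mem_nhds hmem), ∅, η, hηpos, by simp, ?_⟩
      intro x hx hv
      exfalso
      have h1 : volume (sweep K (x.2 - x.1)) < c := hball _ hx
      have h2 : volume (sweep K (x.2 - x.1)) + ENNReal.ofReal η < c + (4 * volume K - c) := by
        rw [hηe]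
        exact ENNReal.add_lt_add_right (ENNReal.sub_ne_top hfin) h1
      rw [add_tsub_cancel_of_le hc2.le] at h2
      exact absurd hv (not_le.2 h2)

end Vale.Agent.Lib.P243
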