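import Vale.Agent.Lib.P243.SymmCore

open MeasureTheory Set Module
open scoped ENNReal Pointwise

namespace Vale.Agent.Lib.P243

variable {E : Type*} [NormedAddCommGroup E] [InnerProductSpace ℝ E] [FiniteDimensional ℝ E]
  [MeasurableSpace E] [BorelSpace E]

/-- The orthogonal splitting `E = uᗮ × ℝ` as a continuous linear equivalence. -/
noncomputable def splitEquiv (u : E) (hu : ‖u‖ = 1) :
    E ≃L[ℝ] (Submodule.span ℝ {u})ᗮ × ℝ :=
  ((((Submodule.span ℝ {u}).orthogonalDecomposition.toContinuousLinearEquiv).trans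
    (WithLp.prodContinuousLinearEquiv 2 ℝ (Submodule.span ℝ {u}) (Submodule.span ℝ {u})ᗮ)).trans
    (ContinuousLinearEquiv.prodCongr
      (LinearIsometryEquiv.toSpanUnitSingleton (𝕜 := ℝ) u hu).symm.toContinuousLinearEquiv
      (ContinuousLinearEquiv.refl ℝ _))).trans
    (ContinuousLinearEquiv.prodComm ℝ ℝ _)

lemma splitEquiv_fst (u : E) (hu : ‖u‖ = 1) (x : E) :
    (splitEquiv u hu x).1 = (Submodule.span ℝ {u})ᗮ.orthogonalProjectionOnto x := by
  simp [splitEquiv]

lemma splitEquiv_measurePreserving (u : E) (hu : ‖u‖ = 1) :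
    MeasurePreserving (splitEquiv u hu) volume
      ((volume : Measure (Submodule.span ℝ {u})ᗮ).prod (volume : Measure ℝ)) := by
  have h1 := (Submodule.span ℝ {u}).orthogonalDecomposition.measurePreserving
  have h2 := WithLp.volume_preserving_ofLp (Submodule.span ℝ {u}) (Submodule.span ℝ {u})ᗮ
  let g := (LinearIsometryEquiv.toSpanUnitSingleton (𝕜 := ℝ) u hu)
  have h3 : MeasurePreserving (g.toHomeomorph.toMeasurableEquiv)
      (volume : Measure ℝ) (volume : Measure (Submodule.span ℝ {u})) :=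
    measurePreserving_span u hu
  have h4 := h3.symm
  have h5 := h4.prod (MeasurePreserving.id (volume : Measure (Submodule.span ℝ {u})ᗮ))
  have h6 := Measure.measurePreserving_swap (μ := (volume : Measure ℝ))
    (ν := (volume : Measure (Submodule.span ℝ {u})ᗮ))
  exact h6.comp (h5.comp (h2.comp h1))

lemma gauge_equiv {F : Type*} [NormedAddCommGroup F] [NormedSpace ℝ F] (T : E ≃L[ℝ] F) (K : Set E)
    (x : E) : gauge (T '' K) (T x) = gauge K x := by
  rw [gauge_def', gauge_def']
  congr 1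
  ext r
  show (0 < r ∧ r⁻¹ • T x ∈ T '' K) ↔ (0 < r ∧ r⁻¹ • x ∈ K)
  rw [← map_smul, T.injective.mem_set_image]

/-- The density bound on one cylinder, in the ambient space. -/
lemma one_cylinder (hE : finrank ℝ E = 3) {K : Set E} (hc : Convex ℝ K) (hK : IsCompact K)
    (h0 : K ∈ nhds (0 : E)) (hs : ∀ x ∈ K, -x ∈ K) (u : E) (hu : ‖u‖ = 1)
    {B : Set (Submodule.span ℝ {u})ᗮ} (hB : MeasurableSet B) :
    (∫⁻ x in K ∩ (Submodule.span ℝ {u})ᗮ.orthogonalProjectionOnto ⁻¹' B,
        ENNReal.ofReal ((2 / 5) * (1 + 2 * gauge K x)))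
        * volume ((Submodule.span ℝ {u})ᗮ.orthogonalProjectionOnto '' K)
      ≤ ENNReal.ofReal (12 / 5) * volume K * volume B := by
  let T := splitEquiv u hu
  have hT : MeasurePreserving T volume
      ((volume : Measure (Submodule.span ℝ {u})ᗮ).prod (volume : Measure ℝ)) :=
    splitEquiv_measurePreserving u hu
  have hu0 : u ≠ 0 := by
    intro h
    simp [h] at hu
  have hW : finrank ℝ (Submodule.span ℝ {u})ᗮ = 2 := by
    have h1 := (Submodule.span ℝ {u}).finrank_add_finrank_orthogonal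
    rw [finrank_span_singleton hu0, hE] at h1
    omega
  set K' : Set ((Submodule.span ℝ {u})ᗮ × ℝ) := T '' K with hK'
  have hc' : Convex ℝ K' :=
    hc.linear_image (T.toLinearEquiv.toLinearMap : E →ₗ[ℝ] (Submodule.span ℝ {u})ᗮ × ℝ)
  have hK'c : IsCompact K' := hK.image T.continuous
  have h0' : K' ∈ nhds (0 : (Submodule.span ℝ {u})ᗮ × ℝ) := by
    have := T.toHomeomorph.isOpenMap.image_mem_nhds h0
    simpa using this
  have hs' : ∀ x ∈ K', -x ∈ K' := by
    rintro _ ⟨x, hx, rfl⟩
    exact ⟨-x, hs x hx, map_neg T x⟩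
  have hP : Prod.fst '' K' = (Submodule.span ℝ {u})ᗮ.orthogonalProjectionOnto '' K := by
    ext z
    constructor
    · rintro ⟨_, ⟨x, hx, rfl⟩, rfl⟩
      exact ⟨x, hx, (splitEquiv_fst u hu x).symm⟩
    · rintro ⟨x, hx, rfl⟩
      exact ⟨T x, ⟨x, hx, rfl⟩, splitEquiv_fst u hu x⟩
  have hpre : T ⁻¹' K' = K := T.injective.preimage_image K
  have hvol : ((volume : Measure (Submodule.span ℝ {u})ᗮ).prod (volume : Measure ℝ)) K' = volume K := by
    rw [← hT.measure_preimage hK'c.measurableSet.nullMeasurableSet, hpre]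
  have hgc : Continuous (gauge K') := continuous_gauge hc' h0'
  have hFm : Measurable (fun x => ENNReal.ofReal ((2 / 5) * (1 + 2 * gauge K' x))) := by
    apply ENNReal.measurable_ofReal.comp
    exact (hgc.const_mul 2 |>.const_add 1 |>.const_mul (2 / 5)).measurable
  have hAm : MeasurableSet (K' ∩ Prod.fst ⁻¹' B) := hK'c.measurableSet.inter (measurable_fst hB)
  have hApre : T ⁻¹' (K' ∩ Prod.fst ⁻¹' B)
      = K ∩ (Submodule.span ℝ {u})ᗮ.orthogonalProjectionOnto ⁻¹' B := by
    rw [preimage_inter, hpre]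
    congr 1
    ext x
    simp only [mem_preimage]
    rw [show (T x).1 = _ from splitEquiv_fst u hu x]
  have hint := hT.setLIntegral_comp_preimage hAm hFm
  rw [hApre] at hint
  have hg : ∀ x, gauge K' (T x) = gauge K x := gauge_equiv T K
  simp only [hg] at hint
  rw [hint, ← hP, ← hvol]
  exact cylinder_bound volume hW hc' hK'c h0' hs' hB

/-- The main theorem: `5 / 12` for centrally symmetric bodies. -/
theorem symm_main (hE : finrank ℝ E = 3) {K : Set E} (hc : Convex ℝ K) (hK : IsCompact K)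
    (hi : (interior K).Nonempty) (hs : ∀ x ∈ K, -x ∈ K) {ι : Type*} [Fintype ι]
    (u : ι → E) (hu : ∀ i, ‖u i‖ = 1) (B : (i : ι) → Set (Submodule.span ℝ {u i})ᗮ)
    (hcov : ∀ x ∈ K, ∃ i, (Submodule.span ℝ {u i})ᗮ.orthogonalProjectionOnto x ∈ B i) :
    (5 / 12 : ℝ≥0∞) ≤
      ∑ i, volume (B i) / volume ((Submodule.span ℝ {u i})ᗮ.orthogonalProjectionOnto '' K) := by
  have h0 : K ∈ nhds (0 : E) := by
    obtain ⟨x, hx⟩ := hi
    have hnx : -x ∈ interior K := by
      have hopen : IsOpen (Neg.neg ⁻¹' interior K : Set E) := isOpen_interior.preimage continuous_neg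
      have hsub : (Neg.neg ⁻¹' interior K : Set E) ⊆ K := fun y hy => by
        have := hs _ (interior_subset hy)
        simpa using this
      exact interior_maximal hsub hopen (by simpa using hx)
    have := hc.interior hx hnx (by norm_num : (0 : ℝ) ≤ 1 / 2) (by norm_num : (0 : ℝ) ≤ 1 / 2)
      (by norm_num)
    simp only [one_div, smul_neg, add_neg_cancel] at this
    exact mem_interior_iff_mem_nhds.1 this
  have hVpos : volume K ≠ 0 := (Measure.measure_pos_of_mem_nhds volume h0).ne'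
  have hVfin : volume K ≠ ⊤ := hK.measure_lt_top.ne
  let B' : (i : ι) → Set (Submodule.span ℝ {u i})ᗮ := fun i => toMeasurable volume (B i)
  have hB'm : ∀ i, MeasurableSet (B' i) := fun i => measurableSet_toMeasurable _ _
  have hB'v : ∀ i, volume (B' i) = volume (B i) := fun i => measure_toMeasurable _
  let f : E → ℝ≥0∞ := fun x => ENNReal.ofReal ((2 / 5) * (1 + 2 * gauge K x))
  let C : ι → Set E := fun i => K ∩ (Submodule.span ℝ {u i})ᗮ.orthogonalProjectionOnto ⁻¹' (B' i)
  have hcover : K ⊆ ⋃ i, C i := by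
    intro x hx
    obtain ⟨i, hi⟩ := hcov x hx
    exact mem_iUnion.2 ⟨i, hx, subset_toMeasurable _ _ hi⟩
  have hone : ∀ i, ∫⁻ x in C i, f x ≤ ENNReal.ofReal (12 / 5) * volume K *
      (volume (B i) / volume ((Submodule.span ℝ {u i})ᗮ.orthogonalProjectionOnto '' K)) := by
    intro i
    have h1 := one_cylinder hE hc hK h0 hs (u i) (hu i) (hB'm i)
    rw [hB'v i] at h1
    have hPcont : Continuous ((Submodule.span ℝ {u i})ᗮ.orthogonalProjectionOnto) :=
      ContinuousLinearMap.continuous _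
    have hAfin : volume ((Submodule.span ℝ {u i})ᗮ.orthogonalProjectionOnto '' K) ≠ ⊤ :=
      (hK.image hPcont).measure_lt_top.ne
    have hA0 : volume ((Submodule.span ℝ {u i})ᗮ.orthogonalProjectionOnto '' K) ≠ 0 := by
      refine (Measure.measure_pos_of_mem_nhds (x := (0 : (Submodule.span ℝ {u i})ᗮ)) volume ?_).ne'
      have hsurj : Function.Surjective ((Submodule.span ℝ {u i})ᗮ.orthogonalProjectionOnto) := by
        intro z
        exact ⟨z, by simp⟩
      have := ContinuousLinearMap.isOpenMap _ hsurj |>.image_mem_nhds h0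
      simpa using this
    rw [← mul_div_assoc, ENNReal.le_div_iff_mul_le (Or.inl hA0) (Or.inl hAfin)]
    exact h1
  have hsum : volume K ≤ ENNReal.ofReal (12 / 5) * volume K *
      ∑ i, volume (B i) / volume ((Submodule.span ℝ {u i})ᗮ.orthogonalProjectionOnto '' K) := by
    calc volume K ≤ ∫⁻ x in K, f x := density_ge volume hE hc hK h0
      _ ≤ ∫⁻ x in ⋃ i, C i, f x := lintegral_mono_set hcover
      _ ≤ ∑' i, ∫⁻ x in C i, f x := lintegral_iUnion_le _ _
      _ = ∑ i, ∫⁻ x in C i, f x := tsum_fintype _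
      _ ≤ ∑ i, ENNReal.ofReal (12 / 5) * volume K *
            (volume (B i) / volume ((Submodule.span ℝ {u i})ᗮ.orthogonalProjectionOnto '' K)) :=
          Finset.sum_le_sum fun i _ => hone i
      _ = _ := by rw [Finset.mul_sum]
  set S := ∑ i, volume (B i) / volume ((Submodule.span ℝ {u i})ᗮ.orthogonalProjectionOnto '' K)
    with hS
  have h1 : volume K * 1 ≤ volume K * (ENNReal.ofReal (12 / 5) * S) := by
    rw [mul_one]
    calc volume K ≤ _ := hsum
      _ = _ := by ring
  have h2 : 1 ≤ ENNReal.ofReal (12 / 5) * S := (ENNReal.mul_le_mul_iff_right hVpos hVfin).1 h1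
  have e5 : (5 / 12 : ℝ≥0∞) = ENNReal.ofReal (5 / 12) := by
    rw [ENNReal.ofReal_div_of_pos (by norm_num)]
    norm_num
  calc (5 / 12 : ℝ≥0∞) = (5 / 12 : ℝ≥0∞) * 1 := (mul_one _).symm
    _ ≤ (5 / 12 : ℝ≥0∞) * (ENNReal.ofReal (12 / 5) * S) := by gcongr
    _ = S := by
      rw [← mul_assoc, e5, ← ENNReal.ofReal_mul (by norm_num)]
      norm_num

end Vale.Agent.Lib.P243
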