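import Vale.Agent.Lib.P243.Exact
import Vale.Agent.Lib.P243.SymmTransfer

open MeasureTheory Set Module
open scoped ENNReal Pointwise RealInnerProductSpace

namespace Vale.Agent.Lib.P243

variable {E : Type*} [NormedAddCommGroup E] [InnerProductSpace ℝ E] [FiniteDimensional ℝ E]
  [MeasurableSpace E] [BorelSpace E]

lemma splitEquiv_snd (u : E) (hu : ‖u‖ = 1) (x : E) :
    (splitEquiv u hu x).2 = ⟪u, x⟫ := by
  simp only [splitEquiv, ContinuousLinearEquiv.trans_apply, ContinuousLinearEquiv.prodComm_apply,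
    Prod.snd_swap]
  simp only [ContinuousLinearEquiv.prodCongr_apply]
  simp
  rw [LinearIsometryEquiv.symm_apply_eq]
  ext
  simp only [LinearIsometryEquiv.toSpanUnitSingleton_apply]
  rw [← Submodule.starProjection_apply, Submodule.starProjection_unit_singleton ℝ hu]

lemma splitEquiv_apply (u : E) (hu : ‖u‖ = 1) (x : E) :
    splitEquiv u hu x = ((Submodule.span ℝ {u})ᗮ.orthogonalProjectionOnto x, ⟪u, x⟫) :=
  Prod.ext (splitEquiv_fst u hu x) (splitEquiv_snd u hu x)

lemma inner_coe_perp (u : E) (z : (Submodule.span ℝ {u})ᗮ) : ⟪u, (z : E)⟫ = 0 := by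
  have := z.2
  rw [Submodule.mem_orthogonal] at this
  exact this u (Submodule.mem_span_singleton_self u)

lemma prj_coe (u : E) (z : (Submodule.span ℝ {u})ᗮ) :
    (Submodule.span ℝ {u})ᗮ.orthogonalProjectionOnto (z : E) = z := by
  simp

lemma prj_self (u : E) : (Submodule.span ℝ {u})ᗮ.orthogonalProjectionOnto u = 0 :=
  Submodule.orthogonalProjectionOnto_eq_zero_iff.2
    (Submodule.le_orthogonal_orthogonal _ (Submodule.mem_span_singleton_self u))

lemma splitEquiv_symm (u : E) (hu : ‖u‖ = 1) (z : (Submodule.span ℝ {u})ᗮ) (s : ℝ) :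
    (splitEquiv u hu).symm (z, s) = (z : E) + s • u := by
  rw [ContinuousLinearEquiv.symm_apply_eq, splitEquiv_apply]
  ext1
  · simp only [map_add, map_smul, prj_self, prj_coe, smul_zero, add_zero]
  · simp only [inner_add_right, inner_coe_perp, inner_smul_right, real_inner_self_eq_norm_sq, hu]
    ring

lemma splitEquiv_self (u : E) (hu : ‖u‖ = 1) : splitEquiv u hu u = (0, 1) := by
  rw [splitEquiv_apply, prj_self, real_inner_self_eq_norm_sq, hu]
  norm_num

lemma finrank_perp (hE : finrank ℝ E = 3) {u : E} (hu : ‖u‖ = 1) :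
    finrank ℝ (Submodule.span ℝ {u})ᗮ = 2 := by
  have hu0 : u ≠ 0 := by
    intro h
    simp [h] at hu
  have h1 := (Submodule.span ℝ {u}).finrank_add_finrank_orthogonal
  rw [finrank_span_singleton hu0, hE] at h1
  omega

/-- The image of `K` in the splitting along `u`. -/
lemma image_fst_split (u : E) (hu : ‖u‖ = 1) (K : Set E) :
    Prod.fst '' (splitEquiv u hu '' K) = (Submodule.span ℝ {u})ᗮ.orthogonalProjectionOnto '' K := by
  ext z
  constructor
  · rintro ⟨_, ⟨x, hx, rfl⟩, rfl⟩
    exact ⟨x, hx, (splitEquiv_fst u hu x).symm⟩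
  · rintro ⟨x, hx, rfl⟩
    exact ⟨_, ⟨x, hx, rfl⟩, splitEquiv_fst u hu x⟩

lemma volume_split (u : E) (hu : ‖u‖ = 1) {K : Set E} (hK : IsCompact K) :
    ((volume : Measure (Submodule.span ℝ {u})ᗮ).prod (volume : Measure ℝ)) (splitEquiv u hu '' K)
      = volume K := by
  have hT := splitEquiv_measurePreserving u hu
  have hK' : IsCompact (splitEquiv u hu '' K) := hK.image (splitEquiv u hu).continuous
  rw [← hT.measure_preimage hK'.measurableSet.nullMeasurableSet,
    (splitEquiv u hu).injective.preimage_image K]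

/-- Sweeping a set along a vector. -/
def sweep (K : Set E) (v : E) : Set E := (fun x : E × ℝ => x.1 + x.2 • v) '' (K ×ˢ Icc (0 : ℝ) 1)

lemma mem_sweep {K : Set E} {v x : E} : x ∈ sweep K v ↔ ∃ k ∈ K, ∃ t ∈ Icc (0 : ℝ) 1, x = k + t • v := by
  constructor
  · rintro ⟨⟨k, t⟩, ⟨hk, ht⟩, rfl⟩
    exact ⟨k, hk, t, ht, rfl⟩
  · rintro ⟨k, hk, t, ht, rfl⟩
    exact ⟨(k, t), ⟨hk, ht⟩, rfl⟩

lemma sweep_compact {K : Set E} (hK : IsCompact K) (v : E) : IsCompact (sweep K v) :=
  (hK.prod isCompact_Icc).image (by fun_prop)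

lemma subset_sweep {K : Set E} (v : E) : K ⊆ sweep K v := fun x hx =>
  mem_sweep.2 ⟨x, hx, 0, by simp, by simp⟩

lemma sweep_zero {K : Set E} : sweep K 0 = K := by
  apply Subset.antisymm
  · intro x hx
    obtain ⟨k, hk, t, _, rfl⟩ := mem_sweep.1 hx
    simpa using hk
  · exact subset_sweep 0

lemma volume_sweep_neg (K : Set E) (v : E) : volume (sweep K (-v)) = volume (sweep K v) := by
  have : sweep K (-v) = (fun x => x + v) ⁻¹' sweep K v := by
    ext x
    simp only [mem_sweep, mem_preimage]
    constructor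
    · rintro ⟨k, hk, t, ht, rfl⟩
      refine ⟨k, hk, 1 - t, ⟨by linarith [ht.2], by linarith [ht.1]⟩, ?_⟩
      module
    · rintro ⟨k, hk, t, ht, h⟩
      refine ⟨k, hk, 1 - t, ⟨by linarith [ht.2], by linarith [ht.1]⟩, ?_⟩
      have : x = k + t • v - v := by rw [← h]; abel
      rw [this]
      module
  rw [this, measure_preimage_add_right]

/-- Semicontinuity of the swept volume. -/
lemma sweep_usc {K : Set E} (hK : IsCompact K) (v0 : E) {c : ℝ≥0∞}
    (hc : volume (sweep K v0) < c) : ∃ δ > 0, ∀ v, ‖v - v0‖ < δ → volume (sweep K v) < c := by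
  have hS := sweep_compact hK v0
  have ht := tendsto_measure_cthickening_of_isCompact (μ := (volume : Measure E)) hS
  obtain ⟨δ, hδ, hball⟩ := Metric.eventually_nhds_iff.1 (ht.eventually (gt_mem_nhds hc))
  refine ⟨δ / 2, by positivity, fun v hv => ?_⟩
  have h1 : volume (Metric.cthickening (δ / 2) (sweep K v0)) < c := by
    apply hball
    rw [Real.dist_eq, sub_zero, abs_of_pos (by positivity)]
    linarith
  refine lt_of_le_of_lt (measure_mono ?_) h1
  intro x hx
  obtain ⟨k, hk, t, ht', rfl⟩ := mem_sweep.1 hx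
  apply Metric.mem_cthickening_of_dist_le _ (k + t • v0) _ _ (mem_sweep.2 ⟨k, hk, t, ht', rfl⟩)
  rw [dist_eq_norm]
  have : k + t • v - (k + t • v0) = t • (v - v0) := by module
  rw [this, norm_smul, Real.norm_eq_abs, abs_of_nonneg ht'.1]
  have h2 : t * ‖v - v0‖ ≤ 1 * ‖v - v0‖ := mul_le_mul_of_nonneg_right ht'.2 (norm_nonneg _)
  linarith

/-- The volume of the swept set: the body plus the length times the shadow. -/
lemma volume_sweep {K : Set E} (hc : Convex ℝ K) (hK : IsCompact K) (u : E) (hu : ‖u‖ = 1)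
    {L : ℝ} (hL : 0 ≤ L) :
    volume (sweep K (L • u)) = volume K +
      ENNReal.ofReal L * volume ((Submodule.span ℝ {u})ᗮ.orthogonalProjectionOnto '' K) := by
  set T := splitEquiv u hu with hT
  set K' := T '' K with hK'
  have hK'c : IsCompact K' := hK.image T.continuous
  have hc' : Convex ℝ K' :=
    hc.linear_image (T.toLinearEquiv.toLinearMap : E →ₗ[ℝ] (Submodule.span ℝ {u})ᗮ × ℝ)
  set S' := T '' sweep K (L • u) with hS'
  have hS'c : IsCompact S' := (sweep_compact hK _).image T.continuous
  set μ := (volume : Measure (Submodule.span ℝ {u})ᗮ) with hμ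
  have e1 : volume (sweep K (L • u)) = (μ.prod volume) S' :=
    (volume_split u hu (sweep_compact hK _)).symm
  have e2 : volume K = (μ.prod volume) K' := (volume_split u hu hK).symm
  have e3 : (Submodule.span ℝ {u})ᗮ.orthogonalProjectionOnto '' K = Prod.fst '' K' :=
    (image_fst_split u hu K).symm
  rw [e1, e2, e3]
  have hPc : IsCompact (Prod.fst '' K') := hK'c.image continuous_fst
  have hmemS : ∀ z s, (z, s) ∈ S' ↔ ∃ s0 ∈ fib K' z, ∃ t ∈ Icc (0 : ℝ) 1, s = s0 + t * L := by
    intro z s
    constructor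
    · rintro ⟨x, hx, hxe⟩
      obtain ⟨k, hk, t, ht, rfl⟩ := mem_sweep.1 hx
      have e : T (k + t • (L • u)) = T k + (t * L) • (0, 1) := by
        rw [map_add, map_smul, map_smul, hT, splitEquiv_self, smul_smul, mul_comm]
      rw [e] at hxe
      have h1 : z = (T k).1 := by
        have := congrArg Prod.fst hxe
        simpa using this.symm
      have h2 : s = (T k).2 + t * L := by
        have := congrArg Prod.snd hxe
        simpa using this.symm
      refine ⟨(T k).2, ?_, t, ht, h2⟩
      simp only [fib, mem_setOf_eq]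
      rw [h1]
      exact ⟨k, hk, rfl⟩
    · rintro ⟨s0, hs0, t, ht, rfl⟩
      obtain ⟨k, hk, hke⟩ := hs0
      refine ⟨k + t • (L • u), mem_sweep.2 ⟨k, hk, t, ht, rfl⟩, ?_⟩
      have e : T (k + t • (L • u)) = T k + (t * L) • (0, 1) := by
        rw [map_add, map_smul, map_smul, hT, splitEquiv_self, smul_smul, mul_comm]
      rw [e, hke]
      ext <;> simp
  have hfibS : ∀ z, volume (fib S' z) =
      volume (fib K' z) + (Prod.fst '' K').indicator (fun _ => ENNReal.ofReal L) z := by
    intro z
    by_cases hz : z ∈ Prod.fst '' K'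
    · obtain ⟨a, b, ha, hb, hsub⟩ := exists_fib_extremes hK'c hz
      have hab : a ≤ b := (hsub hb).1
      have h1 : fib K' z = Icc a b :=
        Subset.antisymm hsub ((fib_convex hc' z).ordConnected.out ha hb)
      have h2 : fib S' z = Icc a (b + L) := by
        ext s
        simp only [fib, mem_setOf_eq, hmemS, mem_Icc]
        constructor
        · rintro ⟨s0, hs0, t, ht, rfl⟩
          have h3 := hsub hs0
          have h4 : 0 ≤ t * L := mul_nonneg ht.1 hL
          have h5 : t * L ≤ 1 * L := mul_le_mul_of_nonneg_right ht.2 hL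
          constructor <;> linarith [h3.1, h3.2]
        · rintro ⟨h3, h4⟩
          by_cases h5 : s ≤ b
          · have h6 : s ∈ fib K' z := by
              rw [h1]
              exact ⟨h3, h5⟩
            exact ⟨s, h6, 0, by simp, by simp⟩
          · push_neg at h5
            have hLpos : 0 < L := by linarith
            refine ⟨b, hb, (s - b) / L, ⟨by apply div_nonneg <;> linarith,
              (div_le_one hLpos).2 (by linarith)⟩, ?_⟩
            field_simp
            ring
      rw [h1, h2, indicator_of_mem hz, Real.volume_Icc, Real.volume_Icc,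
        ← ENNReal.ofReal_add (by linarith) hL]
      congr 1
      ring
    · have h1 : fib K' z = ∅ := by
        ext s
        simp only [fib, mem_setOf_eq, mem_empty_iff_false, iff_false]
        intro hs
        exact hz ⟨(z, s), hs, rfl⟩
      have h2 : fib S' z = ∅ := by
        ext s
        simp only [fib, mem_setOf_eq, mem_empty_iff_false, iff_false, hmemS]
        rintro ⟨s0, hs0, _⟩
        have h3 : s0 ∈ fib K' z := hs0
        rw [h1] at h3
        exact h3
      rw [h1, h2, indicator_of_notMem hz]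
      simp
  have hV : ∀ {A : Set ((Submodule.span ℝ {u})ᗮ × ℝ)}, IsCompact A →
      (μ.prod volume) A = ∫⁻ z, volume (fib A z) ∂μ := fun hA =>
    Measure.prod_apply hA.measurableSet
  rw [hV hS'c, hV hK'c]
  simp_rw [hfibS]
  have hm : Measurable fun z => volume (fib K' z) :=
    measurable_measure_prodMk_left hK'c.measurableSet
  rw [lintegral_add_left hm, lintegral_indicator_const hPc.measurableSet]

/-- The chord-shadow bound in terms of the swept volume. -/
lemma sweep_le {K : Set E} (hE : finrank ℝ E = 3) (hc : Convex ℝ K) (hK : IsCompact K)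
    {p q : E} (hp : p ∈ K) (hq : q ∈ K) : volume (sweep K (q - p)) ≤ 4 * volume K := by
  by_cases hpq : q - p = 0
  · rw [hpq, sweep_zero]
    calc volume K = 1 * volume K := (one_mul _).symm
      _ ≤ 4 * volume K := by gcongr; norm_num
  set L := ‖q - p‖ with hL
  have hLpos : 0 < L := norm_pos_iff.2 hpq
  set u := L⁻¹ • (q - p) with hu
  have hunit : ‖u‖ = 1 := by
    rw [hu, norm_smul, norm_inv, Real.norm_eq_abs, abs_of_pos hLpos, inv_mul_cancel₀ hLpos.ne']
  have hv : L • u = q - p := by rw [hu, smul_smul, mul_inv_cancel₀ hLpos.ne', one_smul]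
  rw [← hv, volume_sweep hc hK u hunit hLpos.le]
  set T := splitEquiv u hunit with hT
  set K' := T '' K with hK'
  have hK'c : IsCompact K' := hK.image T.continuous
  have hc' : Convex ℝ K' :=
    hc.linear_image (T.toLinearEquiv.toLinearMap : E →ₗ[ℝ] (Submodule.span ℝ {u})ᗮ × ℝ)
  have hpq' : T q = T p + (L : ℝ) • ((0 : (Submodule.span ℝ {u})ᗮ), (1 : ℝ)) := by
    have hs : T u = (0, 1) := splitEquiv_self u hunit
    rw [← hs, ← map_smul, ← map_add, hv]
    congr 1
    abel
  have hb : (T q).2 = (T p).2 + L := by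
    rw [hpq']
    simp
  have hb1 : (T q).1 = (T p).1 := by
    rw [hpq']
    simp
  have ha : (T p).2 ∈ fib K' (T p).1 := ⟨p, hp, rfl⟩
  have hb' : (T q).2 ∈ fib K' (T p).1 := by
    rw [← hb1]
    exact ⟨q, hq, rfl⟩
  have hbound := volume_bound_gen (volume : Measure (Submodule.span ℝ {u})ᗮ) (finrank_perp hE hunit)
    hc' hK'c ha hb'
  rw [hb, image_fst_split, volume_split u hunit hK] at hbound
  have e : (T p).2 + L - (T p).2 = L := by ring
  rw [e] at hbound
  have e2 : ENNReal.ofReal L = 3 * ENNReal.ofReal (L / 3) := by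
    have : L = 3 * (L / 3) := by ring
    conv_lhs => rw [this]
    rw [ENNReal.ofReal_mul (by norm_num)]
    norm_num
  rw [e2, mul_assoc]
  calc volume K + 3 * (ENNReal.ofReal (L / 3) * _) ≤ volume K + 3 * volume K := by gcongr
    _ = 4 * volume K := by ring

end Vale.Agent.Lib.P243
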