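import Mathlib

open MeasureTheory Set Module
open scoped ENNReal Pointwise

namespace Vale.Agent.Lib.P243

section Geometry

variable {W : Type*} [NormedAddCommGroup W] [NormedSpace ℝ W]

/-- The fibre of `K` over `z`. -/
def fib (K : Set (W × ℝ)) (z : W) : Set ℝ := {s | (z, s) ∈ K}

lemma fib_convex {K : Set (W × ℝ)} (hc : Convex ℝ K) (z : W) : Convex ℝ (fib K z) := by
  intro s1 h1 s2 h2 a b ha hb hab
  have := hc h1 h2 ha hb hab
  simp only [fib, mem_setOf_eq] at *
  convert this using 1
  ext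
  · simp [← add_smul, hab]
  · simp

lemma ofReal_le_vol_fib {K : Set (W × ℝ)} (hc : Convex ℝ K) {z : W} {s1 s2 : ℝ}
    (h1 : s1 ∈ fib K z) (h2 : s2 ∈ fib K z) :
    ENNReal.ofReal (s2 - s1) ≤ volume (fib K z) := by
  have := (fib_convex hc z).ordConnected.out h1 h2
  calc ENNReal.ofReal (s2 - s1) = volume (Icc s1 s2) := by rw [Real.volume_Icc]
    _ ≤ _ := measure_mono this

lemma fib_compact {K : Set (W × ℝ)} (hK : IsCompact K) (z : W) : IsCompact (fib K z) := by
  have hcl : IsClosed (fib K z) :=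
    hK.isClosed.preimage (f := fun s : ℝ => (z, s)) (by fun_prop)
  refine (hK.image continuous_snd).of_isClosed_subset hcl ?_
  intro s hs
  exact ⟨(z, s), hs, rfl⟩

lemma exists_fib_extremes {K : Set (W × ℝ)} (hK : IsCompact K) {y : W} (hy : y ∈ Prod.fst '' K) :
    ∃ a b, a ∈ fib K y ∧ b ∈ fib K y ∧ fib K y ⊆ Icc a b := by
  have hne : (fib K y).Nonempty := by
    obtain ⟨⟨y', s⟩, hp, rfl⟩ := hy
    exact ⟨s, hp⟩
  obtain ⟨a, ha⟩ := (fib_compact hK y).exists_isLeast hne
  obtain ⟨b, hb⟩ := (fib_compact hK y).exists_isGreatest hne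
  exact ⟨a, b, ha.1, hb.1, fun s hs => ⟨ha.2 hs, hb.2 hs⟩⟩

/-- Level inclusion: the basic use of convexity and central symmetry. -/
lemma level_incl {K : Set (W × ℝ)} (hc : Convex ℝ K) (hs : ∀ x ∈ K, -x ∈ K)
    {y w : W} {a b : ℝ} (ha : a ∈ fib K y) (hb : b ∈ fib K y) (hw : w ∈ Prod.fst '' K)
    {m α : ℝ} (hm0 : 0 ≤ m) (hm1 : m ≤ 1) (hα0 : 0 ≤ α) (hα1 : α ≤ 1) :
    ENNReal.ofReal (m * (b - a)) ≤ volume (fib K ((1 - m) • w + (m * (2 * α - 1)) • y)) := by
  obtain ⟨⟨w', sw⟩, hp, rfl⟩ := hw
  simp only at *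
  have ha' : (y, a) ∈ K := ha
  have hb' : (y, b) ∈ K := hb
  have hna : (-y, -a) ∈ K := by simpa using hs _ ha'
  have hnb : (-y, -b) ∈ K := by simpa using hs _ hb'
  have key : ∀ {p q : ℝ}, (y, p) ∈ K → (-y, -q) ∈ K →
      (1 - m) * sw + m * (α * p + (1 - α) * (-q)) ∈ fib K ((1 - m) • w' + (m * (2 * α - 1)) • y) := by
    intro p q hp' hq'
    have h1 := hc hp' hq' hα0 (sub_nonneg.2 hα1) (by ring)
    have h2 := hc hp h1 (sub_nonneg.2 hm1) hm0 (by ring)
    simp only [fib, mem_setOf_eq]
    convert h2 using 1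
    ext
    · simp only [Prod.fst_add, Prod.smul_fst, smul_neg]
      module
    · simp only [Prod.snd_add, Prod.smul_snd, smul_eq_mul]
  have := ofReal_le_vol_fib hc (key ha' hnb) (key hb' hna)
  convert this using 2
  ring

/-- Hahn-Banach for the gauge. -/
lemma exists_functional {P : Set W} (hc : Convex ℝ P) (h0 : P ∈ nhds (0 : W)) (y : W) :
    ∃ φ : W →ₗ[ℝ] ℝ, φ y = gauge P y ∧ ∀ z, φ z ≤ gauge P z := by
  have habs : Absorbent ℝ P := absorbent_nhds_zero h0
  by_cases hy : y = 0
  · subst hy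
    exact ⟨0, by simp [gauge_zero], fun z => by simpa using gauge_nonneg z⟩
  · let f : W →ₗ.[ℝ] ℝ := LinearPMap.mkSpanSingleton y (gauge P y) hy
    have hfapp : ∀ (c : ℝ) (h : c • y ∈ f.domain), f ⟨c • y, h⟩ = c * gauge P y := by
      intro c h
      exact LinearPMap.mkSpanSingleton'_apply y (gauge P y) _ c h
    obtain ⟨g, hg1, hg2⟩ := exists_extension_of_le_sublinear f (gauge P)
      (fun c hc' x => by
        rw [gauge_smul_of_nonneg hc'.le, smul_eq_mul])
      (gauge_add_le hc habs)
      (by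
        rintro ⟨x, hx⟩
        have hx' : x ∈ Submodule.span ℝ {y} := by simpa [f] using hx
        obtain ⟨c, rfl⟩ := Submodule.mem_span_singleton.1 hx'
        rw [hfapp c hx]
        rcases le_or_gt 0 c with hc0 | hc0
        · show c * gauge P y ≤ gauge P (c • y)
          rw [gauge_smul_of_nonneg hc0, smul_eq_mul]
        · have h1 : c * gauge P y ≤ 0 := mul_nonpos_of_nonpos_of_nonneg hc0.le (gauge_nonneg y)
          exact h1.trans (gauge_nonneg _))
    refine ⟨g, ?_, hg2⟩
    have hmem : (1 : ℝ) • y ∈ f.domain := by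
      simp [f]
    have := hg1 ⟨(1 : ℝ) • y, hmem⟩
    rw [hfapp 1 hmem] at this
    simpa using this

end Geometry

section Area

variable {W : Type*} [NormedAddCommGroup W] [NormedSpace ℝ W] [FiniteDimensional ℝ W]
  [MeasurableSpace W] [BorelSpace W]

lemma fst_image_convex {K : Set (W × ℝ)} (hc : Convex ℝ K) : Convex ℝ (Prod.fst '' K) :=
  hc.linear_image (LinearMap.fst ℝ W ℝ)

/-- The area of the level sets of the fibre length. -/
lemma level_area (μ : Measure W) [μ.IsAddHaarMeasure] (hW : finrank ℝ W = 2)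
    {K : Set (W × ℝ)} (hc : Convex ℝ K) (hs : ∀ x ∈ K, -x ∈ K)
    (hP0 : Prod.fst '' K ∈ nhds (0 : W)) {y : W} {a b : ℝ} (ha : a ∈ fib K y) (hb : b ∈ fib K y)
    {m : ℝ} (hm0 : 0 ≤ m) (hm1 : m < 1) :
    ENNReal.ofReal ((1 - m) ^ 2 + m * (1 - m) * gauge (Prod.fst '' K) y) * μ (Prod.fst '' K)
      ≤ μ {z | ENNReal.ofReal (m * (b - a)) ≤ volume (fib K z)} := by
  set P := Prod.fst '' K with hP
  have hPc : Convex ℝ P := fst_image_convex hc
  obtain ⟨φ, hφy, hφ⟩ := exists_functional hPc hP0 y
  have h1m : (0 : ℝ) < 1 - m := by linarith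
  let D : W →ₗ[ℝ] W := (1 - m) • LinearMap.transvection ((m / (1 - m)) • φ) y
  have hDdet : LinearMap.det D = (1 - m) ^ 2 + m * (1 - m) * gauge P y := by
    simp only [D]
    rw [LinearMap.det_smul, hW, LinearMap.transvection.det]
    simp only [LinearMap.smul_apply, hφy, smul_eq_mul]
    field_simp
  have hDapp : ∀ z, D z = (1 - m) • z + (m * (2 * ((1 + φ z) / 2) - 1)) • y := by
    intro z
    simp only [D, LinearMap.smul_apply, LinearMap.transvection.apply, smul_eq_mul, smul_add,
      smul_smul]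
    congr 2
    field_simp
    ring
  have hnonneg : 0 ≤ (1 - m) ^ 2 + m * (1 - m) * gauge P y := by
    have := gauge_nonneg (s := P) y
    positivity
  have hsub : D '' P ⊆ {z | ENNReal.ofReal (m * (b - a)) ≤ volume (fib K z)} := by
    rintro _ ⟨z, hz, rfl⟩
    have hnz : -z ∈ P := by
      obtain ⟨⟨z', s⟩, hp, rfl⟩ := hz
      exact ⟨-(z', s), hs _ hp, rfl⟩
    have h1 : φ z ≤ 1 := (hφ z).trans (gauge_le_one_of_mem hz)
    have h2 : -φ z ≤ 1 := by
      have := (hφ (-z)).trans (gauge_le_one_of_mem hnz)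
      simpa using this
    have := level_incl hc hs ha hb hz hm0 hm1.le (α := (1 + φ z) / 2) (by linarith) (by linarith)
    simpa only [mem_setOf_eq, hDapp] using this
  calc _ = μ (D '' P) := by
        rw [Measure.addHaar_image_linearMap, hDdet, abs_of_nonneg hnonneg]
    _ ≤ _ := measure_mono hsub

lemma integral_q (L t : ℝ) (hL : 0 < L) :
    ∫ l in (0 : ℝ)..L, ((1 - l / L) ^ 2 + (l / L) * (1 - l / L) * t) = L * (2 + t) / 6 := by
  have hL' : L ≠ 0 := hL.ne'
  have hd : ∀ l ∈ uIcc 0 L, HasDerivAt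
      (fun l : ℝ => l + (t - 2) * l ^ 2 / (2 * L) + (1 - t) * l ^ 3 / (3 * L ^ 2))
      ((1 - l / L) ^ 2 + (l / L) * (1 - l / L) * t) l := by
    intro l _
    have h1 : HasDerivAt (fun l : ℝ => l) 1 l := hasDerivAt_id l
    have h2 : HasDerivAt (fun l : ℝ => (t - 2) * l ^ 2 / (2 * L)) ((t - 2) * (2 * l) / (2 * L)) l := by
      have := ((hasDerivAt_pow 2 l).const_mul (t - 2)).div_const (2 * L)
      simpa using this
    have h3 : HasDerivAt (fun l : ℝ => (1 - t) * l ^ 3 / (3 * L ^ 2))
        ((1 - t) * (3 * l ^ 2) / (3 * L ^ 2)) l := by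
      have := ((hasDerivAt_pow 3 l).const_mul (1 - t)).div_const (3 * L ^ 2)
      simpa using this
    have h4 := (h1.add h2).add h3
    have e : (1 - l / L) ^ 2 + (l / L) * (1 - l / L) * t
        = 1 + (t - 2) * (2 * l) / (2 * L) + (1 - t) * (3 * l ^ 2) / (3 * L ^ 2) := by
      field_simp
      ring
    rw [e]
    exact h4
  rw [intervalIntegral.integral_eq_sub_of_hasDerivAt hd]
  · field_simp
    ring
  · apply Continuous.intervalIntegrable
    fun_prop

/-- The volume bound: `K` is at least as large as its section-area formula predicts. -/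
lemma volume_bound (μ : Measure W) [μ.IsAddHaarMeasure] (hW : finrank ℝ W = 2)
    {K : Set (W × ℝ)} (hc : Convex ℝ K) (hK : IsCompact K) (hs : ∀ x ∈ K, -x ∈ K)
    (hP0 : Prod.fst '' K ∈ nhds (0 : W)) {y : W} {a b : ℝ} (ha : a ∈ fib K y) (hb : b ∈ fib K y) :
    ENNReal.ofReal ((b - a) * (2 + gauge (Prod.fst '' K) y) / 6) * μ (Prod.fst '' K)
      ≤ (μ.prod volume) K := by
  set t := gauge (Prod.fst '' K) y with ht
  have ht0 : 0 ≤ t := gauge_nonneg y
  rcases le_or_gt (b - a) 0 with hL | hL
  · have : (b - a) * (2 + t) / 6 ≤ 0 :=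
      div_nonpos_of_nonpos_of_nonneg (mul_nonpos_of_nonpos_of_nonneg hL (by positivity)) (by norm_num)
    simp [ENNReal.ofReal_of_nonpos this]
  set L := b - a with hLdef
  have hV : (μ.prod volume) K = ∫⁻ z, volume (fib K z) ∂μ :=
    Measure.prod_apply hK.measurableSet
  let g : W → ℝ := fun z => (volume (fib K z)).toReal
  have hfin : ∀ z, volume (fib K z) ≠ ⊤ := fun z => (fib_compact hK z).measure_lt_top.ne
  have hgmeas : Measurable g :=
    (measurable_measure_prodMk_left hK.measurableSet).ennreal_toReal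
  have hlc := lintegral_eq_lintegral_meas_le μ (f := g)
    (Filter.Eventually.of_forall fun z => ENNReal.toReal_nonneg) hgmeas.aemeasurable
  have hg : ∫⁻ z, ENNReal.ofReal (g z) ∂μ = ∫⁻ z, volume (fib K z) ∂μ := by
    simp [g, ENNReal.ofReal_toReal, hfin]
  let q : ℝ → ℝ := fun l => (1 - l / L) ^ 2 + (l / L) * (1 - l / L) * t
  have hqc : Continuous q := by fun_prop
  have hqnn : ∀ l ∈ Ioo 0 L, 0 ≤ q l := by
    rintro l ⟨h1, h2⟩
    have h3 : 0 ≤ l / L := (div_pos h1 hL).le
    have h4 : l / L ≤ 1 := (div_le_one hL).2 h2.le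
    have h5 : 0 ≤ 1 - l / L := by linarith
    positivity
  have hint : ∫⁻ l in Ioo 0 L, ENNReal.ofReal (q l) = ENNReal.ofReal (L * (2 + t) / 6) := by
    rw [← ofReal_integral_eq_lintegral_ofReal
      (hqc.integrableOn_Icc.mono_set Ioo_subset_Icc_self)
      ((ae_restrict_iff' measurableSet_Ioo).2 (Filter.Eventually.of_forall hqnn))]
    rw [← integral_Ioc_eq_integral_Ioo, ← intervalIntegral.integral_of_le hL.le]
    simp only [q]
    rw [integral_q L t hL]
  calc ENNReal.ofReal (L * (2 + t) / 6) * μ (Prod.fst '' K)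
      = ∫⁻ l in Ioo 0 L, ENNReal.ofReal (q l) * μ (Prod.fst '' K) := by
        rw [lintegral_mul_const _ (by fun_prop), hint]
    _ ≤ ∫⁻ l in Ioo 0 L, μ {z | l ≤ g z} := by
        apply setLIntegral_mono' measurableSet_Ioo
        rintro l ⟨h1, h2⟩
        have h3 : 0 ≤ l / L := (div_pos h1 hL).le
        have h4 : l / L < 1 := (div_lt_one hL).2 h2
        have := level_area μ hW hc hs hP0 ha hb h3 h4
        have e2 : {z | l ≤ g z} = {z | ENNReal.ofReal ((l / L) * (b - a)) ≤ volume (fib K z)} := by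
          ext z
          simp only [mem_setOf_eq, g]
          rw [← hLdef, div_mul_cancel₀ _ hL.ne', ENNReal.ofReal_le_iff_le_toReal (hfin z)]
        rw [e2]
        exact this
    _ ≤ ∫⁻ l in Ioi 0, μ {z | l ≤ g z} := lintegral_mono_set Ioo_subset_Ioi_self
    _ = (μ.prod volume) K := by rw [← hlc, hg, hV]

end Area

section Chord

lemma integral_convex_le {φ : ℝ → ℝ} {p q A C : ℝ} (hpq : p ≤ q) (hφ : ConvexOn ℝ univ φ)
    (hcont : Continuous φ) (hA : φ p ≤ A) (hC : φ q ≤ C) :
    ∫ s in p..q, φ s ≤ (q - p) * (A + C) / 2 := by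
  rcases hpq.eq_or_lt with rfl | hlt
  · simp
  have hd : 0 < q - p := by linarith
  let l : ℝ → ℝ := fun s => A + (s - p) * (C - A) / (q - p)
  have hlc : Continuous l := by fun_prop
  have hle : ∀ s ∈ Icc p q, φ s ≤ l s := by
    rintro s ⟨h1, h2⟩
    have ha : 0 ≤ (q - s) / (q - p) := div_nonneg (by linarith) hd.le
    have hb : 0 ≤ (s - p) / (q - p) := div_nonneg (by linarith) hd.le
    have hab : (q - s) / (q - p) + (s - p) / (q - p) = 1 := by
      field_simp
      ring
    have := hφ.2 (mem_univ p) (mem_univ q) ha hb hab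
    simp only [smul_eq_mul] at this
    have e : (q - s) / (q - p) * p + (s - p) / (q - p) * q = s := by
      field_simp
      ring
    rw [e] at this
    calc φ s ≤ _ := this
      _ ≤ (q - s) / (q - p) * A + (s - p) / (q - p) * C := by
        gcongr
      _ = l s := by
        simp only [l]
        field_simp
        ring
  have hint : ∫ s in p..q, l s = (q - p) * (A + C) / 2 := by
    have hderiv : ∀ s ∈ uIcc p q, HasDerivAt
        (fun s : ℝ => A * s + (s - p) ^ 2 * (C - A) / (2 * (q - p))) (l s) s := by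
      intro s _
      have h1 : HasDerivAt (fun s : ℝ => A * s) A s := by
        simpa using (hasDerivAt_id s).const_mul A
      have h2 : HasDerivAt (fun s : ℝ => (s - p) ^ 2 * (C - A) / (2 * (q - p)))
          ((2 * (s - p)) * (C - A) / (2 * (q - p))) s := by
        have := (((hasDerivAt_id s).sub_const p).pow 2).mul_const (C - A) |>.div_const (2 * (q - p))
        simpa using this
      have e : l s = A + (2 * (s - p)) * (C - A) / (2 * (q - p)) := by
        simp only [l]
        field_simp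
      rw [e]
      exact h1.add h2
    rw [intervalIntegral.integral_eq_sub_of_hasDerivAt hderiv (hlc.intervalIntegrable _ _)]
    field_simp
    ring
  rw [← hint]
  exact intervalIntegral.integral_mono_on hpq (hcont.intervalIntegrable _ _)
    (hlc.intervalIntegrable _ _) hle

lemma chord_integral_le {φ : ℝ → ℝ} {a b s0 t : ℝ} (h1 : a ≤ s0) (h2 : s0 ≤ b)
    (hφ : ConvexOn ℝ univ φ) (hcont : Continuous φ) (ha : φ a ≤ 1) (hb : φ b ≤ 1)
    (hs0 : φ s0 ≤ t) : ∫ s in a..b, φ s ≤ (b - a) * (1 + t) / 2 := by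
  have e := intervalIntegral.integral_add_adjacent_intervals
    (hcont.intervalIntegrable (μ := volume) a s0) (hcont.intervalIntegrable (μ := volume) s0 b)
  have i1 := integral_convex_le h1 hφ hcont ha hs0
  have i2 := integral_convex_le h2 hφ hcont hs0 hb
  rw [← e]
  nlinarith

end Chord

section Fibre

variable {W : Type*} [NormedAddCommGroup W] [NormedSpace ℝ W] [FiniteDimensional ℝ W]

lemma convexOn_gauge_line {K : Set (W × ℝ)} (hc : Convex ℝ K) (h0 : K ∈ nhds (0 : W × ℝ)) (y : W) :
    ConvexOn ℝ univ (fun s : ℝ => gauge K (y, s)) := by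
  refine ⟨convex_univ, ?_⟩
  intro s1 _ s2 _ p q hp hq hpq
  have habs : Absorbent ℝ K := absorbent_nhds_zero h0
  have e : ((y, p • s1 + q • s2) : W × ℝ) = p • (y, s1) + q • (y, s2) := by
    ext
    · simp [← add_smul, hpq]
    · simp
  show gauge K (y, p • s1 + q • s2) ≤ p • gauge K (y, s1) + q • gauge K (y, s2)
  rw [e]
  calc _ ≤ gauge K (p • (y, s1)) + gauge K (q • (y, s2)) := gauge_add_le hc habs _ _
    _ = _ := by
      rw [gauge_smul_of_nonneg hp, gauge_smul_of_nonneg hq, smul_eq_mul, smul_eq_mul]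

lemma exists_low_point {K : Set (W × ℝ)} (hc : Convex ℝ K) (hK : IsCompact K)
    (h0 : K ∈ nhds (0 : W × ℝ)) (hP0 : Prod.fst '' K ∈ nhds (0 : W)) {y : W}
    (hy : y ∈ Prod.fst '' K) :
    ∃ s0, s0 ∈ fib K y ∧ gauge K (y, s0) ≤ gauge (Prod.fst '' K) y := by
  set P := Prod.fst '' K with hP
  have h0K : (0 : W × ℝ) ∈ K := mem_of_mem_nhds h0
  have hPcomp : IsCompact P := hK.image continuous_fst
  have hPc : Convex ℝ P := by
    rw [hP]
    exact hc.linear_image (LinearMap.fst ℝ W ℝ)
  have hPabs : Absorbent ℝ P := absorbent_nhds_zero hP0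
  have hPb : Bornology.IsVonNBounded ℝ P := (NormedSpace.isVonNBounded_iff ℝ).2 hPcomp.isBounded
  set t := gauge P y with ht
  have ht0 : 0 ≤ t := gauge_nonneg y
  have ht1 : t ≤ 1 := gauge_le_one_of_mem hy
  rcases ht0.eq_or_lt with h | hpos
  · have hy0 : y = 0 := (gauge_eq_zero hPabs hPb).1 h.symm
    subst hy0
    refine ⟨0, h0K, ?_⟩
    have : ((0 : W), (0 : ℝ)) = (0 : W × ℝ) := rfl
    rw [this, gauge_zero]
    exact ht0
  · have hg : gauge P (t⁻¹ • y) ≤ 1 := by
      rw [gauge_smul_of_nonneg (inv_nonneg.2 ht0), smul_eq_mul, ← ht, inv_mul_cancel₀ hpos.ne']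
    have hmem : t⁻¹ • y ∈ P := by
      have := (gauge_le_one_iff_mem_closure hPc hP0).1 hg
      rwa [hPcomp.isClosed.closure_eq] at this
    obtain ⟨⟨y', σ⟩, hp, hy'⟩ := hmem
    simp only at hy'
    subst hy'
    have e : ((y, t * σ) : W × ℝ) = t • (t⁻¹ • y, σ) := by
      ext
      · simp [smul_smul, mul_inv_cancel₀ hpos.ne']
      · simp
    refine ⟨t * σ, ?_, ?_⟩
    · show (y, t * σ) ∈ K
      rw [e]
      exact hc.smul_mem_of_zero_mem h0K hp ⟨ht0, ht1⟩
    · rw [e, gauge_smul_of_nonneg ht0, smul_eq_mul]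
      calc t * gauge K (t⁻¹ • y, σ) ≤ t * 1 := by
            gcongr
            exact gauge_le_one_of_mem hp
        _ = t := mul_one t

lemma fiber_lintegral_le {K : Set (W × ℝ)} (hc : Convex ℝ K) (hK : IsCompact K)
    (h0 : K ∈ nhds (0 : W × ℝ)) (hP0 : Prod.fst '' K ∈ nhds (0 : W)) {y : W}
    (hy : y ∈ Prod.fst '' K) {a b : ℝ} (ha : a ∈ fib K y) (hb : b ∈ fib K y)
    (hsub : fib K y ⊆ Icc a b) :
    ∫⁻ s in fib K y, ENNReal.ofReal ((2 / 5) * (1 + 2 * gauge K (y, s)))
      ≤ ENNReal.ofReal ((2 / 5) * (2 + gauge (Prod.fst '' K) y) * (b - a)) := by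
  obtain ⟨s0, hs0, hlow⟩ := exists_low_point hc hK h0 hP0 hy
  have hs0' := hsub hs0
  have hab : a ≤ b := hs0'.1.trans hs0'.2
  have hgc : Continuous (gauge K) := continuous_gauge hc h0
  have hφc : Continuous (fun s : ℝ => gauge K (y, s)) := hgc.comp (by fun_prop)
  have hchord := chord_integral_le hs0'.1 hs0'.2 (convexOn_gauge_line hc h0 y) hφc
    (gauge_le_one_of_mem ha) (gauge_le_one_of_mem hb) hlow
  let G : ℝ → ℝ := fun s => (2 / 5) * (1 + 2 * gauge K (y, s))
  have hGc : Continuous G := by fun_prop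
  have hGnn : ∀ s, 0 ≤ G s := fun s => by
    have := gauge_nonneg (s := K) (y, s)
    simp only [G]
    positivity
  calc ∫⁻ s in fib K y, ENNReal.ofReal (G s) ≤ ∫⁻ s in Icc a b, ENNReal.ofReal (G s) :=
        lintegral_mono_set hsub
    _ = ENNReal.ofReal (∫ s in a..b, G s) := by
        rw [intervalIntegral.integral_of_le hab, ← integral_Icc_eq_integral_Ioc,
          ofReal_integral_eq_lintegral_ofReal hGc.integrableOn_Icc
          (Filter.Eventually.of_forall hGnn)]
    _ ≤ _ := by
        apply ENNReal.ofReal_le_ofReal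
        have e1 : ∫ s in a..b, G s = (2 / 5) * ((b - a) + 2 * ∫ s in a..b, gauge K (y, s)) := by
          simp only [G]
          rw [intervalIntegral.integral_const_mul, intervalIntegral.integral_add
            (by apply Continuous.intervalIntegrable; fun_prop)
            (by apply Continuous.intervalIntegrable; fun_prop),
            intervalIntegral.integral_const_mul]
          simp
        rw [e1]
        nlinarith

end Fibre

section Cylinder

variable {W : Type*} [NormedAddCommGroup W] [NormedSpace ℝ W] [FiniteDimensional ℝ W]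
  [MeasurableSpace W] [BorelSpace W]

/-- The density integrated over one cylinder. -/
lemma cylinder_bound (μ : Measure W) [μ.IsAddHaarMeasure] (hW : finrank ℝ W = 2)
    {K : Set (W × ℝ)} (hc : Convex ℝ K) (hK : IsCompact K) (h0 : K ∈ nhds (0 : W × ℝ))
    (hs : ∀ x ∈ K, -x ∈ K) {B : Set W} (hB : MeasurableSet B) :
    (∫⁻ x in K ∩ Prod.fst ⁻¹' B, ENNReal.ofReal ((2 / 5) * (1 + 2 * gauge K x)) ∂(μ.prod volume))
        * μ (Prod.fst '' K)
      ≤ ENNReal.ofReal (12 / 5) * (μ.prod volume) K * μ B := by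
  have hP0 : Prod.fst '' K ∈ nhds (0 : W) := isOpenMap_fst.image_mem_nhds h0
  set P := Prod.fst '' K with hP
  have hPfin : μ P ≠ ⊤ := (hK.image continuous_fst).measure_lt_top.ne
  set A := K ∩ Prod.fst ⁻¹' B with hA
  have hAm : MeasurableSet A := hK.measurableSet.inter (measurable_fst hB)
  let F : W × ℝ → ℝ≥0∞ := fun x => ENNReal.ofReal ((2 / 5) * (1 + 2 * gauge K x))
  have hgc : Continuous (gauge K) := continuous_gauge hc h0
  have hFm : Measurable F := by
    apply ENNReal.measurable_ofReal.comp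
    exact (hgc.const_mul 2 |>.const_add 1 |>.const_mul (2 / 5)).measurable
  set c : ℝ≥0∞ := ENNReal.ofReal (12 / 5) * (μ.prod volume) K with hcdef
  have hinner : ∀ z, (∫⁻ s, A.indicator F (z, s)) * μ P ≤ B.indicator (fun _ => c) z := by
    intro z
    by_cases hz : z ∈ B
    · rw [indicator_of_mem hz]
      have e : ∀ s, A.indicator F (z, s) = (fib K z).indicator (fun s => F (z, s)) s := by
        intro s
        by_cases hsK : (z, s) ∈ K
        · have h1 : (z, s) ∈ A := ⟨hsK, hz⟩
          have h2 : s ∈ fib K z := hsK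
          rw [indicator_of_mem h1, indicator_of_mem h2]
        · have h1 : (z, s) ∉ A := fun h => hsK h.1
          have h2 : s ∉ fib K z := hsK
          rw [indicator_of_notMem h1, indicator_of_notMem h2]
      simp_rw [e]
      rw [lintegral_indicator (fib_compact hK z).measurableSet]
      by_cases hzP : z ∈ P
      · obtain ⟨a, b, ha, hb, hsub⟩ := exists_fib_extremes hK hzP
        have h1 := fiber_lintegral_le hc hK h0 hP0 hzP ha hb hsub
        have h2 := volume_bound μ hW hc hK hs hP0 ha hb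
        have ht0 : 0 ≤ gauge P z := gauge_nonneg z
        have hab : 0 ≤ b - a := by
          have := hsub ha
          linarith [this.2]
        have e2 : ENNReal.ofReal ((2 / 5) * (2 + gauge P z) * (b - a))
            = ENNReal.ofReal (12 / 5) * ENNReal.ofReal ((b - a) * (2 + gauge P z) / 6) := by
          rw [← ENNReal.ofReal_mul (by norm_num)]
          congr 1
          ring
        calc (∫⁻ s in fib K z, F (z, s)) * μ P
            ≤ ENNReal.ofReal ((2 / 5) * (2 + gauge P z) * (b - a)) * μ P := by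
              gcongr
          _ = ENNReal.ofReal (12 / 5) * (ENNReal.ofReal ((b - a) * (2 + gauge P z) / 6) * μ P) := by
              rw [e2, mul_assoc]
          _ ≤ c := by
              rw [hcdef]
              gcongr
      · have hemp : fib K z = ∅ := by
          ext s
          simp only [mem_empty_iff_false, iff_false]
          intro hs'
          exact hzP ⟨(z, s), hs', rfl⟩
        simp [hemp]
    · rw [indicator_of_notMem hz]
      have : ∀ s, A.indicator F (z, s) = 0 := by
        intro s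
        have h1 : (z, s) ∉ A := fun h => hz h.2
        rw [indicator_of_notMem h1]
      simp [this]
  calc (∫⁻ x in A, F x ∂(μ.prod volume)) * μ P
      = (∫⁻ z, ∫⁻ s, A.indicator F (z, s) ∂volume ∂μ) * μ P := by
        rw [← lintegral_indicator hAm, lintegral_prod _ (hFm.indicator hAm).aemeasurable]
    _ = ∫⁻ z, (∫⁻ s, A.indicator F (z, s)) * μ P ∂μ := by
        rw [lintegral_mul_const' _ _ hPfin]
    _ ≤ ∫⁻ z, B.indicator (fun _ => c) z ∂μ := lintegral_mono hinner
    _ = c * μ B := lintegral_indicator_const hB c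

end Cylinder

section Mean

variable {E : Type*} [NormedAddCommGroup E] [NormedSpace ℝ E] [FiniteDimensional ℝ E]
  [MeasurableSpace E] [BorelSpace E]

/-- The gauge has mean at least `3 / 4` on the body. -/
lemma mean_gauge (μ : Measure E) [μ.IsAddHaarMeasure] (hE : finrank ℝ E = 3)
    {K : Set E} (hc : Convex ℝ K) (hK : IsCompact K) (h0 : K ∈ nhds (0 : E)) :
    ENNReal.ofReal (3 / 4) * μ K ≤ ∫⁻ x in K, ENNReal.ofReal (gauge K x) ∂μ := by
  have hgc : Continuous (gauge K) := continuous_gauge hc h0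
  have hfin : μ K ≠ ⊤ := hK.measure_lt_top.ne
  have hlc := lintegral_eq_lintegral_meas_le (μ.restrict K) (f := gauge K)
    (Filter.Eventually.of_forall fun x => gauge_nonneg x) hgc.measurable.aemeasurable
  rw [hlc]
  have hint : ∫⁻ l in Ioo (0 : ℝ) 1, ENNReal.ofReal (1 - l ^ 3) = ENNReal.ofReal (3 / 4) := by
    rw [← ofReal_integral_eq_lintegral_ofReal
      ((by fun_prop : Continuous fun l : ℝ => 1 - l ^ 3).integrableOn_Icc.mono_set
        Ioo_subset_Icc_self)
      ((ae_restrict_iff' measurableSet_Ioo).2 (Filter.Eventually.of_forall ?_))]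
    · rw [← integral_Ioc_eq_integral_Ioo, ← intervalIntegral.integral_of_le zero_le_one]
      congr 1
      simp
      norm_num
    · rintro l ⟨h1, h2⟩
      have : l ^ 3 ≤ 1 := pow_le_one₀ h1.le h2.le
      simpa using this
  calc ENNReal.ofReal (3 / 4) * μ K
      = ∫⁻ l in Ioo (0 : ℝ) 1, ENNReal.ofReal (1 - l ^ 3) * μ K := by
        rw [lintegral_mul_const _ (by fun_prop), hint]
    _ ≤ ∫⁻ l in Ioo (0 : ℝ) 1, (μ.restrict K) {a | l ≤ gauge K a} := by
        apply setLIntegral_mono' measurableSet_Ioo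
        rintro l ⟨h1, h2⟩
        have hmeas : MeasurableSet {a | l ≤ gauge K a} :=
          (isClosed_le continuous_const hgc).measurableSet
        rw [Measure.restrict_apply hmeas]
        have hcov : K ⊆ ({a | l ≤ gauge K a} ∩ K) ∪ (l • K) := by
          intro x hx
          by_cases hlx : l ≤ gauge K x
          · exact Or.inl ⟨hlx, hx⟩
          · right
            rw [mem_smul_set_iff_inv_smul_mem₀ h1.ne']
            have hg : gauge K (l⁻¹ • x) ≤ 1 := by
              rw [gauge_smul_of_nonneg (inv_nonneg.2 h1.le), smul_eq_mul]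
              have : gauge K x ≤ l := (not_le.1 hlx).le
              calc l⁻¹ * gauge K x ≤ l⁻¹ * l := by gcongr
                _ = 1 := inv_mul_cancel₀ h1.ne'
            have := (gauge_le_one_iff_mem_closure hc h0).1 hg
            rwa [hK.isClosed.closure_eq] at this
        have hle : μ K ≤ μ ({a | l ≤ gauge K a} ∩ K) + ENNReal.ofReal (l ^ 3) * μ K := by
          calc μ K ≤ μ (({a | l ≤ gauge K a} ∩ K) ∪ (l • K)) := measure_mono hcov
            _ ≤ μ ({a | l ≤ gauge K a} ∩ K) + μ (l • K) := measure_union_le _ _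
            _ = _ := by
              rw [Measure.addHaar_smul_of_nonneg μ h1.le, hE]
        have hl3 : 0 ≤ l ^ 3 := by positivity
        have hl31 : l ^ 3 ≤ 1 := pow_le_one₀ h1.le h2.le
        have hsplit : ENNReal.ofReal (1 - l ^ 3) * μ K + ENNReal.ofReal (l ^ 3) * μ K = μ K := by
          rw [← add_mul, ← ENNReal.ofReal_add (by linarith) hl3]
          simp
        apply (ENNReal.add_le_add_iff_right (ENNReal.mul_ne_top ENNReal.ofReal_ne_top hfin)).1
        rw [hsplit]
        exact hle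
    _ ≤ _ := lintegral_mono_set Ioo_subset_Ioi_self

/-- The density has total mass at least the volume. -/
lemma density_ge (μ : Measure E) [μ.IsAddHaarMeasure] (hE : finrank ℝ E = 3)
    {K : Set E} (hc : Convex ℝ K) (hK : IsCompact K) (h0 : K ∈ nhds (0 : E)) :
    μ K ≤ ∫⁻ x in K, ENNReal.ofReal ((2 / 5) * (1 + 2 * gauge K x)) ∂μ := by
  have hgc : Continuous (gauge K) := continuous_gauge hc h0
  have e : ∀ x, ENNReal.ofReal ((2 / 5) * (1 + 2 * gauge K x))
      = ENNReal.ofReal (2 / 5) + ENNReal.ofReal (4 / 5) * ENNReal.ofReal (gauge K x) := by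
    intro x
    have := gauge_nonneg (s := K) x
    rw [← ENNReal.ofReal_mul (by norm_num), ← ENNReal.ofReal_add (by norm_num) (by positivity)]
    congr 1
    ring
  simp_rw [e]
  rw [lintegral_add_left measurable_const, lintegral_const,
    lintegral_const_mul _ (by fun_prop), Measure.restrict_apply_univ]
  have h := mean_gauge μ hE hc hK h0
  calc μ K = ENNReal.ofReal (2 / 5) * μ K + ENNReal.ofReal (4 / 5) * (ENNReal.ofReal (3 / 4) * μ K) := by
        rw [← mul_assoc, ← add_mul, ← ENNReal.ofReal_mul (by norm_num),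
          ← ENNReal.ofReal_add (by norm_num) (by norm_num)]
        norm_num
    _ ≤ _ := by gcongr

end Mean

section Transfer

open scoped InnerProductSpace

variable {E : Type*} [NormedAddCommGroup E] [InnerProductSpace ℝ E] [FiniteDimensional ℝ E]
  [MeasurableSpace E] [BorelSpace E]

lemma measurePreserving_span (u : E) (hu : ‖u‖ = 1) :
    MeasurePreserving (LinearIsometryEquiv.toSpanUnitSingleton (𝕜 := ℝ) u hu)
      (volume : Measure ℝ) (volume : Measure (Submodule.span ℝ {u})) := by
  refine ⟨(LinearIsometryEquiv.toSpanUnitSingleton (𝕜 := ℝ) u hu).continuous.measurable, ?_⟩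
  have hu0 : u ≠ 0 := by
    intro h
    simp [h] at hu
  have hv : (⟨u, Submodule.mem_span_singleton_self u⟩ : Submodule.span ℝ {u}) ≠ 0 := by
    intro h
    exact hu0 (congrArg Subtype.val h)
  rw [MeasureTheory.volume_eq_of_finrank_eq_one (E := Submodule.span ℝ {u})
    (finrank_span_singleton hu0) hv]
  have hnorm : ‖(⟨u, Submodule.mem_span_singleton_self u⟩ : Submodule.span ℝ {u})‖ₑ = 1 := by
    rw [enorm_eq_nnnorm]
    simp [nnnorm, hu]
  rw [hnorm, one_smul]
  congr 1

end Transfer

end Vale.Agent.Lib.P243
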