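import Vale.Agent.Lib.P243.PartC

open MeasureTheory Set Module Filter Topology TopologicalSpace
open scoped ENNReal Pointwise RealInnerProductSpace

namespace Vale.Agent.Lib.P243

variable {E : Type*} [NormedAddCommGroup E] [InnerProductSpace ℝ E] [FiniteDimensional ℝ E]
  [MeasurableSpace E] [BorelSpace E]
variable {F : Type*} [NormedAddCommGroup F] [InnerProductSpace ℝ F] [FiniteDimensional ℝ F]
  [MeasurableSpace F] [BorelSpace F]

lemma Cert.mono {K : Set E} {f : E → ℝ≥0∞} {C C' : ℝ} (h : Cert K f C) (hC : C ≤ C') : Cert K f C' :=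
  ⟨h.meas, h.supp, h.le_one, h.pos, fun u hu z => (h.xray u hu z).trans (by
    gcongr)⟩

lemma lint_scale (h : ℝ → ℝ≥0∞) (hm : Measurable h) (r : ℝ) {ℓ : ℝ} (hℓ : 0 < ℓ) :
    ∫⁻ t : ℝ, h (r + ℓ * t) = ENNReal.ofReal ℓ⁻¹ * ∫⁻ s, h s := by
  have h1 : Measurable fun s : ℝ => h (r + s) := hm.comp (measurable_const.add measurable_id)
  have h2 : ∫⁻ t : ℝ, h (r + ℓ * t) = ∫⁻ s, h (r + s) ∂(Measure.map (ℓ * ·) volume) := by
    rw [lintegral_map h1 (by fun_prop : Measurable fun x : ℝ => ℓ * x)]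
  rw [h2, Real.map_volume_mul_left hℓ.ne', lintegral_smul_measure,
    lintegral_add_left_eq_self h, abs_of_pos (inv_pos.2 hℓ), smul_eq_mul]

/-- The Haar factor of a continuous linear equivalence. -/
lemma exists_haar_factor (G : E ≃L[ℝ] F) :
    ∃ κ : ℝ≥0∞, κ ≠ 0 ∧ κ ≠ ⊤ ∧ Measure.map G (volume : Measure E) = κ • (volume : Measure F) := by
  have : (Measure.map G (volume : Measure E)).IsAddHaarMeasure := G.isAddHaarMeasure_map volume
  refine ⟨Measure.addHaarScalarFactor (Measure.map G (volume : Measure E)) (volume : Measure F), ?_,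
    ENNReal.coe_ne_top, Measure.isAddLeftInvariant_eq_smul _ _⟩
  simpa only [ne_eq, ENNReal.coe_eq_zero] using
    (Measure.addHaarScalarFactor_pos_of_isAddHaarMeasure (Measure.map G (volume : Measure E))
      (volume : Measure F)).ne'

/-- The affine invariance of the certificate. -/
theorem Cert.comp_affine {K : Set E} (hB : Body K)
    (G : E ≃L[ℝ] F) (b : F) {f : F → ℝ≥0∞} {C : ℝ}
    (h : Cert ((fun x => G x + b) '' K) f C) : Cert K (fun x => f (G x + b)) C := by
  obtain ⟨κ, hκ0, hκt, hmap⟩ := exists_haar_factor G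
  have hΦc : Continuous fun x => G x + b := by fun_prop
  have hΦinj : Function.Injective fun x => G x + b := fun x y hxy => by
    have : G x = G y := by simpa using hxy
    exact G.injective this
  have hint : ∀ g : F → ℝ≥0∞, Measurable g → ∫⁻ x, g (G x + b) = κ * ∫⁻ y, g y := by
    intro g hg
    have h1 : Measurable fun y => g (y + b) := hg.comp (measurable_id.add_const b)
    have h2 : ∫⁻ x, g (G x + b) = ∫⁻ y, g (y + b) ∂(Measure.map G volume) := by
      rw [lintegral_map h1 G.continuous.measurable]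
    rw [h2, hmap, lintegral_smul_measure, lintegral_add_right_eq_self g, smul_eq_mul]
  have hvol : ∀ S : Set E, IsCompact S → volume S = κ * volume ((fun x => G x + b) '' S) := by
    intro S hS
    have hm : MeasurableSet ((fun x => G x + b) '' S) := (hS.image hΦc).measurableSet
    have h1 := hint ((fun x => G x + b) '' S |>.indicator 1) (measurable_one.indicator hm)
    rw [lintegral_indicator_one hm] at h1
    rw [← h1, ← lintegral_indicator_one hS.measurableSet]
    apply lintegral_congr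
    intro x
    by_cases hx : x ∈ S
    · rw [indicator_of_mem hx, indicator_of_mem (mem_image_of_mem _ hx)]
      rfl
    · rw [indicator_of_notMem hx, indicator_of_notMem]
      rintro ⟨y, hy, hye⟩
      exact hx (hΦinj hye ▸ hy)
  set K0 := (fun x => G x + b) '' K with hK0
  refine ⟨h.meas.comp hΦc.measurable, fun x hx => ?_, fun x => h.le_one _, ?_, ?_⟩
  · apply h.supp
    rintro ⟨y, hy, hye⟩
    exact hx (hΦinj hye ▸ hy)
  · rw [hint f h.meas]
    exact mul_ne_zero hκ0 h.pos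
  intro u hu z
  rw [hint f h.meas]
  have hu0 : u ≠ 0 := by
    intro h0
    simp [h0] at hu
  have hv0 : G u ≠ 0 := fun h0 => hu0 (G.map_eq_zero_iff.1 h0)
  set ℓ := ‖G u‖ with hℓ
  have hℓ0 : 0 < ℓ := norm_pos_iff.2 hv0
  set u0 := ℓ⁻¹ • G u with hu0def
  have hu0n : ‖u0‖ = 1 := by
    rw [hu0def, norm_smul, norm_inv, norm_norm, inv_mul_cancel₀ hℓ0.ne']
  have hv : ℓ • u0 = G u := by rw [hu0def, smul_smul, mul_inv_cancel₀ hℓ0.ne', one_smul]
  set T0 := splitEquiv u0 hu0n with hT0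
  set w0 := (T0 (G z + b)).1 with hw0
  set r := (T0 (G z + b)).2 with hr
  have hdec : G z + b = (w0 : F) + r • u0 := by
    rw [← splitEquiv_symm u0 hu0n]
    show _ = T0.symm (w0, r)
    have e0 : (w0, r) = T0 (G z + b) := rfl
    rw [e0]
    exact (T0.symm_apply_apply _).symm
  have hpt : ∀ t : ℝ, G ((z : E) + t • u) + b = (w0 : F) + (r + ℓ * t) • u0 := by
    intro t
    have e1 : G ((z : E) + t • u) + b = (G z + b) + t • G u := by
      rw [map_add, map_smul]
      abel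
    rw [e1, hdec, ← hv]
    module
  let hh : ℝ → ℝ≥0∞ := fun s => f ((w0 : F) + s • u0)
  have hhm : Measurable hh := h.meas.comp (by fun_prop)
  have hX : ∫⁻ t : ℝ, f (G ((z : E) + t • u) + b) = ENNReal.ofReal ℓ⁻¹ * ∫⁻ s, hh s := by
    have : ∀ t : ℝ, f (G ((z : E) + t • u) + b) = hh (r + ℓ * t) := fun t => by
      simp only [hh, hpt]
    simp_rw [this]
    exact lint_scale hh hhm r hℓ0
  rw [hX]
  -- the areas
  have hsw : (fun x => G x + b) '' sweep K u = sweep K0 (G u) := by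
    ext y
    constructor
    · rintro ⟨x, hx, rfl⟩
      obtain ⟨k, hk, t, ht, rfl⟩ := mem_sweep.1 hx
      refine mem_sweep.2 ⟨G k + b, mem_image_of_mem _ hk, t, ht, ?_⟩
      simp only [map_add, map_smul]
      abel
    · intro hy
      obtain ⟨_, ⟨k, hk, rfl⟩, t, ht, rfl⟩ := mem_sweep.1 hy
      refine ⟨k + t • u, mem_sweep.2 ⟨k, hk, t, ht, rfl⟩, ?_⟩
      simp only [map_add, map_smul]
      abel
  have hK0B : Convex ℝ K0 ∧ IsCompact K0 := by
    refine ⟨?_, hB.hK.image hΦc⟩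
    have := (hB.hc.linear_image (G.toLinearEquiv.toLinearMap : E →ₗ[ℝ] F)).translate b
    convert this using 1
    ext y
    simp only [hK0, mem_image]
    constructor
    · rintro ⟨x, hx, rfl⟩
      exact ⟨G x, ⟨x, hx, rfl⟩, add_comm _ _⟩
    · rintro ⟨_, ⟨x, hx, rfl⟩, rfl⟩
      exact ⟨x, hx, add_comm _ _⟩
  have hA1 : volume (sweep K u) = volume K +
      volume ((Submodule.span ℝ {u})ᗮ.orthogonalProjectionOnto '' K) := by
    have := volume_sweep hB.hc hB.hK u hu (L := 1) zero_le_one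
    simpa using this
  have hA2 : volume (sweep K0 (G u)) = volume K0 +
      ENNReal.ofReal ℓ * volume ((Submodule.span ℝ {u0})ᗮ.orthogonalProjectionOnto '' K0) := by
    rw [← hv]
    exact volume_sweep hK0B.1 hK0B.2 u0 hu0n hℓ0.le
  have hA3 : volume (sweep K u) = κ * volume (sweep K0 (G u)) := by
    rw [← hsw]
    exact hvol _ (sweep_compact hB.hK u)
  have hA4 : volume K = κ * volume K0 := hvol K hB.hK
  set A := volume ((Submodule.span ℝ {u})ᗮ.orthogonalProjectionOnto '' K) with hA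
  set A0 := volume ((Submodule.span ℝ {u0})ᗮ.orthogonalProjectionOnto '' K0) with hA0
  have hA5 : A = κ * (ENNReal.ofReal ℓ * A0) := by
    have e1 : volume K + A = volume K + κ * (ENNReal.ofReal ℓ * A0) := by
      rw [← hA1, hA3, hA2, mul_add, ← hA4]
    exact (ENNReal.add_right_inj hB.vol_fin).1 e1
  have hz := h.xray u0 hu0n w0
  calc (ENNReal.ofReal ℓ⁻¹ * ∫⁻ s, hh s) * A
      = κ * ((ENNReal.ofReal ℓ⁻¹ * ENNReal.ofReal ℓ) * ((∫⁻ s, hh s) * A0)) := by
        rw [hA5]
        ring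
    _ = κ * ((∫⁻ s, hh s) * A0) := by
        rw [← ENNReal.ofReal_mul (inv_pos.2 hℓ0).le, inv_mul_cancel₀ hℓ0.ne']
        simp
    _ ≤ κ * (ENNReal.ofReal C * ∫⁻ y, f y) := by
        gcongr
    _ = ENNReal.ofReal C * (κ * ∫⁻ y, f y) := by ring

/-- The certificate passes to nearby bodies after a small dilation. -/
theorem Cert.scale (hE : finrank ℝ E = 3) {K K' : Set E} {f : E → ℝ≥0∞} {C : ℝ} (hcert : Cert K f C)
    {ρ : ℝ} (hρ : 0 < ρ) (hin : ∀ x, ρ • x ∈ K → x ∈ K') (hout : ∀ x ∈ K', ρ⁻¹ • x ∈ K) :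
    Cert K' (fun x => f (ρ • x)) (ρ ^ 4 * C) := by
  have hsmul : Measurable fun x : E => ρ • x := measurable_const_smul ρ
  have hI : ∫⁻ x, f (ρ • x) = ENNReal.ofReal (ρ ^ 3)⁻¹ * ∫⁻ x, f x := by
    have h1 : ∫⁻ x, f (ρ • x) = ∫⁻ y, f y ∂(Measure.map (fun x : E => ρ • x) volume) := by
      rw [lintegral_map hcert.meas hsmul]
    rw [h1, Measure.map_addHaar_smul volume hρ.ne', lintegral_smul_measure, hE, smul_eq_mul,
      abs_of_pos (by positivity)]
  have hI2 : ∫⁻ x, f x = ENNReal.ofReal (ρ ^ 3) * ∫⁻ x, f (ρ • x) := by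
    rw [hI, ← mul_assoc, ← ENNReal.ofReal_mul (by positivity), mul_inv_cancel₀ (by positivity)]
    simp
  refine ⟨hcert.meas.comp hsmul, fun x hx => hcert.supp _ (fun h => hx (hin x h)),
    fun x => hcert.le_one _, ?_, ?_⟩
  · intro h0
    rw [h0, mul_zero] at hI2
    exact hcert.pos hI2
  intro u hu z
  let z1 : (Submodule.span ℝ {u})ᗮ := ρ • z
  let hh : ℝ → ℝ≥0∞ := fun s => f ((z1 : E) + s • u)
  have hhm : Measurable hh := hcert.meas.comp (by fun_prop)
  have hX : ∫⁻ t : ℝ, f (ρ • ((z : E) + t • u)) = ENNReal.ofReal ρ⁻¹ * ∫⁻ s, hh s := by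
    have h1 : ∀ t : ℝ, f (ρ • ((z : E) + t • u)) = hh (0 + ρ * t) := by
      intro t
      simp only [hh, z1, zero_add, Submodule.coe_smul, smul_add, smul_smul]
    simp_rw [h1]
    exact lint_scale hh hhm 0 hρ
  have hA : volume ((Submodule.span ℝ {u})ᗮ.orthogonalProjectionOnto '' K') ≤
      ENNReal.ofReal (ρ ^ 2) * volume ((Submodule.span ℝ {u})ᗮ.orthogonalProjectionOnto '' K) := by
    have hsub : (Submodule.span ℝ {u})ᗮ.orthogonalProjectionOnto '' K' ⊆
        ρ • ((Submodule.span ℝ {u})ᗮ.orthogonalProjectionOnto '' K) := by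
      rintro _ ⟨x, hx, rfl⟩
      refine ⟨_, ⟨ρ⁻¹ • x, hout x hx, rfl⟩, ?_⟩
      simp only [map_smul, smul_smul, mul_inv_cancel₀ hρ.ne', one_smul]
    refine (measure_mono hsub).trans (le_of_eq ?_)
    rw [Measure.addHaar_smul, finrank_perp hE hu, abs_of_pos (by positivity)]
  have hz := hcert.xray u hu z1
  rw [hX]
  set X := ∫⁻ s, hh s with hXdef
  set A := volume ((Submodule.span ℝ {u})ᗮ.orthogonalProjectionOnto '' K) with hAdef
  set I := ∫⁻ x, f (ρ • x) with hIdef
  calc (ENNReal.ofReal ρ⁻¹ * X) * volume ((Submodule.span ℝ {u})ᗮ.orthogonalProjectionOnto '' K')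
      ≤ (ENNReal.ofReal ρ⁻¹ * X) * (ENNReal.ofReal (ρ ^ 2) * A) := by gcongr
    _ = (ENNReal.ofReal ρ⁻¹ * ENNReal.ofReal (ρ ^ 2)) * (X * A) := by ring
    _ = ENNReal.ofReal ρ * (X * A) := by
        rw [← ENNReal.ofReal_mul (inv_pos.2 hρ).le]
        congr 2
        field_simp
    _ ≤ ENNReal.ofReal ρ * (ENNReal.ofReal C * (ENNReal.ofReal (ρ ^ 3) * I)) := by
        rw [← hI2]
        gcongr
    _ = (ENNReal.ofReal ρ * ENNReal.ofReal (ρ ^ 3)) * ENNReal.ofReal C * I := by ring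
    _ = ENNReal.ofReal (ρ ^ 4 * C) * I := by
        rw [← ENNReal.ofReal_mul hρ.le, ENNReal.ofReal_mul (by positivity : (0 : ℝ) ≤ ρ ^ 4)]
        congr 3
        ring

end Vale.Agent.Lib.P243
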