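import Vale.Agent.Lib.P243.Normalize

open MeasureTheory Set Module Filter Topology TopologicalSpace
open scoped ENNReal Pointwise RealInnerProductSpace

namespace Vale.Agent.Lib.P243

/-- The compact family of normalised convex bodies. -/
def NN : Set (NonemptyCompacts E0) :=
  {K | Convex ℝ (K : Set E0) ∧ Metric.closedBall 0 (1 / 12) ⊆ (K : Set E0) ∧
    (K : Set E0) ⊆ Metric.closedBall 0 3}

lemma hd_mem {K K' : NonemptyCompacts E0} {ε : ℝ} (h : dist K K' < ε) {x : E0} (hx : x ∈ (K : Set E0)) :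
    ∃ y ∈ (K' : Set E0), dist x y < ε := by
  rw [Metric.NonemptyCompacts.dist_eq] at h
  exact Metric.exists_dist_lt_of_hausdorffDist_lt hx h
    (Metric.hausdorffEDist_ne_top_of_nonempty_of_bounded K.nonempty K'.nonempty
      K.isCompact.isBounded K'.isCompact.isBounded)

lemma mem_of_forall_near {K : NonemptyCompacts E0} {x : E0}
    (h : ∀ ε > 0, ∃ y ∈ (K : Set E0), dist x y < ε) : x ∈ (K : Set E0) := by
  have hcl : IsClosed (K : Set E0) := K.isCompact.isClosed
  rw [← hcl.closure_eq, Metric.mem_closure_iff]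
  exact h

lemma isClosed_NN : IsClosed NN := by
  apply isClosed_of_closure_subset
  intro K hK
  rw [Metric.mem_closure_iff] at hK
  refine ⟨?_, ?_, ?_⟩
  · intro x hx y hy a c ha hc hac
    apply mem_of_forall_near
    intro ε hε
    obtain ⟨K', hK', hd⟩ := hK (ε / 2) (by positivity)
    obtain ⟨x', hx', hxd⟩ := hd_mem hd hx
    obtain ⟨y', hy', hyd⟩ := hd_mem hd hy
    have hm := hK'.1 hx' hy' ha hc hac
    rw [dist_comm] at hd
    obtain ⟨w, hw, hwd⟩ := hd_mem hd hm
    refine ⟨w, hw, ?_⟩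
    have h1 : dist (a • x + c • y) (a • x' + c • y') ≤ ε / 2 := by
      rw [dist_eq_norm]
      have e : a • x + c • y - (a • x' + c • y') = a • (x - x') + c • (y - y') := by module
      rw [e]
      refine (norm_add_le _ _).trans ?_
      rw [norm_smul, norm_smul, Real.norm_eq_abs, Real.norm_eq_abs, abs_of_nonneg ha,
        abs_of_nonneg hc, ← dist_eq_norm, ← dist_eq_norm]
      have h2 : a * dist x x' ≤ a * (ε / 2) := mul_le_mul_of_nonneg_left hxd.le ha
      have h3 : c * dist y y' ≤ c * (ε / 2) := mul_le_mul_of_nonneg_left hyd.le hc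
      have h4 : a * (ε / 2) + c * (ε / 2) = ε / 2 := by
        rw [← add_mul, hac, one_mul]
      linarith
    have h5 := dist_triangle (a • x + c • y) (a • x' + c • y') w
    linarith
  · intro x hx
    apply mem_of_forall_near
    intro ε hε
    obtain ⟨K', hK', hd⟩ := hK ε hε
    rw [dist_comm] at hd
    exact hd_mem hd (hK'.2.1 hx)
  · intro x hx
    rw [mem_closedBall_zero_iff]
    apply le_of_forall_pos_le_add
    intro ε hε
    obtain ⟨K', hK', hd⟩ := hK ε hε
    obtain ⟨y, hy, hyd⟩ := hd_mem hd hx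
    have h1 := hK'.2.2 hy
    rw [mem_closedBall_zero_iff] at h1
    rw [dist_eq_norm] at hyd
    have h2 : ‖x‖ ≤ ‖x - y‖ + ‖y‖ := by
      have := norm_add_le (x - y) y
      simpa using this
    linarith

lemma isCompact_NN : IsCompact NN := by
  have h := NonemptyCompacts.totallyBounded_subsets_of_totallyBounded
    (isCompact_closedBall (0 : E0) 3).totallyBounded
  exact (h.subset fun K hK => hK.2.2).isCompact_of_isClosed isClosed_NN

lemma body_of_NN {K : NonemptyCompacts E0} (hK : K ∈ NN) : Body (K : Set E0) := by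
  refine ⟨hK.1, K.isCompact, ⟨0, ?_⟩⟩
  refine interior_mono hK.2.1 ?_
  rw [interior_closedBall _ (by norm_num)]
  simp

/-- A point of a nearby body scales into the body. -/
lemma scale_in {K1 K2 : NonemptyCompacts E0} (h2 : K2 ∈ NN) {δ : ℝ} (hδ : 0 < δ)
    (hd : dist K1 K2 < δ) {w : E0} (hw : w ∈ (K1 : Set E0)) :
    (1 + 12 * δ)⁻¹ • w ∈ (K2 : Set E0) := by
  obtain ⟨y, hy, hyd⟩ := hd_mem hd hw
  set b := (12 * δ)⁻¹ • (w - y) with hb
  have hbm : b ∈ (K2 : Set E0) := by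
    apply h2.2.1
    rw [mem_closedBall_zero_iff, hb, norm_smul, norm_inv, Real.norm_eq_abs, abs_of_pos (by positivity)]
    rw [dist_eq_norm] at hyd
    rw [inv_mul_le_iff₀ (by positivity)]
    nlinarith
  have hρ : 0 < 1 + 12 * δ := by positivity
  have hm := h2.1 hy hbm (by positivity : 0 ≤ (1 + 12 * δ)⁻¹)
    (by positivity : 0 ≤ (1 + 12 * δ)⁻¹ * (12 * δ)) (by field_simp)
  convert hm using 1
  rw [hb, smul_smul, mul_assoc, mul_inv_cancel₀ (by positivity), mul_one, ← smul_add]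
  congr 1
  abel

/-- Near each normalised body the certificates persist. -/
lemma local_cert {K : NonemptyCompacts E0} (hK : K ∈ NN) :
    ∃ δ > 0, ∃ C0 : ℝ, C0 < 3 ∧ 0 < C0 ∧
      ∀ K' ∈ NN, dist K' K < δ → ∃ f, Cert (K' : Set E0) f C0 := by
  have hfr : finrank ℝ E0 = 3 := by simp
  obtain ⟨f, C, hC3, hC0, hcert⟩ := partA hfr (body_of_NN hK)
  set C0 := (C + 3) / 2 with hC0def
  have hCC0 : C < C0 := by rw [hC0def]; linarith
  have hcont : Continuous fun δ : ℝ => (1 + 12 * δ) ^ 4 * C := by fun_prop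
  have hev : ∀ᶠ δ : ℝ in 𝓝 0, (1 + 12 * δ) ^ 4 * C < C0 := by
    have h0 : Tendsto (fun δ : ℝ => (1 + 12 * δ) ^ 4 * C) (𝓝 0) (𝓝 C) := by
      have := hcont.tendsto 0
      simpa using this
    exact h0.eventually (gt_mem_nhds hCC0)
  have hev2 : ∀ᶠ δ : ℝ in 𝓝[>] 0, (1 + 12 * δ) ^ 4 * C < C0 :=
    hev.filter_mono nhdsWithin_le_nhds
  obtain ⟨δ, hδ1, hδ0⟩ := (hev2.and self_mem_nhdsWithin).exists
  have hδpos : 0 < δ := hδ0
  refine ⟨δ, hδpos, C0, by rw [hC0def]; linarith, by rw [hC0def]; linarith, fun K' hK' hd => ?_⟩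
  set ρ := 1 + 12 * δ with hρ
  have hρ0 : 0 < ρ := by positivity
  refine ⟨fun x => f (ρ • x), (hcert.scale hfr hρ0 ?_ ?_).mono hδ1.le⟩
  · intro x hx
    rw [dist_comm] at hd
    have := scale_in hK' hδpos hd hx
    rwa [smul_smul, inv_mul_cancel₀ hρ0.ne', one_smul] at this
  · intro x hx
    exact scale_in hK hδpos hd hx

/-- A uniform certificate constant for all normalised bodies. -/
theorem uniform_cert : ∃ C0 : ℝ, C0 < 3 ∧ 0 < C0 ∧ ∀ K ∈ NN, ∃ f, Cert (K : Set E0) f C0 := by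
  let p : Set (NonemptyCompacts E0) → Prop := fun S =>
    ∃ C0 : ℝ, C0 < 3 ∧ 0 < C0 ∧ ∀ K ∈ S, ∃ f, Cert (K : Set E0) f C0
  have hp : p NN := by
    apply isCompact_NN.induction_on (p := p)
    · exact ⟨1, by norm_num, by norm_num, by simp⟩
    · rintro S T hST ⟨C0, h1, h2, h3⟩
      exact ⟨C0, h1, h2, fun K hK => h3 K (hST hK)⟩
    · rintro S T ⟨C0, h1, h2, h3⟩ ⟨C1, h4, h5, h6⟩
      refine ⟨max C0 C1, max_lt h1 h4, lt_max_of_lt_left h2, ?_⟩
      rintro K (hK | hK)
      · obtain ⟨f, hf⟩ := h3 K hK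
        exact ⟨f, hf.mono (le_max_left _ _)⟩
      · obtain ⟨f, hf⟩ := h6 K hK
        exact ⟨f, hf.mono (le_max_right _ _)⟩
    · intro K hK
      obtain ⟨δ, hδ, C0, h1, h2, h3⟩ := local_cert hK
      refine ⟨NN ∩ Metric.ball K δ, ?_, C0, h1, h2, ?_⟩
      · exact inter_mem_nhdsWithin _ (Metric.ball_mem_nhds K hδ)
      · rintro K' ⟨hK'N, hK'⟩
        exact h3 K' hK'N hK'
  exact hp

variable {E : Type*} [NormedAddCommGroup E] [InnerProductSpace ℝ E] [FiniteDimensional ℝ E]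
  [MeasurableSpace E] [BorelSpace E]

/-- The absolute strict improvement: a certificate constant below three for all convex bodies. -/
theorem exists_constant : ∃ C0 : ℝ, C0 < 3 ∧ 0 < C0 ∧
    ∀ {E : Type} [NormedAddCommGroup E] [InnerProductSpace ℝ E] [FiniteDimensional ℝ E]
      [MeasurableSpace E] [BorelSpace E], finrank ℝ E = 3 → ∀ K : Set E, Body K →
      ∃ f : E → ℝ≥0∞, Cert K f C0 := by
  obtain ⟨C0, h1, h2, h3⟩ := uniform_cert
  refine ⟨C0, h1, h2, ?_⟩
  intro E _ _ _ _ _ hE K hB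
  obtain ⟨G, b, hin, hout⟩ := exists_normalize hE hB
  set K0 := (fun x => G x + b) '' K with hK0
  have hc0 : Continuous fun x => G x + b := by fun_prop
  have hK0c : IsCompact K0 := hB.hK.image hc0
  have hK0v : Convex ℝ K0 := by
    rintro _ ⟨x, hx, rfl⟩ _ ⟨y, hy, rfl⟩ a c ha hc hac
    refine ⟨a • x + c • y, hB.hc hx hy ha hc hac, ?_⟩
    have e : b = (a + c) • b := by rw [hac, one_smul]
    simp only [map_add, map_smul]
    conv_lhs => rw [e]
    module
  have hne : K0.Nonempty := ⟨0, hin (by simp)⟩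
  let KK : NonemptyCompacts E0 := ⟨⟨K0, hK0c⟩, hne⟩
  have hKK : KK ∈ NN := ⟨hK0v, hin, hout⟩
  obtain ⟨f, hf⟩ := h3 KK hKK
  exact ⟨fun x => f (G x + b), hf.comp_affine hB G b⟩

end Vale.Agent.Lib.P243
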